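import Crest.Agent.R46.Defs

/-!
# R46: uniform probability on finite types, linearity test, rare defects
-/

set_option autoImplicit false
open Finset
open scoped Classical

namespace Crest.Agent.R46

/-- Uniform probability. -/
noncomputable def pr {Ω : Type*} [Fintype Ω] (E : Ω → Prop) : ℝ :=
  ((univ.filter E).card : ℝ) / Fintype.card Ω

section
variable {Ω Ω' : Type*} [Fintype Ω] [Fintype Ω'] {E E' : Ω → Prop}

theorem pr_nonneg (E : Ω → Prop) : 0 ≤ pr E := by
  unfold pr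
  positivity

theorem pr_mono (h : ∀ x, E x → E' x) : pr E ≤ pr E' := by
  unfold pr
  refine div_le_div_of_nonneg_right ?_ (Nat.cast_nonneg _)
  exact_mod_cast Finset.card_le_card (Finset.monotone_filter_right _ fun x _ => h x)

theorem pr_le_card (S : Finset Ω) (h : ∀ x, E x → x ∈ S) :
    pr E ≤ (S.card : ℝ) / Fintype.card Ω := by
  unfold pr
  refine div_le_div_of_nonneg_right ?_ (Nat.cast_nonneg _)
  exact_mod_cast Finset.card_le_card fun x hx => h x (Finset.mem_filter.mp hx).2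

theorem pr_or_le (E E' : Ω → Prop) : pr (fun x => E x ∨ E' x) ≤ pr E + pr E' := by
  refine le_trans (pr_le_card (univ.filter E ∪ univ.filter E') fun x hx => by simpa using hx) ?_
  unfold pr
  rw [← add_div]
  refine div_le_div_of_nonneg_right ?_ (Nat.cast_nonneg _)
  exact_mod_cast Finset.card_union_le _ _

theorem pr_exists_le {κ : Type*} [Fintype κ] (E : κ → Ω → Prop) :
    pr (fun x => ∃ k, E k x) ≤ ∑ k, pr (E k) := by
  refine le_trans (pr_le_card (univ.biUnion fun k => univ.filter (E k))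
    fun x hx => by simpa using hx) ?_
  unfold pr
  rw [← Finset.sum_div]
  refine div_le_div_of_nonneg_right ?_ (Nat.cast_nonneg _)
  exact_mod_cast Finset.card_biUnion_le

theorem pr_not [Nonempty Ω] (E : Ω → Prop) : pr (fun x => ¬ E x) = 1 - pr E := by
  unfold pr
  have h0 : (Fintype.card Ω : ℝ) ≠ 0 := Nat.cast_ne_zero.mpr Fintype.card_ne_zero
  have h := Finset.card_filter_add_card_filter_not (s := (univ : Finset Ω)) E
  rw [Finset.card_univ] at h
  have h1 : ((univ.filter E).card : ℝ) + ((univ.filter fun x => ¬ E x).card : ℝ) =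
      Fintype.card Ω := by exact_mod_cast h
  rw [eq_sub_iff_add_eq, ← add_div, div_eq_one_iff_eq h0, add_comm]
  convert h1

theorem exists_not_of_pr_lt [Nonempty Ω] (h : pr E < 1) : ∃ x, ¬ E x := by
  by_contra h1
  push Not at h1
  unfold pr at h
  have h0 : (Fintype.card Ω : ℝ) ≠ 0 := Nat.cast_ne_zero.mpr Fintype.card_ne_zero
  rw [Finset.filter_true_of_mem fun x _ => h1 x, Finset.card_univ, div_self h0] at h
  exact lt_irrefl _ h

/-- Pairwise disjoint events. -/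
theorem sum_pr_le_one {κ : Type*} [Fintype κ] (E : κ → Ω → Prop)
    (h : ∀ x k k', E k x → E k' x → k = k') : ∑ k, pr (E k) ≤ 1 := by
  unfold pr
  rw [← Finset.sum_div]
  refine div_le_one_of_le₀ ?_ (Nat.cast_nonneg _)
  have h1 := Finset.card_biUnion (s := (univ : Finset κ)) (t := fun k => univ.filter (E k))
    (fun k _ k' _ hk => Finset.disjoint_left.mpr fun x hx hx' =>
      hk (h x k k' (Finset.mem_filter.mp hx).2 (Finset.mem_filter.mp hx').2))
  have h2 := Finset.card_le_univ (univ.biUnion fun k => univ.filter (E k))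
  rw [h1] at h2
  exact_mod_cast h2

/-- At most `50` of pairwise disjoint events have probability `> 1/50`. -/
theorem card_heavy_le {κ : Type*} [Fintype κ] (E : κ → Ω → Prop)
    (h : ∀ x k k', E k x → E k' x → k = k') :
    (univ.filter fun k => 1 / 50 < pr (E k)).card ≤ 50 := by
  have h1 := sum_pr_le_one E h
  have h2 : ∑ k ∈ univ.filter (fun k => 1 / 50 < pr (E k)), pr (E k) ≤ ∑ k, pr (E k) :=
    Finset.sum_le_sum_of_subset_of_nonneg (Finset.subset_univ _) fun k _ _ => pr_nonneg _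
  have h3 := Finset.card_nsmul_le_sum (univ.filter (fun k => 1 / 50 < pr (E k)))
    (fun k => pr (E k)) (1 / 50) fun k hk => (Finset.mem_filter.mp hk).2.le
  rw [nsmul_eq_mul] at h3
  have h4 : ((univ.filter fun k => 1 / 50 < pr (E k)).card : ℝ) ≤ 50 := by linarith
  exact_mod_cast h4

theorem pr_prod_eq (E : Ω × Ω' → Prop) :
    pr E = (∑ x, pr (fun y => E (x, y))) / Fintype.card Ω := by
  unfold pr
  rw [← Finset.sum_div, div_div, Fintype.card_prod, Nat.cast_mul, mul_comm]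
  congr 1
  rw [← Nat.cast_sum]
  congr 1
  simp only [Finset.card_filter]
  rw [Fintype.sum_prod_type]

theorem pr_prod_le [Nonempty Ω] {E : Ω × Ω' → Prop} {δ : ℝ}
    (h : ∀ x, pr (fun y => E (x, y)) ≤ δ) : pr E ≤ δ := by
  have h0 : (0 : ℝ) < Fintype.card Ω := Nat.cast_pos.mpr Fintype.card_pos
  rw [pr_prod_eq, div_le_iff₀ h0]
  refine le_trans (Finset.sum_le_card_nsmul _ _ δ fun x _ => h x) ?_
  rw [nsmul_eq_mul, Finset.card_univ, mul_comm]

theorem exists_pr_fiber_le [Nonempty Ω] (E : Ω × Ω' → Prop) :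
    ∃ x, pr (fun y => E (x, y)) ≤ pr E := by
  by_contra h1
  push Not at h1
  have h0 : (0 : ℝ) < Fintype.card Ω := Nat.cast_pos.mpr Fintype.card_pos
  have h2 : ∑ _x : Ω, pr E < ∑ x, pr (fun y => E (x, y)) :=
    Finset.sum_lt_sum_of_nonempty Finset.univ_nonempty fun x _ => h1 x
  rw [Finset.sum_const, nsmul_eq_mul, Finset.card_univ, ← lt_div_iff₀' h0, ← pr_prod_eq] at h2
  exact lt_irrefl _ h2

theorem pr_equiv (e : Ω ≃ Ω') (E : Ω' → Prop) : pr (fun x => E (e x)) = pr E := by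
  unfold pr
  rw [Fintype.card_congr e]
  congr 2
  exact Finset.card_equiv e fun x => by simp

theorem pr_swap (E : Ω × Ω' → Prop) : pr (fun z : Ω' × Ω => E (z.2, z.1)) = pr E :=
  pr_equiv (Equiv.prodComm Ω' Ω) E

theorem card_filter_comp (f : Ω → Ω') (E : Ω' → Prop) :
    (univ.filter fun x => E (f x)).card =
      ∑ y ∈ univ.filter E, (univ.filter fun x => f x = y).card := by
  rw [Finset.card_eq_sum_card_fiberwise (f := f) (t := univ.filter E)
    (fun x hx => by simpa using hx)]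
  refine Finset.sum_congr rfl fun y hy => ?_
  congr 1
  ext x
  simp only [Finset.mem_filter, Finset.mem_univ, true_and] at hy ⊢
  constructor
  · exact fun h => h.2
  · rintro rfl
    exact ⟨hy, rfl⟩

theorem pr_comp_eq (f : Ω → Ω') {k : ℕ} (hk : 0 < k)
    (hf : ∀ y, (univ.filter fun x => f x = y).card = k) (E : Ω' → Prop) :
    pr (fun x => E (f x)) = pr E := by
  have h1 : ∀ E : Ω' → Prop,
      (univ.filter fun x => E (f x)).card = (univ.filter E).card * k := by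
    intro E
    rw [card_filter_comp f E, Finset.sum_congr rfl fun y _ => hf y, Finset.sum_const, smul_eq_mul]
  have h2 := h1 (fun _ => True)
  simp only [Finset.filter_true, Finset.card_univ] at h2
  unfold pr
  rw [h1, h2, Nat.cast_mul, Nat.cast_mul]
  exact mul_div_mul_right _ _ (Nat.cast_ne_zero.mpr hk.ne')

theorem exists_not3 [Nonempty Ω] {A B C : Ω → Prop} (h : pr A + pr B + pr C < 1) :
    ∃ x, ¬ A x ∧ ¬ B x ∧ ¬ C x := by
  have h1 := pr_or_le (fun x => A x ∨ B x) C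
  have h2 := pr_or_le A B
  obtain ⟨x, hx⟩ := exists_not_of_pr_lt (E := fun x => (A x ∨ B x) ∨ C x) (by linarith)
  exact ⟨x, by tauto⟩

/-- A map between types of equal size with fibres of size `≤ c`. -/
theorem pr_comp_le (hc : Fintype.card Ω = Fintype.card Ω') (f : Ω → Ω') (c : ℕ)
    (hf : ∀ y, (univ.filter fun x => f x = y).card ≤ c) (E : Ω' → Prop) :
    pr (fun x => E (f x)) ≤ c * pr E := by
  unfold pr
  rw [hc, ← mul_div_assoc]
  refine div_le_div_of_nonneg_right ?_ (Nat.cast_nonneg _)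
  have h1 : (univ.filter fun x => E (f x)).card ≤ c * (univ.filter E).card := by
    rw [card_filter_comp f E, mul_comm]
    exact Finset.sum_le_card_nsmul _ _ c fun y _ => hf y
  exact_mod_cast h1

end

section
variable {G G' H : Type*} [AddCommGroup G] [Fintype G] [AddCommGroup G'] [Fintype G']
  [AddCommGroup H]

/-- A surjective affine map preserves the uniform distribution. -/
theorem pr_affine (φ : G →+ G') (hφ : Function.Surjective φ) (c : G') (E : G' → Prop) :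
    pr (fun x => E (φ x + c)) = pr E := by
  refine pr_comp_eq (fun x => φ x + c) (k := (univ.filter fun x => φ x = 0).card)
    (Finset.card_pos.mpr ⟨0, by simp⟩) (fun y => ?_) E
  obtain ⟨x₀, hx₀⟩ := hφ (y - c)
  refine Finset.card_equiv (Equiv.subRight x₀) fun x => ?_
  simp only [Finset.mem_filter, Finset.mem_univ, true_and, Equiv.subRight_apply, map_sub, hx₀]
  rw [sub_eq_zero, eq_sub_iff_add_eq]

/-- A homomorphism that is constant on more than half of the group vanishes: if `φ t ≠ 0` the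
event and its translate by `t` are disjoint. -/
theorem hom_eq_zero (φ : G →+ H) (c : H) (h : pr (fun x => φ x ≠ c) < 1 / 2) : φ = 0 := by
  ext t
  have h1 : pr (fun x => φ (x + t) ≠ c) = pr (fun x => φ x ≠ c) :=
    pr_equiv (Equiv.addRight t) (fun x => φ x ≠ c)
  have h2 := pr_or_le (fun x => φ x ≠ c) (fun x => φ (x + t) ≠ c)
  obtain ⟨x, hx⟩ := exists_not_of_pr_lt (E := fun x => φ x ≠ c ∨ φ (x + t) ≠ c) (by linarith)
  push Not at hx
  have h3 := hx.2
  rw [map_add, hx.1] at h3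
  simpa using h3

/-- Linearity test. For every `t`, `f₁ (x + t) - f₁ x = f₂ y - f₂ (y - t)` fails with probability
`≤ 2 δ` over `(x, y)` (use the hypothesis at `(x, y)` and at `(x + t, y - t)`). So there are
`φ t`, `φ' t` with `pr (f₁ (x + t) - f₁ x ≠ φ t) ≤ 2 δ`, `pr (f₂ y - f₂ (y - t) ≠ φ' t) ≤ 2 δ`;
`φ = φ'` and `φ` is additive because `6 δ < 1`. Finally average over `x` (resp. `y`). -/
theorem blr (f₁ f₂ f₃ : G → H) {δ : ℝ} (hδ : 6 * δ < 1)
    (h : pr (fun z : G × G => f₁ z.1 + f₂ z.2 ≠ f₃ (z.1 + z.2)) ≤ δ) :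
    ∃ (φ : G →+ H) (c₁ c₂ : H), pr (fun x => f₁ x ≠ φ x + c₁) ≤ 2 * δ ∧
      pr (fun x => f₂ x ≠ φ x + c₂) ≤ 2 * δ := by
  have hB : ∀ t : G,
      pr (fun z : G × G => f₁ (z.1 + t) - f₁ z.1 ≠ f₂ z.2 - f₂ (z.2 - t)) ≤ 2 * δ := by
    intro t
    have h1 := pr_equiv ((Equiv.addRight t).prodCongr (Equiv.subRight t))
      (fun z : G × G => f₁ z.1 + f₂ z.2 ≠ f₃ (z.1 + z.2))
    have h2 := pr_or_le (fun z : G × G => f₁ z.1 + f₂ z.2 ≠ f₃ (z.1 + z.2))
      (fun z : G × G => f₁ (z.1 + t) + f₂ (z.2 - t) ≠ f₃ (z.1 + t + (z.2 - t)))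
    have h3 : pr (fun z : G × G => f₁ (z.1 + t) + f₂ (z.2 - t) ≠ f₃ (z.1 + t + (z.2 - t))) ≤ δ :=
      le_trans (le_of_eq h1) h
    refine le_trans (pr_mono fun z hz => ?_) (le_trans h2 (by linarith))
    by_contra h4
    push Not at h4
    obtain ⟨h5, h6⟩ := h4
    rw [show z.1 + t + (z.2 - t) = z.1 + z.2 by abel, ← h5] at h6
    apply hz
    rw [sub_eq_sub_iff_add_eq_add, h6, add_comm]
  have hφ : ∀ t : G, ∃ a : H, pr (fun x => f₁ (x + t) - f₁ x ≠ a) ≤ 2 * δ ∧
      pr (fun y => f₂ y - f₂ (y - t) ≠ a) ≤ 2 * δ := by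
    intro t
    obtain ⟨x₀, hx₀⟩ := exists_pr_fiber_le
      (fun z : G × G => f₁ (z.1 + t) - f₁ z.1 ≠ f₂ z.2 - f₂ (z.2 - t))
    obtain ⟨y₀, hy₀⟩ := exists_pr_fiber_le
      (fun z : G × G => f₁ (z.2 + t) - f₁ z.2 ≠ f₂ z.1 - f₂ (z.1 - t))
    rw [pr_swap (fun z : G × G => f₁ (z.1 + t) - f₁ z.1 ≠ f₂ z.2 - f₂ (z.2 - t))] at hy₀
    have a1 : pr (fun x => f₁ (x + t) - f₁ x ≠ f₂ y₀ - f₂ (y₀ - t)) ≤ 2 * δ :=
      le_trans hy₀ (hB t)
    have a2 : pr (fun y => f₁ (x₀ + t) - f₁ x₀ ≠ f₂ y - f₂ (y - t)) ≤ 2 * δ :=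
      le_trans hx₀ (hB t)
    have b1 : pr (fun z : G × G => f₁ (z.1 + t) - f₁ z.1 ≠ f₂ y₀ - f₂ (y₀ - t)) ≤ 2 * δ := by
      rw [← pr_swap]
      exact pr_prod_le fun _ => a1
    have b2 : pr (fun z : G × G => f₁ (x₀ + t) - f₁ x₀ ≠ f₂ z.2 - f₂ (z.2 - t)) ≤ 2 * δ :=
      pr_prod_le fun _ => a2
    have b3 := hB t
    obtain ⟨z, c1, c2, c3⟩ := exists_not3 (lt_of_le_of_lt (add_le_add (add_le_add b1 b2) b3)
      (by linarith))
    push Not at c1 c2 c3
    refine ⟨f₂ y₀ - f₂ (y₀ - t), a1, le_trans (pr_mono fun y hy => ?_) a2⟩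
    rw [c2, ← c3, c1]
    exact hy.symm
  choose a ha1 ha2 using hφ
  have hadd : ∀ s t, a (s + t) = a s + a t := by
    intro s t
    have b2 : pr (fun x => f₁ (x + s + t) - f₁ (x + s) ≠ a t) ≤ 2 * δ :=
      le_trans (le_of_eq (pr_equiv (Equiv.addRight s) (fun x => f₁ (x + t) - f₁ x ≠ a t))) (ha1 t)
    obtain ⟨x, c1, c2, c3⟩ := exists_not3
      (lt_of_le_of_lt (add_le_add (add_le_add (ha1 s) b2) (ha1 (s + t))) (by linarith))
    push Not at c1 c2 c3
    rw [← c1, ← c2, ← c3, add_assoc]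
    abel
  set φ : G →+ H := AddMonoidHom.mk' a hadd with hφ
  have hφa : ∀ t, φ t = a t := fun _ => rfl
  have d1 : pr (fun z : G × G => f₁ (z.1 + z.2) - f₁ z.1 ≠ φ z.2) ≤ 2 * δ := by
    rw [← pr_swap]
    exact pr_prod_le fun t => ha1 t
  have d2 : pr (fun z : G × G => f₂ z.1 - f₂ (z.1 - z.2) ≠ φ z.2) ≤ 2 * δ := by
    rw [← pr_swap]
    exact pr_prod_le fun t => ha2 t
  obtain ⟨x₀, hx₀⟩ := exists_pr_fiber_le (fun z : G × G => f₁ (z.1 + z.2) - f₁ z.1 ≠ φ z.2)
  obtain ⟨y₀, hy₀⟩ := exists_pr_fiber_le (fun z : G × G => f₂ z.1 - f₂ (z.1 - z.2) ≠ φ z.2)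
  refine ⟨φ, f₁ x₀ - φ x₀, f₂ y₀ - φ y₀, ?_, ?_⟩
  · have e1 : pr (fun t => f₁ (x₀ + t) ≠ φ (x₀ + t) + (f₁ x₀ - φ x₀)) =
        pr (fun x => f₁ x ≠ φ x + (f₁ x₀ - φ x₀)) :=
      pr_equiv (Equiv.addLeft x₀) (fun x => f₁ x ≠ φ x + (f₁ x₀ - φ x₀))
    have e2 : pr (fun t => f₁ (x₀ + t) - f₁ x₀ ≠ φ t) ≤ 2 * δ := le_trans hx₀ d1
    rw [← e1]
    refine le_trans (pr_mono ?_) e2
    intro t ht h1
    apply ht
    rw [map_add, ← h1]
    abel
  · have e1 : pr (fun t => f₂ (y₀ - t) ≠ φ (y₀ - t) + (f₂ y₀ - φ y₀)) =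
        pr (fun x => f₂ x ≠ φ x + (f₂ y₀ - φ y₀)) :=
      pr_equiv (Equiv.subLeft y₀) (fun x => f₂ x ≠ φ x + (f₂ y₀ - φ y₀))
    have e2 : pr (fun t => f₂ y₀ - f₂ (y₀ - t) ≠ φ t) ≤ 2 * δ := le_trans hy₀ d2
    rw [← e1]
    refine le_trans (pr_mono ?_) e2
    intro t ht h1
    apply ht
    rw [map_sub, ← h1]
    abel

end

/-- A periodic function only depends on the class modulo the period. -/
theorem periodic_val {α : Type*} {P : ℕ} [NeZero P] {f : ℤ → α} (h : ∀ k, f (k + P) = f k)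
    {k : ℤ} {x : ZMod P} (hx : (k : ZMod P) = x) : f k = f (x.val : ℤ) := by
  have hp : Function.Periodic f (P : ℤ) := h
  have h1 : ((x.val : ℤ) : ZMod P) = (k : ZMod P) := by
    rw [hx, Int.cast_natCast, ZMod.natCast_zmod_val]
  obtain ⟨m, hm⟩ := (ZMod.intCast_eq_intCast_iff_dvd_sub _ _ _).mp h1
  have h2 : k = (x.val : ℤ) + m * P := by linarith
  rw [h2]
  exact hp.int_mul m _

/-- The residue modulo a divisor of `P` is uniform (`pr_affine` with `ZMod.castHom`). -/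
theorem pr_cast_eq {P q : ℕ} [NeZero P] [NeZero q] (h : q ∣ P) (c : ZMod q) :
    pr (fun x : ZMod P => (((x.val : ℤ) : ZMod q)) = c) = 1 / q := by
  have h1 := pr_affine (ZMod.castHom h (ZMod q)).toAddMonoidHom
    (ZMod.ringHom_surjective (ZMod.castHom h (ZMod q))) 0 (fun y => y = c)
  have h2 : pr (fun y : ZMod q => y = c) = 1 / q := by
    unfold pr
    rw [ZMod.card]
    congr 1
    rw [Nat.cast_eq_one, Finset.card_eq_one]
    exact ⟨c, by ext y; simp⟩
  rw [← h2, ← h1]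
  congr 1
  funext x
  simp

/-- Two periods give the same probability. -/
theorem pr_val_of_dvd {P Q : ℕ} [NeZero P] [NeZero Q] (h : Q ∣ P) {E : ℤ → Prop}
    (hE : ∀ k, E (k + Q) ↔ E k) :
    pr (fun x : ZMod P => E (x.val : ℤ)) = pr (fun x : ZMod Q => E (x.val : ℤ)) := by
  have h1 := pr_affine (ZMod.castHom h (ZMod Q)).toAddMonoidHom
    (ZMod.ringHom_surjective (ZMod.castHom h (ZMod Q))) 0 (fun y => E (y.val : ℤ))
  rw [← h1]
  congr 1
  funext x
  refine periodic_val (P := Q) (fun k => propext (hE k)) ?_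
  simp

namespace Puzzle
variable {Z : Puzzle} {q₀ P : ℕ} {F : Z.ι → ℤ → Z.S} {Act : Z.ι → ℤ → ℤ → Prop}

/-- Restriction to the coset `(i₀, j₀) + t ℤ²`; `t` is coprime to every `q`, so `q ∣ P'` and
`q ∣ D + j₀ + t j ↔ q ∣ D' + j`. -/
theorem Defect.restrict (h : Z.Defect q₀ P F Act) {t P' e : ℕ} (hP : P = t * P')
    (ht : t ∣ Z.p.factorial ^ e) (i₀ j₀ : ℤ) :
    Z.Defect q₀ P' (fun n k => F n (i₀ + Z.ν n * j₀ + t * k))
      (fun n i j => Act n (i₀ + t * i) (j₀ + t * j)) := by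
  have hP' : (P : ℤ) = t * P' := by exact_mod_cast hP
  refine ⟨?_, fun n k => ?_, fun n i j => ?_, fun n i j => ?_, fun n k => ?_, fun i j hA => ?_⟩
  · have := h.pos
    rw [hP] at this
    exact Nat.pos_of_mul_pos_left this
  · rw [← h.perF n (i₀ + Z.ν n * j₀ + t * k), hP']
    congr 1
    ring
  · rw [← h.per1 n (i₀ + t * i), hP', mul_add, add_assoc]
  · rw [← h.per2 n _ (j₀ + t * j), hP', mul_add, add_assoc]
  · obtain ⟨q, D, h1, h2, h3, h4⟩ := h.rare n (i₀ + Z.ν n * j₀ + t * k)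
    have h5 : q.Coprime t := Nat.Coprime.coprime_dvd_right ht (h2.pow_right e)
    obtain ⟨a, b, hab⟩ := Nat.isCoprime_iff_coprime.mpr h5
    refine ⟨q, b * (D + j₀), h1, h2, h5.dvd_of_dvd_mul_left (hP ▸ h3), fun j hj => ?_⟩
    have h6 := h4 (j₀ + t * j) (by
      rw [show i₀ + Z.ν n * j₀ + t * k - Z.ν n * (j₀ + t * j) = i₀ + t * (k - Z.ν n * j) by ring]
      exact hj)
    have h7 : b * (D + j₀) + j = b * (D + (j₀ + t * j)) + q * (a * j) := by
      linear_combination (-j) * hab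
    rw [h7]
    exact dvd_add (h6.mul_left b) (dvd_mul_right _ _)
  · have h1 := h.rel _ _ hA
    convert h1 using 3 with n
    ring

/-- Change coordinates to `(k, j) = (i + ν n * j, j)`, `pr_prod_le`, `pr_cast_eq`. -/
theorem Defect.pr_not_act [NeZero P] (h : Z.Defect q₀ P F Act) (hq : 0 < q₀) (n : Z.ι) :
    pr (fun y : ZMod P × ZMod P => ¬ Act n (y.1.val : ℤ) (y.2.val : ℤ)) ≤ 1 / q₀ := by
  let e : ZMod P × ZMod P ≃ ZMod P × ZMod P :=
    { toFun := fun z => (z.1 - (Z.ν n : ZMod P) * z.2, z.2)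
      invFun := fun z => (z.1 + (Z.ν n : ZMod P) * z.2, z.2)
      left_inv := fun z => by simp
      right_inv := fun z => by simp }
  rw [← pr_equiv e]
  refine pr_prod_le fun k => ?_
  obtain ⟨q, D, h1, -, h3, h4⟩ := h.rare n (k.val : ℤ)
  have : NeZero q := ⟨by omega⟩
  have h5 : (1 : ℝ) / q ≤ 1 / q₀ :=
    one_div_le_one_div_of_le (Nat.cast_pos.mpr hq) (Nat.cast_le.mpr h1)
  refine le_trans (pr_mono fun j hj => ?_) (le_trans (le_of_eq (pr_cast_eq h3 (-(D : ZMod q)))) h5)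
  have h6 : Act n ((k.val : ℤ) - Z.ν n * (j.val : ℤ)) (j.val : ℤ) =
      Act n (((k - (Z.ν n : ZMod P) * j).val : ℕ) : ℤ) (j.val : ℤ) := by
    refine periodic_val (P := P) (f := fun i => Act n i (j.val : ℤ))
      (fun i => propext (h.per1 n i _)) ?_
    simp
  have h7 := h4 (j.val : ℤ) (by rw [h6]; exact hj)
  have h8 := (ZMod.intCast_zmod_eq_zero_iff_dvd _ _).mpr h7
  rw [Int.cast_add] at h8
  exact eq_neg_of_add_eq_zero_right h8

theorem Labelled.scale (h : Z.Labelled F) {t : ℕ} (ht : t.Coprime Z.p) :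
    Z.Labelled fun n k => F n (0 + Z.ν n * 0 + t * k) := by
  intro d
  obtain ⟨c, hc⟩ := h d
  refine ⟨((ZMod.unitOfCoprime t ht)⁻¹ : (ZMod Z.p)ˣ) * c, fun k hk => ?_⟩
  have h1 := hc _ hk
  rw [← h1, Units.eq_inv_mul_iff_mul_eq]
  simp

end Puzzle

/-- Split off the primes `< p`. -/
theorem exists_split {P p : ℕ} (hP : 0 < P) :
    ∃ t P' e : ℕ, P = t * P' ∧ t ∣ (p - 1).factorial ^ e ∧ P'.Coprime (p - 1).factorial := by
  induction P using Nat.strong_induction_on with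
  | _ P ih =>
    by_cases hc : P.Coprime (p - 1).factorial
    · exact ⟨1, P, 0, (one_mul _).symm, one_dvd _, hc⟩
    · obtain ⟨P₁, hP₁⟩ := Nat.gcd_dvd_left P (p - 1).factorial
      have hg0 : 0 < Nat.gcd P (p - 1).factorial := Nat.gcd_pos_of_pos_left _ hP
      have hg : 1 < Nat.gcd P (p - 1).factorial := by
        have : Nat.gcd P (p - 1).factorial ≠ 1 := hc
        omega
      have h0 : 0 < P₁ := by
        rw [hP₁] at hP
        exact Nat.pos_of_mul_pos_left hP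
      obtain ⟨t, P', e, h1, h2, h3⟩ := ih P₁ (by nlinarith) h0
      refine ⟨Nat.gcd P (p - 1).factorial * t, P', e + 1, ?_, ?_, h3⟩
      · rw [mul_assoc, ← h1]
        exact hP₁
      · rw [pow_succ']
        exact mul_dvd_mul (Nat.gcd_dvd_right _ _) h2

end Crest.Agent.R46
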