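import Crest.Agent.R46.Sol

/-!
# R46: the intended solution solves the system
-/

set_option autoImplicit false
open Finset

namespace Crest.Agent.R46

namespace Puzzle
variable {Z : Puzzle} {P : Par Z.I Z.V} {F : Z.ι → ℤ → Z.S}
  {st : ∀ n, Bool → Pt (P.a n) (P.s n) → Bool} {T : P.Fr} {q₀ : ℕ}

theorem nb_good (hT : ∀ n, FrameData (T n) (st n)) {o o' : P.X} (ho : o ∈ P.O T)
    (ho' : o' ∈ P.O T) (h : P.Nb o o') (n : Z.I) :
    st n false (P.pr o n) = st n false (P.pr o' n) :=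
  (hT n).st_eq false _ (ho n) _ (ho' n) (h.cls n)

/-- If all frames are good, `FrameData.flat false` and `Nb.pos` give `o.1 = o'.1`. Otherwise the
symbol depends on the place modulo `p = r piv` only (`Nb.cong`). -/
theorem nb_symAt (hP : Z.Fits q₀ P) (hT : ∀ n, FrameData (T n) (st n)) {o o' : P.X}
    (ho : o ∈ P.O T) (ho' : o' ∈ P.O T) (h : P.Nb o o') (n : Z.ι) :
    symAt F st o n = symAt F st o' n := by
  have hB : (fun n' => st n' false (P.pr o' n')) = fun n' => st n' false (P.pr o n') :=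
    funext fun n' => (nb_good hT ho ho' h n').symm
  have hc : ∀ a b : ℤ, (a : ZMod (P.r Z.piv)) = b → (a : ZMod Z.p) = b := by
    rw [hP.1]; exact fun _ _ h => h
  unfold symAt
  rw [hB]
  unfold sym
  split_ifs with h1 h2 h3
  · rw [h.pos fun n' => ?_]
    have h4 := (hT n').flat false _ (ho n') _ (ho' n') (h.cls n')
    rw [show st n' false (P.pr o n') = true from h1 n'] at h4
    exact ⟨sub_eq_zero.1 h4.1, sub_eq_zero.1 h4.2⟩
  · rfl
  · simp only [Int.cast_add, Int.cast_mul, hc _ _ (h.cong Z.piv).1, hc _ _ (h.cong Z.piv).2]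
  · rfl

theorem nb_lit (hP : Z.Fits q₀ P) (hT : ∀ n, FrameData (T n) (st n)) {o o' : P.X}
    (ho : o ∈ P.O T) (ho' : o' ∈ P.O T) (h : P.Nb o o') {n : Z.ι}
    (hn : P.pr o (.inl n) = P.pr o' (.inl n)) (c : Z.S) :
    sol F st o (lit n c) = sol F st o' (lit n c) := by
  rw [sol_lit, sol_lit, hn, nb_symAt hP hT ho ho' h]
  split_ifs
  · rw [Int.cast_mul, Int.cast_mul, (h.cong _).2]
  · rfl

/-- Either the shown tuple is in `Rel` or some column is bad. -/
theorem symAt_rel (hF : Z.Exact F) (o : P.X) :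
    symAt F st o ∈ Z.Rel ∨ ∃ n, st (.inl n) false (P.pr o (.inl n)) = false := by
  by_cases h0 : ∃ n, st (.inl n) false (P.pr o (.inl n)) = false
  · exact Or.inr h0
  left
  by_cases h1 : ∀ n', st n' false (P.pr o n') = true
  · have : symAt F st o = fun n => F n (o.1.1 + Z.ν n * o.1.2) := funext fun n => if_pos h1
    rw [this]
    exact hF.1 _ _
  · have h2 : ∃ d, st (.inr d) false (P.pr o (.inr d)) = false := by
      push Not at h0 h1
      obtain ⟨n | d, hn⟩ := h1
      · exact absurd (Bool.eq_false_iff.2 hn) (h0 n)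
      · exact ⟨d, Bool.eq_false_iff.2 hn⟩
    have : symAt F st o = fun n => F n ((h2.choose.val : ℤ) + Z.ν n * 0) := funext fun n => by
      rw [mul_zero, add_zero]
      exact (if_neg h1).trans (dif_pos h2)
    rw [this]
    exact hF.1 _ _

/-- The label shown is the place modulo `p`, or its host is bad. -/
theorem symAt_lab (hF : Z.Exact F) (o : P.X) :
    Z.lab (symAt F st o Z.n₀) = ((o.1.1 + Z.ν Z.n₀ * o.1.2 : ℤ) : ZMod Z.p) ∨
      st (.inr (Z.lab (symAt F st o Z.n₀))) false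
        (P.pr o (.inr (Z.lab (symAt F st o Z.n₀)))) = false := by
  by_cases h1 : ∀ n', st n' false (P.pr o n') = true
  · have : symAt F st o Z.n₀ = F Z.n₀ (o.1.1 + Z.ν Z.n₀ * o.1.2) := if_pos h1
    rw [this, hF.2]
    exact Or.inl rfl
  by_cases h2 : ∃ d, st (.inr d) false (P.pr o (.inr d)) = false
  · have : symAt F st o Z.n₀ = F Z.n₀ (h2.choose.val : ℤ) := (if_neg h1).trans (dif_pos h2)
    rw [this, hF.2, Int.cast_natCast, ZMod.natCast_zmod_val]
    exact Or.inr h2.choose_spec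
  · have : symAt F st o Z.n₀ =
        F Z.n₀ (((o.1.1 + Z.ν Z.n₀ * o.1.2 : ℤ) : ZMod Z.p).val : ℤ) :=
      (if_neg h1).trans ((dif_neg h2).trans (if_pos rfl))
    left
    rw [this, hF.2, Int.cast_natCast, ZMod.natCast_zmod_val]

theorem compl_lit_zero {o : P.X} {n : Z.ι} {c : Z.S}
    (h : ¬ (st (.inl n) true (P.pr o (.inl n)) = true ∧ symAt F st o n = c)) :
    sol F st o (lit n c) = 0 := by
  rw [sol_lit, if_neg h, Int.cast_zero]

theorem compl_piv {o o' : P.X} (h : ∀ d : ZMod Z.p,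
    ((if st (.inr d) true (P.pr o (.inr d)) then o.1.1 + Z.ν Z.n₀ * o.1.2 - (d.val : ℤ) else 0 :
      ℤ) : ZMod (P.r Z.piv)) =
    ((if st (.inr d) true (P.pr o' (.inr d)) then o'.1.1 + Z.ν Z.n₀ * o'.1.2 - (d.val : ℤ) else 0 :
      ℤ) : ZMod (P.r Z.piv))) : sol F st o Z.piv = sol F st o' Z.piv := by
  rw [sol_piv, sol_piv, Int.cast_mul, Int.cast_mul, Int.cast_sum, Int.cast_sum,
    Finset.sum_congr rfl fun d _ => h d]

theorem compl_term {o o' : P.X} (h : P.Cong o o') {d : ZMod Z.p}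
    (hd : P.pr o (.inr d) = P.pr o' (.inr d)) :
    ((if st (.inr d) true (P.pr o (.inr d)) then o.1.1 + Z.ν Z.n₀ * o.1.2 - (d.val : ℤ) else 0 :
      ℤ) : ZMod (P.r Z.piv)) =
    ((if st (.inr d) true (P.pr o' (.inr d)) then o'.1.1 + Z.ν Z.n₀ * o'.1.2 - (d.val : ℤ) else 0 :
      ℤ) : ZMod (P.r Z.piv)) := by
  rw [hd]
  split_ifs
  · simp only [Int.cast_add, Int.cast_mul, Int.cast_sub, (h Z.piv).1, (h Z.piv).2]
  · rfl

theorem compl_term_zero (hP : Z.Fits q₀ P) (hT : ∀ n, FrameData (T n) (st n)) (hF : Z.Exact F)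
    {o : P.X} (ho : o ∈ P.O T) {d : ZMod Z.p} (hd : Z.lab (symAt F st o Z.n₀) = d) :
    ((if st (.inr d) true (P.pr o (.inr d)) then o.1.1 + Z.ν Z.n₀ * o.1.2 - (d.val : ℤ) else 0 :
      ℤ) : ZMod (P.r Z.piv)) = 0 := by
  have hc : ∀ a : ℤ, (a : ZMod Z.p) = 0 → (a : ZMod (P.r Z.piv)) = 0 := by
    rw [hP.1]; exact fun _ h => h
  split_ifs with h1
  · have h2 := symAt_lab (st := st) hF o
    rw [hd] at h2
    rcases h2 with h2 | h2
    · refine hc _ ?_
      rw [Int.cast_sub, ← h2, Int.cast_natCast, ZMod.natCast_zmod_val, sub_self]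
    · rw [(hT _).good _ (ho _) h1] at h2
      exact absurd h2 (by decide)
  · exact Int.cast_zero

/-- `nand_compl`: a column where the shown symbol is not `c n`, or a bad column, has value `0`. -/
theorem sol_main (hP : Z.Fits q₀ P) (hT : ∀ n, FrameData (T n) (st n)) (hF : Z.Exact F)
    (c : Z.ι → Z.S) (hc : c ∉ Z.Rel) (ζ : P.R) :
    Tiles (Graph (P.O T) (sol F st)) (P.nand (fun n => lit n (c n)) .inl ζ) := by
  refine Par.nand_compl (bij_of_frame hT) ζ fun o ho hnb hpr => ⟨fun ε ε' i hi => ?_, ?_⟩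
  · refine nb_lit hP hT (ho ε) (ho ε') (hnb ε ε') (hpr ε ε' _ fun i' h => ?_) _
    rw [Sum.inl.inj h]; exact hi
  · suffices h : ∃ n, ∀ ε, sol F st (o ε) (lit n (c n)) = 0 by
      obtain ⟨n, hn⟩ := h
      exact ⟨n, fun ε ε' => (hn ε).trans (hn ε').symm⟩
    rcases symAt_rel (st := st) hF (o fun _ => false) with h | ⟨n, h⟩
    · obtain ⟨n, hn⟩ := Function.ne_iff.1 fun e : symAt F st (o fun _ => false) = c => hc (e ▸ h)
      refine ⟨n, fun ε => compl_lit_zero fun h1 => hn ?_⟩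
      rw [← h1.2]
      exact nb_symAt hP hT (ho _) (ho _) (hnb _ _) n
    · refine ⟨n, fun ε => compl_lit_zero fun h1 => ?_⟩
      rw [nb_good hT (ho _) (ho ε) (hnb _ _), (hT _).good _ (ho ε _) h1.1] at h
      exact absurd h (by decide)

/-- `nand_compl`: if the shown symbol is not `c` the literal is `0`. Otherwise the term of the host
`lab c` in `piv` vanishes modulo `p` (`symAt_lab`, `FrameData.good`), and the other hosts keep their
types. -/
theorem sol_label (hP : Z.Fits q₀ P) (hT : ∀ n, FrameData (T n) (st n)) (hF : Z.Exact F)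
    (c : Z.S) (ζ : P.R) :
    Tiles (Graph (P.O T) (sol F st)) (P.nand (fun b : Bool => if b then Z.piv else lit Z.n₀ c)
      (fun b => if b then .inr (Z.lab c) else .inl Z.n₀) ζ) := by
  refine Par.nand_compl (bij_of_frame hT) ζ fun o ho hnb hpr => ⟨fun ε ε' i hi => ?_, ?_⟩
  · cases i
    · refine nb_lit hP hT (ho ε) (ho ε') (hnb ε ε') (hpr ε ε' _ fun i' h => ?_) _
      cases i'
      · exact hi
      · simp at h
    · refine compl_piv fun d => compl_term (hnb ε ε').cong (hpr ε ε' _ fun i' h => ?_)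
      cases i'
      · simp at h
      · exact hi
  · by_cases h : symAt F st (o fun _ => false) Z.n₀ = c
    · refine ⟨true, fun ε ε' => compl_piv fun d => ?_⟩
      have h1 : ∀ ε, Z.lab (symAt F st (o ε) Z.n₀) = Z.lab c := fun ε => by
        rw [← h, nb_symAt hP hT (ho ε) (ho _) (hnb _ _)]
      by_cases hd : Z.lab c = d
      · rw [compl_term_zero hP hT hF (ho ε) ((h1 ε).trans hd),
          compl_term_zero hP hT hF (ho ε') ((h1 ε').trans hd)]
      · refine compl_term (hnb ε ε').cong (hpr ε ε' _ fun i' h => ?_)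
        cases i'
        · simp at h
        · exact absurd (by simpa using h) hd
    · have h1 : ∀ ε, sol F st (o ε) (lit Z.n₀ c) = 0 := fun ε => compl_lit_zero fun h1 => h (by
        rw [← h1.2]; exact nb_symAt hP hT (ho _) (ho _) (hnb _ _) _)
      exact ⟨false, fun ε ε' => (h1 ε).trans (h1 ε').symm⟩

theorem exists_eqs (hP : Z.Fits q₀ P) (hF : Z.Exact F) : ∃ A, Z.Eqs P A := by
  choose T st hT using P.frame
  exact ⟨Graph (P.O T) (sol F st), P.occ_compl (bij_of_frame hT) _, fun n b => (sol_gad F hP hT n b).1,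
    sol_k1 F hP hT, sol_hole F hP hT, sol_k2 F hP hT, sol_k3 F hP hT, sol_ptr F hT,
    sol_pper F hP hT, sol_k4 F hP hT, sol_main hP hT hF, sol_label hP hT hF⟩

end Puzzle

end Crest.Agent.R46
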