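import Crest.Agent.R46.Defs

/-!
# R46: graphs, feedback maps, coprime moduli
-/

set_option autoImplicit false
open Finset

namespace Crest.Agent.R46

section Graph
variable {X H D : Type*} [AddCommGroup X] [AddCommGroup H]

/-- The graph of `α` over `O`. -/
def Graph (O : Set X) (α : X → H) : Set (X × H) := {γ | γ.1 ∈ O ∧ γ.2 = α γ.1}

theorem cyc_mem_graph {O : Set X} {α : X → H} (x y : X) (h k : H) :
    ((x, h) : X × H) - (y, k) ∈ Graph O α ↔ x - y ∈ O ∧ h = k + α (x - y) := by
  simp only [Graph, Set.mem_ofPred_eq, Prod.mk_sub_mk, sub_eq_iff_eq_add']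

theorem tiles_graph_full {O : Set X} {α : X → H} {pos : D → X} :
    Tiles (Graph O α) (fun j : D × H => (pos j.1, j.2)) ↔ Tiles O pos := by
  constructor
  · intro h x
    obtain ⟨j, hj, hu⟩ := h (x, 0)
    refine ⟨j.1, ((cyc_mem_graph _ _ _ _).1 hj).1, fun δ hδ => ?_⟩
    exact congrArg Prod.fst (hu (δ, -α (x - pos δ)) ((cyc_mem_graph _ _ _ _).2 ⟨hδ, by simp⟩))
  · rintro h ⟨x, y⟩
    obtain ⟨δ, hδ, hu⟩ := h x
    refine ⟨(δ, y - α (x - pos δ)), (cyc_mem_graph _ _ _ _).2 ⟨hδ, by simp⟩, ?_⟩
    rintro ⟨δ', η⟩ hj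
    obtain ⟨h1, h2⟩ := (cyc_mem_graph _ _ _ _).1 hj
    obtain rfl := hu δ' h1
    exact Prod.ext rfl (eq_sub_of_add_eq h2.symm)

theorem Tiles.exists_graph {A : Set (X × H)} {pos : D → X}
    (h : Tiles A (fun j : D × H => (pos j.1, j.2))) : ∃ O α, A = Graph O α := by
  classical
  obtain ⟨j, -⟩ := h 0
  have key : ∀ x y y', (x, y) ∈ A → (x, y') ∈ A → y = y' := fun x y y' hy hy' => by
    have := (h (x + pos j.1, 0)).unique (y₁ := (j.1, -y)) (y₂ := (j.1, -y')) (by simpa using hy)
      (by simpa using hy')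
    exact neg_injective (congrArg Prod.snd this)
  refine ⟨{x | ∃ y, (x, y) ∈ A}, fun x => if hx : ∃ y, (x, y) ∈ A then hx.choose else 0, ?_⟩
  ext ⟨x, y⟩
  simp only [Graph, Set.mem_ofPred_eq]
  constructor
  · intro hy
    have hx : ∃ y, (x, y) ∈ A := ⟨y, hy⟩
    rw [dif_pos hx]
    exact ⟨hx, key x _ _ hy hx.choose_spec⟩
  · rintro ⟨hx, e⟩
    rw [dif_pos hx] at e
    rw [e]
    exact hx.choose_spec

theorem tiles_graph_iff [Finite H] {O : Set X} {α : X → H} {pos : D → H → X} {off : D → H → H}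
    {sel : X → H → D} (hsel : ∀ x η δ, x - pos δ η ∈ O ↔ δ = sel x η) :
    Tiles (Graph O α) (fun j : D × H => (pos j.1 j.2, j.2 + off j.1 j.2)) ↔
      ∀ x, Function.Injective fun η => η + (off (sel x η) η + α (x - pos (sel x η) η)) := by
  have key : ∀ x y δ η, ((x, y) : X × H) - (pos δ η, η + off δ η) ∈ Graph O α ↔
      δ = sel x η ∧ y = η + (off (sel x η) η + α (x - pos (sel x η) η)) := fun x y δ η => by
    rw [cyc_mem_graph, hsel, add_assoc]
    exact and_congr_right fun h => by rw [h]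
  constructor
  · intro h x η η' e
    have := (h (x, η + (off (sel x η) η + α (x - pos (sel x η) η)))).unique
      (y₁ := (sel x η, η)) (y₂ := (sel x η', η')) ((key _ _ _ _).2 ⟨rfl, rfl⟩)
      ((key _ _ _ _).2 ⟨rfl, e⟩)
    exact congrArg Prod.snd this
  · rintro h ⟨x, y⟩
    obtain ⟨η, hη⟩ := Finite.surjective_of_injective (h x) y
    refine ⟨(sel x η, η), (key _ _ _ _).2 ⟨rfl, hη.symm⟩, ?_⟩
    rintro ⟨δ, η'⟩ hj
    obtain ⟨h1, h2⟩ := (key _ _ _ _).1 hj
    obtain rfl : η' = η := h x (h2.symm.trans hη.symm)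
    exact Prod.ext h1 rfl

/-- Changing one piece by `κ`. -/
theorem Tiles.shift_mem [DecidableEq D] {O : Set X} {pos : D → X} {δ₀ : D} {κ : X}
    (h : Tiles O pos) (h' : Tiles O fun δ => pos δ + if δ = δ₀ then κ else 0) (x : X) :
    x + κ ∈ O ↔ x ∈ O := by
  constructor
  · intro hx
    obtain ⟨δ, hδ, -⟩ := h' (x + κ + pos δ₀)
    by_cases e : δ = δ₀
    · subst e
      simp only [if_true] at hδ
      rwa [show x + κ + pos δ - (pos δ + κ) = x by abel] at hδ
    · simp only [if_neg e, add_zero] at hδ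
      exact (e ((h (x + κ + pos δ₀)).unique hδ (by simpa using hx))).elim
  · intro hx
    obtain ⟨δ, hδ, -⟩ := h (x + κ + pos δ₀)
    by_cases e : δ = δ₀
    · subst e
      simpa using hδ
    · refine (e ((h' (x + κ + pos δ₀)).unique ?_ ?_)).elim
      · simpa only [if_neg e, add_zero] using hδ
      · simp only [if_true]
        rwa [show x + κ + pos δ₀ - (pos δ₀ + κ) = x by abel]

theorem Tiles.shift [DecidableEq D] {O : Set X} {pos : D → X} (δ₀ : D) {κ : X}
    (h : Tiles O pos) (hκ : ∀ x, x + κ ∈ O ↔ x ∈ O) :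
    Tiles O fun δ => pos δ + if δ = δ₀ then κ else 0 := by
  intro x
  refine (existsUnique_congr fun δ => ?_).1 (h x)
  dsimp only
  split_ifs
  · rw [← hκ (x - (pos δ + κ)), ← sub_sub, sub_add_cancel]
  · rw [add_zero]

end Graph

/-- A cyclic successor. -/
theorem exists_next (S : Type*) [Finite S] : ∃ nx : S → S, ∀ i j, ∃ k, nx^[k] i = j := by
  obtain ⟨n, ⟨e⟩⟩ := Finite.exists_equiv_fin S
  cases n with
  | zero => exact ⟨id, fun i => (e i).elim0⟩
  | succ n =>
    let e' : S ≃ ZMod (n + 1) := e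
    have key : ∀ (k : ℕ) (i : S), (fun s => e'.symm (e' s + 1))^[k] i = e'.symm (e' i + k) := by
      intro k i
      induction k with
      | zero => simp
      | succ k ih =>
        rw [Function.iterate_succ_apply', ih, Equiv.apply_symm_apply, Nat.cast_succ, add_assoc]
    refine ⟨fun s => e'.symm (e' s + 1), fun i j => ⟨(e' j - e' i).val, ?_⟩⟩
    rw [key, ZMod.natCast_zmod_val, add_sub_cancel, Equiv.symm_apply_apply]

noncomputable def next (S : Type*) [Finite S] : S → S := (exists_next S).choose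

theorem next_spec {S : Type*} [Finite S] (i j : S) : ∃ k, (next S)^[k] i = j :=
  (exists_next S).choose_spec i j

section Feedback
variable {V S : Type*} {r : V → ℕ}

/-- The switches read off from a value. -/
noncomputable def eps [Finite S] (c : S → V) (η : ∀ v, ZMod (r v)) : S → Bool :=
  fun i => decide (η (c (next S i)) = 0)

/-- Otherwise `0` and `D (fun _ => true) - D (fun _ => false)` have the same image. -/
theorem cyc_sound [Finite S] [Nonempty S] {c : S → V} {D : (S → Bool) → ∀ v, ZMod (r v)}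
    (h : Function.Injective fun η => η + D (eps c η)) :
    ∃ i, D (fun _ => true) (c i) = D (fun _ => false) (c i) := by
  by_contra hc
  push Not at hc
  have e0 : eps c (0 : ∀ v, ZMod (r v)) = fun _ => true := by
    funext i
    simp [eps]
  have e1 : eps c (D (fun _ => true) - D fun _ => false) = fun _ => false := by
    funext i
    simp only [eps, Pi.sub_apply, decide_eq_false_iff_not, sub_eq_zero]
    exact hc _
  have := @h 0 (D (fun _ => true) - D fun _ => false) (by
    simp only [e0, e1, zero_add, sub_add_cancel])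
  obtain ⟨i⟩ := ‹Nonempty S›
  exact hc i (sub_eq_zero.1 (congrFun this (c i)).symm)

/-- If `η`, `η'` have the same image they agree at `c i₀`; if they agree at `c (next i)` they agree
at `c i`; so (`next_spec`) the switches agree. -/
theorem cyc_compl [Finite S] {c : S → V} {D : (S → Bool) → ∀ v, ZMod (r v)}
    (h1 : ∀ ε ε' i, ε i = ε' i → D ε (c i) = D ε' (c i)) {i₀ : S}
    (h2 : ∀ ε ε', D ε (c i₀) = D ε' (c i₀)) :
    Function.Injective fun η => η + D (eps c η) := by
  intro η η' e
  have e' : ∀ v, η v + D (eps c η) v = η' v + D (eps c η') v := fun v => congrFun e v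
  have step : ∀ i, η (c (next S i)) = η' (c (next S i)) → η (c i) = η' (c i) := fun i hi => by
    have := e' (c i)
    rw [h1 (eps c η) (eps c η') i (by simp only [eps, hi])] at this
    exact add_right_cancel this
  have all : ∀ k i, η (c ((next S)^[k] i)) = η' (c ((next S)^[k] i)) → η (c i) = η' (c i) := by
    intro k
    induction k with
    | zero => exact fun i hi => hi
    | succ k ih => exact fun i hi => step i (ih _ hi)
  have h0 : η (c i₀) = η' (c i₀) := by
    have := e' (c i₀)
    rw [h2 (eps c η) (eps c η')] at this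
    exact add_right_cancel this
  have h3 : ∀ i, η (c i) = η' (c i) := fun i => by
    obtain ⟨k, hk⟩ := next_spec i i₀
    exact all k i (hk ▸ h0)
  have h4 : eps c η = eps c η' := by
    funext i
    simp only [eps, h3]
  simp only [h4] at e
  exact add_right_cancel e

theorem cyc_inj_iff {v : V} (a : ZMod (r v) → ∀ v, ZMod (r v)) :
    (Function.Injective fun η : ∀ v, ZMod (r v) => η + a (η v)) ↔
      Function.Injective fun t : ZMod (r v) => t + a t v := by
  classical
  constructor
  · intro h t t' htt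
    have e1 : (Function.update (0 : ∀ v, ZMod (r v)) v t) v = t := Function.update_self _ _ _
    have e2 : (Function.update (0 : ∀ v, ZMod (r v)) v t + a t - a t') v = t' := by
      rw [Pi.sub_apply, Pi.add_apply, e1, sub_eq_iff_eq_add]
      exact htt
    have := @h (Function.update (0 : ∀ v, ZMod (r v)) v t)
      (Function.update (0 : ∀ v, ZMod (r v)) v t + a t - a t') (by
      simp only [e1, e2, sub_add_cancel])
    rw [← e1, this, e2]
  · intro h η η' e
    have e1 : η v = η' v := h (congrFun e v)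
    simp only [e1] at e
    exact add_right_cancel e

/-- The two-point hole. -/
theorem hole_iff {v : V} (hv : 2 ≤ r v) (a₀ a₁ a₂ : ∀ v, ZMod (r v)) :
    (Function.Injective fun η : ∀ v, ZMod (r v) =>
      η + if η v = 0 then a₁ else if η v = 1 then a₂ else a₀) ↔
      (a₁ v = a₀ v ∧ a₂ v = a₀ v) ∨ (a₁ v = a₀ v + 1 ∧ a₂ v = a₀ v - 1) := by
  have : Fact (1 < r v) := ⟨hv⟩
  refine (cyc_inj_iff fun t : ZMod (r v) => if t = 0 then a₁ else if t = 1 then a₂ else a₀).trans ?_
  have e : ∀ t : ZMod (r v), (if t = 0 then a₁ else if t = 1 then a₂ else a₀) v =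
      if t = 0 then a₁ v else if t = 1 then a₂ v else a₀ v := fun t => by
    split_ifs <;> rfl
  simp only [e]
  generalize a₀ v = b₀
  generalize a₁ v = b₁
  generalize a₂ v = b₂
  constructor
  · intro h
    have h1 : b₁ - b₀ = 0 ∨ b₁ - b₀ = 1 := by
      by_contra hc
      rw [not_or] at hc
      exact hc.1 (@h (b₁ - b₀) 0 (by simp [hc.1, hc.2]))
    have h2 : 1 + b₂ - b₀ = 0 ∨ 1 + b₂ - b₀ = 1 := by
      by_contra hc
      rw [not_or] at hc
      exact hc.2 (@h (1 + b₂ - b₀) 1 (by simp only [hc.1, hc.2, if_false, one_ne_zero]; simp))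
    have h3 : b₁ ≠ 1 + b₂ := fun e => zero_ne_one (@h 0 1 (by simp [e]))
    rcases h1 with h1 | h1 <;> rcases h2 with h2 | h2
    · exact (h3 (by linear_combination h1 - h2)).elim
    · exact Or.inl ⟨by linear_combination h1, by linear_combination h2⟩
    · exact Or.inr ⟨by linear_combination h1, by linear_combination h2⟩
    · exact (h3 (by linear_combination h1 - h2)).elim
  · rintro (⟨rfl, rfl⟩ | ⟨rfl, rfl⟩)
    · simp only [ite_self]
      exact add_left_injective _
    · have key : ∀ t : ZMod (r v), (t + if t = 0 then b₀ + 1 else if t = 1 then b₀ - 1 else b₀) =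
          Equiv.swap 0 1 t + b₀ := fun t => by
        split_ifs with h0 h1
        · rw [h0, Equiv.swap_apply_left]
          ring
        · rw [h1, Equiv.swap_apply_right]
          ring
        · rw [Equiv.swap_apply_of_ne_of_ne h0 h1]
      simp only [key]
      exact (add_left_injective b₀).comp (Equiv.swap 0 1).injective

end Feedback

theorem cyc_coprime {x y : ℕ} (h : x ∣ y) : x.Coprime (y + 1) := by
  obtain ⟨z, rfl⟩ := h
  simp

/-- `N₀ = c`, `N_{i+1} = N_i (N_i + 1) (N_i (N_i + 1)² + 1)`; `a i = N_i + 1`, `k i = N_i`. -/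
theorem exists_moduli (c : ℕ) (hc : 0 < c) : ∃ a k : ℕ → ℕ, (∀ i, c ≤ k i ∧ a i = k i + 1) ∧
    (∀ i, c.Coprime (a i) ∧ c.Coprime (k i * a i ^ 2 + 1) ∧ (a i).Coprime (k i * a i ^ 2 + 1)) ∧
    ∀ i j, i < j → a i * (k i * a i ^ 2 + 1) ∣ k j := by
  let N : ℕ → ℕ := fun i => Nat.rec c (fun _ n => n * ((n + 1) * (n * (n + 1) ^ 2 + 1))) i
  have hs : ∀ i, N (i + 1) = N i * ((N i + 1) * (N i * (N i + 1) ^ 2 + 1)) := fun _ => rfl
  have hd : ∀ i j, i ≤ j → N i ∣ N j := fun i j hij => by
    induction j, hij using Nat.le_induction with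
    | base => exact dvd_rfl
    | succ j _ ih => exact ih.trans (hs j ▸ dvd_mul_right _ _)
  have hp : ∀ i, 0 < N i := fun i => by
    induction i with
    | zero => exact hc
    | succ i ih => rw [hs]; positivity
  have hc' : ∀ i, c ∣ N i := fun i => hd 0 i (Nat.zero_le i)
  refine ⟨fun i => N i + 1, N, fun i => ⟨Nat.le_of_dvd (hp i) (hc' i), rfl⟩,
    fun i => ⟨cyc_coprime (hc' i), cyc_coprime ((hc' i).mul_right _),
      cyc_coprime ((dvd_pow_self _ two_ne_zero).mul_left _)⟩, fun i j hij => ?_⟩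
  exact (hs i ▸ dvd_mul_left _ _ : _ ∣ N (i + 1)).trans (hd _ _ hij)

/-- Chinese remainder theorem. -/
theorem exists_int_cast_eq {U : Type*} [Finite U] {μ : U → ℕ} (h0 : ∀ u, 0 < μ u)
    (h : Pairwise fun u u' => (μ u).Coprime (μ u')) (x : ∀ u, ZMod (μ u)) :
    ∃ z : ℤ, ∀ u, (z : ZMod (μ u)) = x u := by
  have := Fintype.ofFinite U
  obtain ⟨z, hz⟩ := ZMod.intCast_surjective ((ZMod.prodEquivPi μ h).symm x)
  refine ⟨z, fun u => ?_⟩
  have e := congrArg (ZMod.prodEquivPi μ h) hz
  rw [map_intCast, RingEquiv.apply_symm_apply] at e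
  exact congrFun e u

end Crest.Agent.R46
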