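import Mathlib
import Crest.Prelude.Def_Tiling

/-!
# R46: systems of tiling equations, line puzzles
-/

set_option autoImplicit false
open Crest.CombinatoricsR.Tiling

namespace Crest.Agent.R46

/-- `A` tiles the group with the indexed tile `f`. -/
def Tiles {Γ J : Type*} [AddCommGroup Γ] (A : Set Γ) (f : J → Γ) : Prop :=
  ∀ x, ∃! j, x - f j ∈ A

/-- There is a finite system of tiling equations in `Γ` with at least one equation that has a
solution but no fully periodic solution. -/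
def AperSys (Γ : Type) [AddCommGroup Γ] : Prop :=
  ∃ (E : Type) (_ : Finite E) (_ : Nonempty E) (J : E → Type) (_ : ∀ e, Finite (J e))
    (f : ∀ e, J e → Γ), (∃ A : Set Γ, ∀ e, Tiles A (f e)) ∧
      ∀ A : Set Γ, (∀ e, Tiles A (f e)) → ¬ IsFullyPeriodic A

/-- A finite tile of `ℤ³` that tiles, but not periodically. -/
def AperTile (T : Finset (Fin 3 → ℤ)) : Prop :=
  (∃ A : Set (Fin 3 → ℤ), IsTilingBy T A) ∧
    ∀ A : Set (Fin 3 → ℤ), IsTilingBy T A → ¬ IsFullyPeriodic A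

/-- A puzzle: column `n` carries a symbol on each line `i + ν n * j = k` of `ℤ²`; at each point the
tuple of symbols has to lie in `Rel`; the symbols of column `n₀` carry a label modulo `p`. -/
structure Puzzle where
  ι : Type
  S : Type
  [finι : Fintype ι]
  [decι : DecidableEq ι]
  [finS : Fintype S]
  [decS : DecidableEq S]
  ν : ι → ℤ
  n₀ : ι
  p : ℕ
  [neP : NeZero p]
  Rel : Set (ι → S)
  lab : S → ZMod p

attribute [instance] Puzzle.finι Puzzle.decι Puzzle.finS Puzzle.decS Puzzle.neP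

namespace Puzzle
variable (Z : Puzzle)

/-- An exact solution. -/
def Exact (F : Z.ι → ℤ → Z.S) : Prop :=
  (∀ i j : ℤ, (fun n => F n (i + Z.ν n * j)) ∈ Z.Rel) ∧ ∀ k : ℤ, Z.lab (F Z.n₀ k) = (k : ZMod Z.p)

/-- A `P`-periodic solution with defects: on each line the symbol may be invisible on one
residue class modulo some `q ≥ q₀` without small prime factors. -/
structure Defect (q₀ P : ℕ) (F : Z.ι → ℤ → Z.S) (Act : Z.ι → ℤ → ℤ → Prop) : Prop where
  pos : 0 < P
  perF : ∀ n k, F n (k + P) = F n k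
  per1 : ∀ n i j, Act n (i + P) j ↔ Act n i j
  per2 : ∀ n i j, Act n i (j + P) ↔ Act n i j
  rare : ∀ n k, ∃ (q : ℕ) (D : ℤ), q₀ ≤ q ∧ q.Coprime Z.p.factorial ∧ q ∣ P ∧
    ∀ j : ℤ, ¬ Act n (k - Z.ν n * j) j → (q : ℤ) ∣ D + j
  rel : ∀ i j : ℤ, (∀ n, Act n i j) → (fun n => F n (i + Z.ν n * j)) ∈ Z.Rel

/-- Each label occurs on one residue class only. -/
def Labelled (F : Z.ι → ℤ → Z.S) : Prop :=
  ∀ d : ZMod Z.p, ∃ c : ZMod Z.p, ∀ k : ℤ, Z.lab (F Z.n₀ k) = d → (k : ZMod Z.p) = c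

/-- Solvable, and robustly aperiodic. -/
def Good : Prop :=
  (∃ F, Z.Exact F) ∧ ∃ q₀ : ℕ, ∀ P F Act, Z.Defect q₀ P F Act → ¬ Z.Labelled F

end Puzzle

end Crest.Agent.R46
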