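import Crest.Agent.R46.Frame
import Crest.Agent.R46.Cyc

/-!
# R46: the ambient group and the generic tiles
-/

set_option autoImplicit false
set_option linter.unusedSectionVars false
open Crest.CombinatoricsR.Tiling Finset

namespace Crest.Agent.R46

/-- `Q` is the property of solving a finite system of tiling equations. -/
def Sys {Γ : Type} [AddCommGroup Γ] (Q : Set Γ → Prop) : Prop :=
  ∃ (E : Type) (_ : Finite E) (J : E → Type) (_ : ∀ e, Finite (J e)) (f : ∀ e, J e → Γ),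
    ∀ A, Q A ↔ ∀ e, Tiles A (f e)

section Sys
variable {Γ : Type} [AddCommGroup Γ]

theorem Sys.tiles {J : Type} [Finite J] (f : J → Γ) : Sys fun A => Tiles A f :=
  ⟨Unit, inferInstance, fun _ => J, inferInstance, fun _ => f, fun _ => ⟨fun h _ => h, fun h => h ()⟩⟩

theorem Sys.all {E : Type} [Finite E] {Q : E → Set Γ → Prop} (h : ∀ e, Sys (Q e)) :
    Sys fun A => ∀ e, Q e A := by
  choose E' i1 J i2 f hf using h
  refine ⟨Σ e, E' e, inferInstance, fun x => J x.1 x.2, inferInstance, fun x => f x.1 x.2,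
    fun A => ⟨fun h x => (hf _ A).1 (h x.1) x.2, fun h e => (hf e A).2 fun e' => h ⟨e, e'⟩⟩⟩

theorem Sys.congr {Q Q' : Set Γ → Prop} (h : Sys Q) (e : ∀ A, Q' A ↔ Q A) : Sys Q' := by
  obtain ⟨E, i1, J, i2, f, hf⟩ := h
  exact ⟨E, i1, J, i2, f, fun A => (e A).trans (hf A)⟩

theorem Sys.and {Q Q' : Set Γ → Prop} (h : Sys Q) (h' : Sys Q') : Sys fun A => Q A ∧ Q' A :=
  (Sys.all (Q := fun b : Bool => cond b Q Q') fun b => by cases b <;> assumption).congr fun A =>
    ⟨fun h b => by cases b; exacts [h.2, h.1], fun h => ⟨h true, h false⟩⟩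

theorem Sys.imp (p : Prop) {Q : Set Γ → Prop} (h : Sys Q) : Sys fun A => p → Q A :=
  (Sys.all (E := PLift p) (Q := fun _ => Q) fun _ => h).congr fun _ =>
    ⟨fun h x => h x.down, fun h x => h ⟨x⟩⟩

theorem Sys.aper {Q : Set Γ → Prop} (h : Sys Q) (ex : ∃ A, Q A)
    (ap : ∀ A, Q A → ¬ IsFullyPeriodic A) : AperSys Γ := by
  obtain ⟨E, i1, J, i2, f, hf⟩ := h
  have : Nonempty E := by
    by_contra hE
    exact ap Set.univ ((hf _).2 fun e => (hE ⟨e⟩).elim) ⟨⊤, inferInstance, fun _ _ _ _ => trivial⟩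
  obtain ⟨A, hA⟩ := ex
  exact ⟨E, i1, this, J, i2, f, ⟨A, (hf A).1 hA⟩, fun A hA => ap A ((hf A).2 hA)⟩

end Sys

/-- Moduli: `a n`, `s n` for the frames, `r v` for the variables. -/
structure Par (I V : Type) where
  a : I → ℕ
  s : I → ℕ
  r : V → ℕ
  [nea : ∀ n, NeZero (a n)]
  [nes : ∀ n, NeZero (s n)]
  [ner : ∀ v, NeZero (r v)]
  a2 : ∀ n, 2 ≤ a n
  cop : ∀ n, (a n).Coprime (s n)
  frame : ∀ n, ∃ (T : Set (Pt (a n) (s n))) (st : Bool → Pt (a n) (s n) → Bool), FrameData T st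
  m : ℤ
  ker : ∀ z : ℤ, (∀ n, (z : ZMod (a n) × ZMod (s n)) = 0) ↔ m ∣ z
  h : (∀ n, ZMod (a n) × ZMod (s n)) → ℤ
  hR : ∀ ρ n, (h ρ : ZMod (a n) × ZMod (s n)) = ρ n
  hH : ∀ ρ v, (h ρ : ZMod (r v)) = 0
  h0 : h 0 = 0
  κ : ℤ
  hκ : ∀ v, (κ : ZMod (r v)) * (m : ZMod (r v)) = 1
  kk : V → ℤ
  kk_self : ∀ v, (kk v : ZMod (r v)) = 1
  kk_ne : ∀ v w, v ≠ w → (kk v : ZMod (r w)) = 0
  surj : ∀ (ρ : ∀ n, ZMod (a n) × ZMod (s n)) (η : ∀ v, ZMod (r v)),
    ∃ z : ℤ, (∀ n, (z : ZMod (a n) × ZMod (s n)) = ρ n) ∧ ∀ v, (z : ZMod (r v)) = η v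

attribute [instance] Par.nea Par.nes Par.ner

namespace Par
variable {I V : Type} (P : Par I V)

abbrev R := ∀ n, ZMod (P.a n) × ZMod (P.s n)
abbrev H := ∀ v, ZMod (P.r v)
abbrev G := ∀ n, Pt (P.a n) (P.s n)
abbrev X := (ℤ × ℤ) × P.R
abbrev Fr := ∀ n, Set (Pt (P.a n) (P.s n))

/-- The types of a position. -/
def pr : P.X →+ P.G where
  toFun x n := ((x.1.1 : ZMod (P.a n) × ZMod (P.s n)), (x.1.2 : ZMod (P.a n) × ZMod (P.s n)), x.2 n)
  map_zero' := by funext n; simp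
  map_add' x y := by funext n; simp

/-- A section of `pr` that is invisible modulo all `r v`. -/
def L (δ : P.G) : P.X := ((P.h fun n => (δ n).1, P.h fun n => (δ n).2.1), fun n => (δ n).2.2)

/-- The kernel of `pr`. -/
def M : ℤ × ℤ →+ P.X where
  toFun w := (P.m • w, 0)
  map_zero' := by simp
  map_add' x y := by simp

/-- Shifts inside the fibres. -/
def fib : P.R →+ P.G where
  toFun z n := (0, 0, z n)
  map_zero' := rfl
  map_add' x y := by funext n; simp

theorem pr_apply (x : P.X) (n : I) : P.pr x n =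
    ((x.1.1 : ZMod (P.a n) × ZMod (P.s n)), (x.1.2 : ZMod (P.a n) × ZMod (P.s n)), x.2 n) := rfl

theorem M_apply (w : ℤ × ℤ) : P.M w = (P.m • w, 0) := rfl

theorem fib_apply (z : P.R) (n : I) : P.fib z n = (0, 0, z n) := rfl

@[simp] theorem pr_L (δ : P.G) : P.pr (P.L δ) = δ := by
  funext n
  simp only [pr_apply, L, P.hR]

@[simp] theorem pr_M (w : ℤ × ℤ) : P.pr (P.M w) = 0 := by
  funext n
  have h1 := (P.ker (P.m * w.1)).2 (dvd_mul_right _ _) n
  have h2 := (P.ker (P.m * w.2)).2 (dvd_mul_right _ _) n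
  simp only [pr_apply, M_apply, Prod.smul_fst, Prod.smul_snd, smul_eq_mul, h1, h2]
  rfl

@[simp] theorem L_zero : P.L 0 = 0 := by
  have : P.h (fun _ => 0) = 0 := P.h0
  simp only [L, Pi.zero_apply, Prod.fst_zero, Prod.snd_zero, this]
  rfl

theorem L_fib (z : P.R) : P.L (P.fib z) = (0, z) := by
  have : P.h (fun _ => 0) = 0 := P.h0
  simp only [L, fib_apply, this]
  rfl

theorem pr_fib (z : P.R) : P.pr (0, z) = P.fib z := by rw [← L_fib, pr_L]

theorem exists_M {x x' : P.X} (h : P.pr x = P.pr x') : ∃ w, x' = x + P.M w := by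
  have h0 : P.pr (x' - x) = 0 := by rw [map_sub, h, sub_self]
  obtain ⟨w1, e1⟩ := (P.ker (x' - x).1.1).1 fun n => congrArg (·.1) (congrFun h0 n)
  obtain ⟨w2, e2⟩ := (P.ker (x' - x).1.2).1 fun n => congrArg (·.2.1) (congrFun h0 n)
  refine ⟨(w1, w2), ?_⟩
  rw [← sub_eq_iff_eq_add']
  exact Prod.ext (Prod.ext e1 e2) (funext fun n => congrArg (·.2.2) (congrFun h0 n))

/-- The occupied positions. -/
def O (T : P.Fr) : Set P.X := {x | ∀ n, P.pr x n ∈ T n}

theorem mem_O {T : P.Fr} {x : P.X} : x ∈ P.O T ↔ ∀ n, P.pr x n ∈ T n := Iff.rfl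

@[simp] theorem add_M_mem {T : P.Fr} {x : P.X} {w : ℤ × ℤ} : x + P.M w ∈ P.O T ↔ x ∈ P.O T := by
  simp [mem_O]

@[simp] theorem sub_M_mem {T : P.Fr} {x : P.X} {w : ℤ × ℤ} : x - P.M w ∈ P.O T ↔ x ∈ P.O T := by
  simp [mem_O]

/-- Both keys are bijections from each frame. -/
def Bij (T : P.Fr) : Prop := ∀ n b x, ∃! t, t ∈ T n ∧ key b t = x

/-- The variable `v` changes with slope `σ` on the line through `o` with direction `M w`. -/
def Slope (α : P.X → P.H) (v : V) (w : ℤ × ℤ) (o : P.X) (σ : ℤ) : Prop :=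
  ∀ j : ℤ, α (o + P.M (j • w)) v = α o v + ((j * σ : ℤ) : ZMod (P.r v))

/-- Same place modulo all `r v`. -/
def Cong (o o' : P.X) : Prop :=
  ∀ v, (o.1.1 : ZMod (P.r v)) = o'.1.1 ∧ (o.1.2 : ZMod (P.r v)) = o'.1.2

theorem cong_L (x : P.X) (δ δ' : P.G) : P.Cong (x - P.L δ) (x - P.L δ') := fun v => by
  simp [L, P.hH]

/-- Neighbours under fibre switches. -/
structure Nb (o o' : P.X) : Prop where
  cong : P.Cong o o'
  cls : ∀ n, (key false (P.pr o n)).2 = (key false (P.pr o' n)).2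
  pos : (∀ n, (P.pr o n).1 = (P.pr o' n).1 ∧ (P.pr o n).2.1 = (P.pr o' n).2.1) → o.1 = o'.1

variable [Fintype I] [DecidableEq I] [Fintype V] [DecidableEq V]

/-- The base tiles. -/
abbrev K (b : Option I) := {δ : P.G // ∀ n, key (decide (b = some n)) (δ n) = 0}

/-- The equations that force the shape of the occupied set. -/
def OccEqs (A : Set (P.X × P.H)) : Prop :=
  (∀ b, Tiles A fun j : P.K b × P.H => (P.L j.1.1, j.2)) ∧
  (Tiles A fun j : P.K none × P.H => (P.L j.1.1 + if j.1.1 = 0 then P.M (1, 0) else 0, j.2)) ∧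
  (Tiles A fun j : P.K none × P.H => (P.L j.1.1 + if j.1.1 = 0 then P.M (0, 1) else 0, j.2)) ∧
  ∀ n (g : P.G), g n = 0 →
    Tiles A fun j : P.K none × P.H => (P.L (j.1.1 + if j.1.1 n = 0 then g else 0), j.2)

/-- The general switch tile. -/
def sw (b : Option I) (gs : P.H → P.G) (us : P.H → P.G → ℤ × ℤ) (es : P.H → P.G → P.H)
    (j : P.K b × P.H) : P.X × P.H :=
  (P.L (j.1.1 + gs j.2) + P.M (us j.2 (j.1.1 + gs j.2)), j.2 + es j.2 (j.1.1 + gs j.2))

/-- The tile with cyclic feedback. -/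
noncomputable def cyc (b : Option I) {S : Type} [Fintype S] (c : S → V) (g : S → P.G)
    (u : S → ℤ × ℤ) (e : S → P.H) (u' : P.G → ℤ × ℤ) (e' : P.G → P.H) :
    P.K b × P.H → P.X × P.H :=
  P.sw b (fun η => ∑ i, if eps c η i then g i else 0)
    (fun η δ => (∑ i, if eps c η i then u i else 0) + u' δ)
    (fun η δ => (∑ i, if eps c η i then e i else 0) + e' δ)

def hole (v : V) (w : ℤ × ℤ) : P.K none × P.H → P.X × P.H :=
  P.sw none (fun _ => 0) (fun η _ => if η v = 0 then -w else if η v = 1 then w else 0) fun _ _ => 0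

noncomputable def tie (v : V) (w : ℤ × ℤ) : P.K none × P.H → P.X × P.H :=
  P.cyc none (fun _ : Unit => v) (fun _ => 0) (fun _ => w) (fun _ => 0) (fun _ => 0) fun _ => 0

noncomputable def clause {S : Type} [Fintype S] (c : S → V) (w : ℤ × ℤ) (τ : S → ℤ) :
    P.K none × P.H → P.X × P.H :=
  P.cyc none c (fun _ => 0) (fun i => P.kk (c i) • w)
    (fun i => Pi.single (c i) (τ i : ZMod (P.r (c i)))) (fun _ => 0) fun _ => 0

noncomputable def nand {S : Type} [Fintype S] (c : S → V) (host : S → I) (ζ : P.R) :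
    P.K none × P.H → P.X × P.H :=
  P.cyc none c (fun i => P.fib (Pi.single (host i) (ζ (host i)))) (fun _ => 0) (fun _ => 0)
    (fun _ => 0) fun _ => 0

noncomputable def cls (n : I) (b : Bool) (v : V) (g : P.G) :
    P.K (if b then some n else none) × P.H → P.X × P.H :=
  P.cyc _ (fun _ : Unit => v) (fun _ => g) (fun _ => 0) (fun _ => 0) (fun _ => 0) fun _ => 0

open Classical in
noncomputable def flt (n : I) (b : Bool) (v : V) (w : ℤ × ℤ) (σ : Bool) (g : P.G) :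
    P.K (if b then some n else none) × P.H → P.X × P.H :=
  P.cyc _ (fun _ : Unit => v) (fun _ => g) (fun _ => 0) (fun _ => 0)
    (fun δ => if Flat b σ (δ n) then w else 0)
    fun δ => if Flat b σ (δ n) then Pi.single v (if σ then 0 else 1) else 0

/-- The equations that attach the variable `v` to partition `b` of frame `n`. -/
def AuxEqs (n : I) (b : Bool) (v : V) (w w' : ℤ × ℤ) (A : Set (P.X × P.H)) : Prop :=
  Tiles A (P.hole v w) ∧ Tiles A (P.tie v w') ∧
  (∀ g : P.G, (key b (g n)).2 = 0 → Tiles A (P.cls n b v g)) ∧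
  ∀ (σ : Bool) (g : P.G), (key b (g n)).2 = 0 → Tiles A (P.flt n b v w σ g)

theorem sys_occ : Sys P.OccEqs :=
  (Sys.all fun _ => Sys.tiles _).and <| (Sys.tiles _).and <| (Sys.tiles _).and <|
    Sys.all fun _ => Sys.all fun _ => Sys.imp _ (Sys.tiles _)

theorem sys_aux (n : I) (b : Bool) (v : V) (w w' : ℤ × ℤ) : Sys (P.AuxEqs n b v w w') :=
  (Sys.tiles _).and <| (Sys.tiles _).and <| (Sys.all fun _ => Sys.imp _ (Sys.tiles _)).and <|
    Sys.all fun _ => Sys.all fun _ => Sys.imp _ (Sys.tiles _)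

end Par

end Crest.Agent.R46
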