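import Crest.Agent.R46.Gad

/-!
# R46: the system of tiling equations of a puzzle
-/

set_option autoImplicit false
open Finset

namespace Crest.Agent.R46

namespace Puzzle
variable (Z : Puzzle)

/-- Frames: one for each column and one host for each label. -/
abbrev I := Z.ι ⊕ ZMod Z.p
/-- Variables: two for each frame, one for each column and symbol, one clock modulo `p`. -/
abbrev V := (Z.I × Bool) ⊕ (Z.ι × Z.S) ⊕ Unit

variable {Z}
def aux (n : Z.I) (b : Bool) : Z.V := .inl (n, b)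
def lit (n : Z.ι) (c : Z.S) : Z.V := .inr (.inl (n, c))
variable (Z)
def piv : Z.V := .inr (.inr ())

def dir : Z.I → ℤ × ℤ
  | .inl n => (-Z.ν n, 1)
  | .inr _ => (1, 0)

def tr : Z.I → ℤ × ℤ
  | .inl _ => (1, 0)
  | .inr _ => (-Z.ν Z.n₀, 1)

/-- The moduli fit the puzzle. -/
def Fits (q₀ : ℕ) (P : Par Z.I Z.V) : Prop :=
  P.r Z.piv = Z.p ∧ ∀ v, v ≠ Z.piv → q₀ ≤ P.r v ∧ 2 ≤ P.r v ∧ (P.r v).Coprime Z.p.factorial

/-- The system. -/
structure Eqs (P : Par Z.I Z.V) (A : Set (P.X × P.H)) : Prop where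
  occ : P.OccEqs A
  gad : ∀ n b, P.AuxEqs n b (aux n b) (Z.dir n) (Z.tr n) A
  k1 : ∀ n, Tiles A (P.clause (aux n) (Z.dir n) fun b => if b then 0 else 1)
  hole : ∀ n c, Tiles A (P.hole (lit n c) (Z.dir (.inl n)))
  k2 : ∀ n c, Tiles A (P.clause (fun b : Bool => if b then aux (.inl n) true else lit n c)
    (Z.dir (.inl n)) fun b => if b then 1 else 0)
  k3 : ∀ n, Tiles A (P.clause (fun o : Option Z.S => o.elim (aux (.inl n) true) (lit n))
    (Z.dir (.inl n)) fun o => o.elim 0 fun _ => 1)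
  ptr : Tiles A (P.tie Z.piv (-Z.ν Z.n₀, 1))
  pper : Tiles A (P.tie Z.piv ((Z.p : ℤ) • ((1, 0) : ℤ × ℤ)))
  k4 : ∀ b : ZMod Z.p → Bool,
    Tiles A (P.clause (fun o : Option (ZMod Z.p) => o.elim Z.piv fun d => aux (.inr d) true) (1, 0)
      fun o => o.elim (∑ d, if b d then 1 else 0) fun d => if b d then 0 else 1)
  main : ∀ c, c ∉ Z.Rel → ∀ ζ, Tiles A (P.nand (fun n => lit n (c n)) .inl ζ)
  label : ∀ c ζ, Tiles A (P.nand (fun b : Bool => if b then Z.piv else lit Z.n₀ c)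
    (fun b => if b then .inr (Z.lab c) else .inl Z.n₀) ζ)

theorem sys_eqs (P : Par Z.I Z.V) : Sys (Z.Eqs P) := by
  refine Sys.congr (P.sys_occ.and <|
    (Sys.all fun n => Sys.all fun b => P.sys_aux n b (aux n b) (Z.dir n) (Z.tr n)).and <|
    (Sys.all fun n => Sys.tiles (P.clause (aux n) (Z.dir n) fun b => if b then 0 else 1)).and <|
    (Sys.all fun n => Sys.all fun c => Sys.tiles (P.hole (lit n c) (Z.dir (.inl n)))).and <|
    (Sys.all fun n => Sys.all fun c => Sys.tiles _).and <|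
    (Sys.all fun n => Sys.tiles _).and <| (Sys.tiles _).and <| (Sys.tiles _).and <|
    (Sys.all fun b => Sys.tiles _).and <|
    (Sys.all fun c => Sys.imp (c ∉ Z.Rel) <| Sys.all fun ζ => Sys.tiles _).and <|
    Sys.all fun c => Sys.all fun ζ => Sys.tiles _) fun A =>
    ⟨fun h => ⟨h.1, h.2, h.3, h.4, h.5, h.6, h.7, h.8, h.9, h.10, h.11⟩,
      fun ⟨h1, h2, h3, h4, h5, h6, h7, h8, h9, h10, h11⟩ =>
        ⟨h1, h2, h3, h4, h5, h6, h7, h8, h9, h10, h11⟩⟩

theorem span_dir_tr (n : Z.I) (y : ℤ × ℤ) : ∃ i j : ℤ, y = i • Z.dir n + j • Z.tr n := by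
  rcases n with n | d
  · exact ⟨y.2, y.1 + Z.ν n * y.2, by ext <;> simp [dir, tr]; ring⟩
  · exact ⟨y.1 + Z.ν Z.n₀ * y.2, y.2, by ext <;> simp [dir, tr]; ring⟩

theorem aux_ne_piv (n : Z.I) (b : Bool) : aux n b ≠ Z.piv := by simp [aux, piv]
theorem lit_ne_piv (n : Z.ι) (c : Z.S) : lit n c ≠ Z.piv := by simp [lit, piv]

theorem inj_k1 (n : Z.I) : Function.Injective (aux n : Bool → Z.V) := by
  intro b b' h; simpa [aux] using h

theorem inj_k2 (n : Z.ι) (c : Z.S) :
    Function.Injective fun b : Bool => if b then aux (.inl n) true else lit n c := by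
  intro b b' h; cases b <;> cases b' <;> simp [aux, lit] at h ⊢

theorem inj_k3 (n : Z.ι) :
    Function.Injective fun o : Option Z.S => o.elim (aux (.inl n) true) (lit n) := by
  intro b b' h; cases b <;> cases b' <;> simp [aux, lit] at h ⊢; exact h

theorem inj_k4 : Function.Injective
    fun o : Option (ZMod Z.p) => o.elim Z.piv fun d => (aux (.inr d) true : Z.V) := by
  intro b b' h; cases b <;> cases b' <;> simp [aux, piv] at h ⊢; exact h

end Puzzle

end Crest.Agent.R46
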