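import Crest.Agent.R46.Defs

/-!
# R46: frames
-/

set_option autoImplicit false
open Finset

namespace Crest.Agent.R46

/-- Points of a frame: `(y₁, y₂, z)`; the last coordinate is the fibre. -/
abbrev Pt (a s : ℕ) := (ZMod a × ZMod s) × (ZMod a × ZMod s) × (ZMod a × ZMod s)

variable {a s : ℕ}

/-- The pair that is a bijection from the frame for the first (`false`) and second (`true`)
partition; the second component is the index of the class. -/
def key : Bool → Pt a s → ZMod a × ZMod s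
  | false, t => (t.2.2.1, t.1.2)
  | true, t => (t.1.1 - t.2.1.1, t.2.2.2)

/-- `Flat b σ`: the subgroup containing the differences inside a class of partition `b` with state
`σ`. Partition `false`: good (`true`, inside a fibre) or bad; partition `true`: variable (`true`) or
reference. -/
def Flat : Bool → Bool → Pt a s → Prop
  | false, true, t => t.1 = 0 ∧ t.2.1 = 0
  | false, false, t => t.1.1 = 0
  | true, true, t => t.2.2.1 = t.2.1.1
  | true, false, t => t.2.2.1 = 0 ∧ t.2.1.1 = 0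

theorem key_add (b : Bool) (t t' : Pt a s) : key b (t + t') = key b t + key b t' := by
  cases b
  · rfl
  · exact Prod.ext (add_sub_add_comm _ _ _ _) rfl

theorem key_sub (b : Bool) (t t' : Pt a s) : key b (t - t') = key b t - key b t' := by
  cases b
  · rfl
  · exact Prod.ext (sub_sub_sub_comm _ _ _ _) rfl

theorem key_zero (b : Bool) : key b (0 : Pt a s) = 0 := by
  cases b
  · rfl
  · exact Prod.ext (sub_self _) rfl

theorem flat_zero (b σ : Bool) : Flat b σ (0 : Pt a s) := by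
  cases b <;> cases σ <;> simp [Flat]

theorem Flat.congr {b σ : Bool} {t t' : Pt a s} (h : Flat b σ (t - t')) :
    Flat b σ t ↔ Flat b σ t' := by
  cases b <;> cases σ <;> simp only [Flat, Prod.fst_sub, Prod.snd_sub, sub_eq_zero] at h ⊢
  · rw [h]
  · rw [h.1, h.2]
  · rw [h.1, h.2]
  · exact ⟨fun h1 => by linear_combination h1 - h, fun h1 => by linear_combination h1 + h⟩

/-- A frame with its two states. -/
structure FrameData (T : Set (Pt a s)) (st : Bool → Pt a s → Bool) : Prop where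
  bij : ∀ b x, ∃! t, t ∈ T ∧ key b t = x
  st_eq : ∀ b, ∀ t ∈ T, ∀ t' ∈ T, (key b t).2 = (key b t').2 → st b t = st b t'
  flat : ∀ b, ∀ t ∈ T, ∀ t' ∈ T, (key b t).2 = (key b t').2 → Flat b (st b t) (t - t')
  good : ∀ t ∈ T, st true t = true → st false t = true

/-- If a finite set has injective self-maps that move either coordinate of `f` by any amount and
fix the other one, all fibres of `f` have the same size. -/
theorem sq_dvd_card [NeZero a] {α : Type*} (U : Finset α) (f : α → ZMod a × ZMod a)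
    (h1 : ∀ c : ZMod a, ∃ mv : α → α, Set.InjOn mv U ∧ ∀ t ∈ U, mv t ∈ U ∧ f (mv t) = f t + (c, 0))
    (h2 : ∀ c : ZMod a, ∃ mv : α → α, Set.InjOn mv U ∧ ∀ t ∈ U, mv t ∈ U ∧ f (mv t) = f t + (0, c)) :
    a ^ 2 ∣ U.card := by
  classical
  have key : ∀ x y : ZMod a × ZMod a,
      (U.filter fun t => f t = x).card ≤ (U.filter fun t => f t = y).card := fun x y => by
    obtain ⟨m1, a1, a2⟩ := h1 (y.1 - x.1)
    obtain ⟨m2, b1, b2⟩ := h2 (y.2 - x.2)
    refine card_le_card_of_injOn (m2 ∘ m1) (fun t ht => ?_) fun t ht t' ht' e => ?_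
    · obtain ⟨c1, c2⟩ := mem_filter.1 ht
      refine mem_filter.2 ⟨(b2 _ (a2 t c1).1).1, ?_⟩
      rw [Function.comp_apply, (b2 _ (a2 t c1).1).2, (a2 t c1).2, c2]
      ext <;> simp
    · have c1 := (mem_filter.1 ht).1
      have c2 := (mem_filter.1 ht').1
      exact a1 c1 c2 (b1 (a2 t c1).1 (a2 t' c2).1 e)
  rw [card_eq_sum_card_fiberwise (f := f) (t := univ) fun _ _ => mem_univ _,
    sum_congr rfl fun x _ => le_antisymm (key x 0) (key 0 x), sum_const, card_univ,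
    Fintype.card_prod, ZMod.card, smul_eq_mul, sq]
  exact dvd_mul_right _ _

/-- Some fibre contains a variable point and a reference point. Otherwise the set `U` of variable
points is closed under the moves `mv b c t` = the point of `T` with key `key b t + (c, 0)`, and so
is `T \ U`. Apply `sq_dvd_card` to `U` with `f t = (t.2.2.1 - t.2.1.1, t.1.1 - t.2.1.1)` and to
`T \ U` with `f t = (t.2.2.1, t.1.1)`. Then `a ^ 2 ∣ |T| = a * s`. -/
theorem FrameData.exists_mixed [NeZero s] (ha : 2 ≤ a) (hs : a.Coprime s) {T : Set (Pt a s)}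
    {st : Bool → Pt a s → Bool} (h : FrameData T st) :
    ∃ t ∈ T, ∃ t' ∈ T, st true t = true ∧ st true t' = false ∧ t.1 = t'.1 ∧ t.2.1 = t'.2.1 := by
  classical
  by_contra hcon
  have hmix : ∀ t ∈ T, ∀ t' ∈ T, st true t = true → Flat false true (t - t') → st true t' = true :=
    fun t ht t' ht' h1 h2 => by
      by_contra h3
      exact hcon ⟨t, ht, t', ht', h1, eq_false_of_ne_true h3, sub_eq_zero.1 h2.1, sub_eq_zero.1 h2.2⟩
  have : NeZero a := ⟨by omega⟩
  choose pt hpt huniq using h.bij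
  have hinj : ∀ b, Set.InjOn (key b) T := fun b t ht t' ht' e => by
    rw [huniq b _ t ⟨ht, rfl⟩, huniq b _ t' ⟨ht', e.symm⟩]
  have hmv : ∀ (b : Bool) (c : ZMod a), ∃ mv : Pt a s → Pt a s, Set.InjOn mv T ∧
      ∀ t, mv t ∈ T ∧ (key b (mv t)).1 = (key b t).1 + c ∧ (key b (mv t)).2 = (key b t).2 :=
    fun b c => ⟨fun t => pt b (key b t + (c, 0)), fun t ht t' ht' e => hinj b ht ht' (by
      have := congrArg (key b) e
      rwa [(hpt b _).2, (hpt b _).2, add_left_inj] at this),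
      fun t => ⟨(hpt b _).1, by rw [(hpt b _).2]; rfl, by rw [(hpt b _).2]; exact add_zero _⟩⟩
  obtain ⟨U, hU⟩ : ∃ U : Finset (Pt a s), ∀ t, t ∈ U ↔ t ∈ T ∧ st true t = true :=
    ⟨(Set.toFinite {t | t ∈ T ∧ st true t = true}).toFinset, fun t => Set.Finite.mem_toFinset _⟩
  obtain ⟨V, hV⟩ : ∃ U : Finset (Pt a s), ∀ t, t ∈ U ↔ t ∈ T ∧ ¬st true t = true :=
    ⟨(Set.toFinite {t | t ∈ T ∧ ¬st true t = true}).toFinset, fun t => Set.Finite.mem_toFinset _⟩
  have d1 : a ^ 2 ∣ U.card := by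
    refine sq_dvd_card _ (fun t => (t.2.2.1 - t.2.1.1, t.1.1 - t.2.1.1)) (fun c => ?_) fun c => ?_
    · obtain ⟨mv, a1, a2⟩ := hmv false c
      refine ⟨mv, a1.mono fun t ht => ((hU t).1 ht).1, fun t ht => ?_⟩
      obtain ⟨b1, b2⟩ := (hU t).1 ht
      obtain ⟨c1, c2, c3⟩ := a2 t
      have c4 := h.flat false t b1 _ c1 c3.symm
      rw [h.good t b1 b2] at c4
      refine ⟨(hU _).2 ⟨c1, hmix t b1 _ c1 b2 c4⟩, ?_⟩
      have c5 : (mv t).1 = t.1 := (sub_eq_zero.1 c4.1).symm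
      have c6 : (mv t).2.1 = t.2.1 := (sub_eq_zero.1 c4.2).symm
      have c7 : (mv t).2.2.1 = t.2.2.1 + c := c2
      rw [c5, c6, c7]
      exact Prod.ext (add_sub_right_comm _ _ _) (add_zero _).symm
    · obtain ⟨mv, a1, a2⟩ := hmv true c
      refine ⟨mv, a1.mono fun t ht => ((hU t).1 ht).1, fun t ht => ?_⟩
      obtain ⟨b1, b2⟩ := (hU t).1 ht
      obtain ⟨c1, c2, c3⟩ := a2 t
      have c4 := h.flat true t b1 _ c1 c3.symm
      rw [b2] at c4
      refine ⟨(hU _).2 ⟨c1, (h.st_eq true _ c1 t b1 c3).trans b2⟩, Prod.ext ?_ c2⟩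
      have c5 : t.2.2.1 - (mv t).2.2.1 = t.2.1.1 - (mv t).2.1.1 := c4
      change (mv t).2.2.1 - (mv t).2.1.1 = t.2.2.1 - t.2.1.1 + 0
      linear_combination -c5
  have d2 : a ^ 2 ∣ V.card := by
    refine sq_dvd_card _ (fun t => (t.2.2.1, t.1.1)) (fun c => ?_) fun c => ?_
    · obtain ⟨mv, a1, a2⟩ := hmv false c
      refine ⟨mv, a1.mono fun t ht => ((hV t).1 ht).1, fun t ht => ?_⟩
      obtain ⟨b1, b2⟩ := (hV t).1 ht
      obtain ⟨c1, c2, c3⟩ := a2 t
      have c4 := h.flat false _ c1 t b1 c3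
      refine ⟨(hV _).2 ⟨c1, fun c5 => b2 (hmix _ c1 t b1 c5 ?_)⟩, Prod.ext c2 ?_⟩
      · rwa [h.good _ c1 c5] at c4
      · have c5 : (mv t).1.1 - t.1.1 = 0 := by
          cases hσ : st false (mv t) <;> rw [hσ] at c4
          · exact c4
          · exact congrArg Prod.fst c4.1
        exact (sub_eq_zero.1 c5).trans (add_zero _).symm
    · obtain ⟨mv, a1, a2⟩ := hmv true c
      refine ⟨mv, a1.mono fun t ht => ((hV t).1 ht).1, fun t ht => ?_⟩
      obtain ⟨b1, b2⟩ := (hV t).1 ht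
      obtain ⟨c1, c2, c3⟩ := a2 t
      have c4 := h.flat true t b1 _ c1 c3.symm
      rw [eq_false_of_ne_true b2] at c4
      have c5 : t.2.2.1 - (mv t).2.2.1 = 0 := c4.1
      have c6 : t.2.1.1 - (mv t).2.1.1 = 0 := c4.2
      have c7 : (mv t).1.1 - (mv t).2.1.1 = t.1.1 - t.2.1.1 + c := c2
      refine ⟨(hV _).2 ⟨c1, by rwa [h.st_eq true _ c1 t b1 c3]⟩, Prod.ext ?_ ?_⟩
      · change (mv t).2.2.1 = t.2.2.1 + 0
        linear_combination -c5
      · change (mv t).1.1 = t.1.1 + c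
        linear_combination c7 - c6
  have d3 := dvd_add d1 d2
  have hUV : ∀ t, t ∈ U ∪ V ↔ t ∈ T := fun t => by rw [mem_union, hU, hV]; tauto
  rw [← card_union_of_disjoint (disjoint_left.2 fun t h1 h2 => ((hV t).1 h2).2 ((hU t).1 h1).2),
    card_nbij (t := univ) (key false) (fun _ _ => mem_univ _)
      (fun t ht t' ht' => hinj false ((hUV t).1 ht) ((hUV t').1 ht'))
      fun x _ => ⟨pt false x, (hUV _).2 (hpt _ _).1, (hpt _ _).2⟩,
    card_univ, Fintype.card_prod, ZMod.card, ZMod.card, sq,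
    Nat.mul_dvd_mul_iff_left (by omega)] at d3
  have := Nat.Coprime.eq_one_of_dvd hs d3
  omega

/-- The relation defining the explicit frame. -/
def frR {K A : Type} [Zero A] (c₀ : K) (d n e : A) : Option (K × A × A) → Option (K × A × A) → Prop
  | none, none => False
  | none, some q => q = (c₀, e, n) ∧ d = 0 ∧ e = n
  | some p, none => p = (c₀, 0, n) ∧ d = 0 ∧ e = n
  | some p, some q => p = (q.1, d, n) ∧ q = (p.1, e, n) ∧ ¬(p.1 = c₀ ∧ d = 0 ∧ e = n)

section frR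
variable {K A : Type} [AddCommGroup A] {c₀ : K} {d n e d' n' e' : A} {p q p' q' : Option (K × A × A)}

theorem fr_ex1 (c₀ : K) (e : A) (p : Option (K × A × A)) : ∃ d n q, frR c₀ d n e p q := by
  rcases p with _ | ⟨c, d, n⟩
  · exact ⟨0, e, some (c₀, e, e), rfl, rfl, rfl⟩
  · by_cases h : c = c₀ ∧ d = 0 ∧ e = n
    · exact ⟨d, n, none, by rw [h.1, h.2.1], h.2⟩
    · exact ⟨d, n, some (c, e, n), rfl, rfl, h⟩

theorem fr_ex2 (c₀ : K) (δ : A) (q : Option (K × A × A)) :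
    ∃ d n e p, frR c₀ d n e p q ∧ d - n = δ := by
  rcases q with _ | ⟨c, e, n⟩
  · exact ⟨0, -δ, -δ, some (c₀, 0, -δ), ⟨rfl, rfl, rfl⟩, by simp⟩
  · by_cases h : c = c₀ ∧ δ + n = 0 ∧ e = n
    · exact ⟨δ + n, n, e, none, ⟨by rw [h.1], h.2⟩, by simp⟩
    · exact ⟨δ + n, n, e, some (c, δ + n, n), ⟨rfl, rfl, h⟩, by simp⟩

theorem fr_fl1 (h : frR c₀ d n e p q) (h' : frR c₀ d' n' e' p q') :
    d = d' ∧ (p ≠ none → n = n') := by
  rcases p with _ | ⟨c, x, y⟩ <;> rcases q with _ | ⟨c1, x1, y1⟩ <;>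
    rcases q' with _ | ⟨c2, x2, y2⟩ <;> simp only [frR, Prod.mk.injEq] at h h' <;> grind

theorem fr_fl2 (h : frR c₀ d n e p q) (h' : frR c₀ d' n' e' p' q) :
    (q = none → e = n ∧ e' = n' ∧ p ≠ none ∧ d = d') ∧ (q ≠ none → e = e' ∧ n = n') := by
  rcases q with _ | ⟨c, x, y⟩ <;> rcases p with _ | ⟨c1, x1, y1⟩ <;>
    rcases p' with _ | ⟨c2, x2, y2⟩ <;> simp only [frR, Prod.mk.injEq] at h h' <;> grind

theorem fr_un1 (h : frR c₀ d n e p q) (h' : frR c₀ d' n' e p q') : d = d' ∧ n = n' ∧ q = q' := by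
  rcases p with _ | ⟨c, x, y⟩ <;> rcases q with _ | ⟨c1, x1, y1⟩ <;>
    rcases q' with _ | ⟨c2, x2, y2⟩ <;> simp only [frR, Prod.mk.injEq] at h h' <;> grind

theorem fr_un2 (h : frR c₀ d n e p q) (h' : frR c₀ d' n' e' p' q) (hd : d - n = d' - n') :
    d = d' ∧ n = n' ∧ e = e' ∧ p = p' := by
  have h1 : d = d' ∧ n = n' := by
    by_cases hq : q = none
    · have h2 := ((fr_fl2 h h').1 hq).2.2.2
      exact ⟨h2, sub_right_injective (h2 ▸ hd)⟩
    · have h2 := ((fr_fl2 h h').2 hq).2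
      exact ⟨sub_left_injective (h2 ▸ hd :), h2⟩
  obtain ⟨rfl, rfl⟩ := h1
  rcases q with _ | ⟨c, x, y⟩ <;> rcases p with _ | ⟨c1, x1, y1⟩ <;>
    rcases p' with _ | ⟨c2, x2, y2⟩ <;> simp only [frR, Prod.mk.injEq] at h h' <;> grind

end frR

/-- Fix `ι : Option (Fin k × ZMod a × ZMod a) ≃ ZMod s` and `c₀ : Fin k`. `T` consists of the
points `((d, ψ₁), (n, 0), (e, ι (some (c, e, n))))` with `ψ₁ = ι none` if `c = c₀`, `d = 0`, `e = n`
and `ψ₁ = ι (some (c, d, n))` otherwise, and of the points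
`((0, ι (some (c₀, 0, n))), (n, 0), (n, ι none))`. `st true t = (t.2.2.2 = ι none)`,
`st false t = (t.1.2 ≠ ι none)`. -/
theorem exists_frameData {k : ℕ} (ha : 2 ≤ a) (hk : 1 ≤ k) :
    ∃ (T : Set (Pt a (k * a ^ 2 + 1))) (st : Bool → Pt a (k * a ^ 2 + 1) → Bool),
      FrameData T st := by
  have : NeZero a := ⟨by omega⟩
  obtain ⟨ι⟩ : Nonempty (Option (Fin k × ZMod a × ZMod a) ≃ ZMod (k * a ^ 2 + 1)) :=
    Fintype.card_eq.1 (by simp [ZMod.card, sq])
  set c₀ : Fin k := ⟨0, hk⟩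
  refine ⟨{t | ∃ d n e p q, frR c₀ d n e p q ∧ t = ((d, ι p), (n, 0), (e, ι q))},
    fun b t => Bool.rec (decide (t.1.2 ≠ ι none)) (decide (t.2.2.2 = ι none)) b, fun b x => ?_,
    fun b t _ t' _ h => ?_, ?_, ?_⟩
  · obtain ⟨x, y⟩ := x
    obtain ⟨y, rfl⟩ := ι.surjective y
    refine existsUnique_of_exists_of_unique ?_ ?_
    · cases b
      · obtain ⟨d, n, q, h⟩ := fr_ex1 c₀ x y
        exact ⟨_, ⟨d, n, x, y, q, h, rfl⟩, rfl⟩
      · obtain ⟨d, n, e, p, h, rfl⟩ := fr_ex2 c₀ x y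
        exact ⟨_, ⟨d, n, e, p, y, h, rfl⟩, rfl⟩
    · rintro _ _ ⟨⟨d, n, e, p, q, h, rfl⟩, h1⟩ ⟨⟨d', n', e', p', q', h', rfl⟩, h2⟩
      have h3 := h1.trans h2.symm
      cases b
      · obtain ⟨rfl, h4⟩ : e = e' ∧ ι p = ι p' := Prod.ext_iff.1 h3
        obtain rfl := ι.injective h4
        obtain ⟨rfl, rfl, rfl⟩ := fr_un1 h h'
        rfl
      · obtain ⟨h5, h4⟩ : d - n = d' - n' ∧ ι q = ι q' := Prod.ext_iff.1 h3
        obtain rfl := ι.injective h4
        obtain ⟨rfl, rfl, rfl, rfl⟩ := fr_un2 h h' h5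
        rfl
  · cases b
    · exact congrArg (fun y => decide (y ≠ ι none)) h
    · exact congrArg (fun y => decide (y = ι none)) h
  · rintro b _ ⟨d, n, e, p, q, h, rfl⟩ _ ⟨d', n', e', p', q', h', rfl⟩ h1
    cases b
    · obtain rfl : p = p' := ι.injective h1
      obtain ⟨rfl, h2⟩ := fr_fl1 h h'
      by_cases hp : p = none
      · simp [hp, Flat]
      · simp [hp, Flat, h2 hp]
    · obtain rfl : q = q' := ι.injective h1
      obtain ⟨h2, h3⟩ := fr_fl2 h h'
      by_cases hq : q = none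
      · simp [hq, Flat, (h2 hq).1, (h2 hq).2.1]
      · simp [hq, Flat, h3 hq]
  · rintro _ ⟨d, n, e, p, q, h, rfl⟩ h1
    have h2 : q = none := by simpa using h1
    simpa using ((fr_fl2 h h).1 h2).2.2.1

end Crest.Agent.R46
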