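import Crest.Agent.R46.Sw

/-!
# R46: the state of a class of a frame is the slope of a variable
-/

set_option autoImplicit false
set_option linter.unusedSectionVars false
open Finset

namespace Crest.Agent.R46

namespace Par
variable {I V : Type} {P : Par I V} [Fintype I] [DecidableEq I] [Fintype V] [DecidableEq V]
variable {T : P.Fr} {α : P.X → P.H}

theorem Slope.step {v : V} {w : ℤ × ℤ} {o : P.X} {σ : ℤ} (h : P.Slope α v w o σ) :
    α (o - P.M w) v + (σ : ZMod (P.r v)) = α o v := by
  have := h (-1)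
  rw [neg_smul, one_smul, map_neg, ← sub_eq_add_neg] at this
  rw [this]; simp


theorem Slope.per {v : V} {w : ℤ × ℤ} {o : P.X} {σ : ℤ} (h : P.Slope α v w o σ) :
    α (o - P.M ((P.r v : ℤ) • w)) v = α o v := by
  have := h (-(P.r v : ℤ))
  rw [neg_smul, map_neg, ← sub_eq_add_neg] at this
  rw [this]; simp


theorem Slope.shift {v : V} {w : ℤ × ℤ} {o : P.X} {σ : ℤ} (h : P.Slope α v w o σ) (j : ℤ) :
    P.Slope α v w (o + P.M (j • w)) σ := by
  intro i
  rw [add_assoc, ← map_add, ← add_smul, h, h]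
  push_cast; ring


theorem Bij.nonempty (hT : P.Bij T) {n : I} {t : Pt (P.a n) (P.s n)} (ht : t ∈ T n) :
    ∃ o ∈ P.O T, P.pr o n = t := by
  choose y hy using fun m => (hT m false 0).exists
  refine ⟨P.L (Function.update y n t), fun m => ?_, by simp⟩
  rw [pr_L]
  by_cases hm : m = n
  · subst hm; simpa using ht
  · rw [Function.update_of_ne hm]; exact (hy m).1


theorem gad_decide (n : I) (b : Bool) :
    decide ((if b then some n else none : Option I) = some n) = b := by cases b <;> simp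

theorem gad_tie {v : V} {w' : ℤ × ℤ} (h : ∀ o ∈ P.O T, α (o - P.M w') v = α o v) (j : ℤ) :
    ∀ o ∈ P.O T, α (o + P.M (j • w')) v = α o v := by
  induction j using Int.induction_on with
  | zero => simp
  | succ i ih =>
    intro o ho
    rw [← h _ (P.add_M_mem.2 ho), add_smul, one_smul, map_add, ← add_assoc, add_sub_cancel_right,
      ih o ho]
  | pred i ih =>
    intro o ho
    rw [sub_smul, one_smul, map_sub, ← add_sub_assoc, h _ (P.add_M_mem.2 ho), ih o ho]

/-- `cyc_sound'` for `cls` gives `α (o - L δ) v = α o v` if `o`, `o - L δ ∈ O` and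
`(key b (δ n)).2 = 0`. With `hole_iff'`, `tie_iff`, `exists_M`, `hw`: points of `O` whose `n`-th
types are in the same class have the same slope. Let `st t` say that some `o ∈ O` with
`pr o n = t` has slope `1`. For flatness take `δ = Pi.single n (t - t')` in `cyc_sound'` for `flt`
with `σ = st t`: if not flat, the slope at `o` is both `σ` and its opposite. -/
theorem aux_sound (hT : P.Bij T) {n : I} {b : Bool} {v : V} (hv : 2 ≤ P.r v) {w w' : ℤ × ℤ}
    (hw : ∀ y : ℤ × ℤ, ∃ i j : ℤ, y = i • w + j • w')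
    (h : P.AuxEqs n b v w w' (Graph (P.O T) α)) :
    ∃ st : Pt (P.a n) (P.s n) → Bool,
      (∀ o ∈ P.O T, P.Slope α v w o (if st (P.pr o n) then 1 else 0)) ∧
      (∀ t ∈ T n, ∀ t' ∈ T n, (key b t).2 = (key b t').2 → st t = st t') ∧
      ∀ t ∈ T n, ∀ t' ∈ T n, (key b t).2 = (key b t').2 → Flat b (st t) (t - t') := by
  classical
  obtain ⟨hh, ht, hc, hf⟩ := h
  have hh' := (hole_iff' hT hv w).1 hh
  have ht' := gad_tie ((tie_iff hT v w').1 ht)
  have hA : ∀ o ∈ P.O T, ∀ δ : P.G, o - P.L δ ∈ P.O T → (key b (δ n)).2 = 0 →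
      α (o - P.L δ) v = α o v := by
    intro o ho δ ho' hδ
    obtain ⟨i, hi⟩ := cyc_sound' hT (hc δ hδ) ho (by simpa using ho')
    simpa using hi
  have hB : ∀ o ∈ P.O T, ∀ o' ∈ P.O T, (key b (P.pr o n)).2 = (key b (P.pr o' n)).2 →
      ∀ σ, P.Slope α v w o σ → P.Slope α v w o' σ := by
    intro o ho o' ho' hk σ hσ
    have e : P.pr (o - P.L (P.pr o - P.pr o')) = P.pr o' := by simp
    have m1 : o - P.L (P.pr o - P.pr o') ∈ P.O T := by rw [mem_O, e]; exact ho'
    have k1 : (key b ((P.pr o - P.pr o') n)).2 = 0 := by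
      rw [Pi.sub_apply, key_sub, Prod.snd_sub, hk, sub_self]
    have s1 : P.Slope α v w (o - P.L (P.pr o - P.pr o')) σ := by
      intro j
      rw [sub_add_eq_add_sub, hA _ (P.add_M_mem.2 ho) _ (by
        rw [← sub_add_eq_add_sub]; exact P.add_M_mem.2 m1) k1, hA _ ho _ m1 k1, hσ]
    obtain ⟨y, hy⟩ := P.exists_M e
    obtain ⟨i, j, rfl⟩ := hw y
    have s2 := s1.shift i
    rw [map_add, ← add_assoc] at hy
    have m2 := (P.add_M_mem (w := i • w)).2 m1
    generalize o - P.L (P.pr o - P.pr o') + P.M (i • w) = x at hy s2 m2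
    subst hy
    intro k
    rw [add_right_comm, ht' _ _ (P.add_M_mem.2 m2), ht' _ _ m2, s2]
  have hs : ∀ o ∈ P.O T, P.Slope α v w o
      (if decide (∃ o' ∈ P.O T, P.pr o' n = P.pr o n ∧ P.Slope α v w o' 1) then 1 else 0) := by
    intro o ho
    split_ifs with h1
    · obtain ⟨o', ho', e, hs⟩ := of_decide_eq_true h1
      exact hB o' ho' o ho (by rw [e]) 1 hs
    · refine (hh' o ho).resolve_right fun hs => h1 (decide_eq_true ⟨o, ho, rfl, hs⟩)
  refine ⟨fun t => decide (∃ o ∈ P.O T, P.pr o n = t ∧ P.Slope α v w o 1), hs, ?_, ?_⟩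
  · have : ∀ t ∈ T n, ∀ t' ∈ T n, (key b t).2 = (key b t').2 →
        (∃ o ∈ P.O T, P.pr o n = t ∧ P.Slope α v w o 1) →
        ∃ o ∈ P.O T, P.pr o n = t' ∧ P.Slope α v w o 1 := by
      rintro _ _ t' ht' hk ⟨o, ho, rfl, hs⟩
      obtain ⟨o', ho', rfl⟩ := hT.nonempty ht'
      exact ⟨o', ho', rfl, hB o ho o' ho' hk 1 hs⟩
    intro t ht t' ht' hk
    exact decide_eq_decide.2 ⟨this t ht t' ht' hk, this t' ht' t ht hk.symm⟩
  · intro t ht t' ht' hk
    obtain ⟨o, ho, rfl⟩ := hT.nonempty ht
    have hσ := (hs o ho).step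
    beta_reduce
    generalize decide (∃ o' ∈ P.O T, P.pr o' n = P.pr o n ∧ P.Slope α v w o' 1) = σ at hσ
    by_contra hn
    have k1 : (key b ((Pi.single n (P.pr o n - t') : P.G) n)).2 = 0 := by
      rw [Pi.single_eq_same, key_sub, Prod.snd_sub, hk, sub_self]
    have m1 : o - P.L (Pi.single n (P.pr o n - t')) ∈ P.O T := by
      intro m
      rw [map_sub, pr_L, Pi.sub_apply]
      by_cases hm : m = n
      · subst hm; simpa using ht'
      · rw [Pi.single_eq_of_ne hm, sub_zero]; exact ho m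
    obtain ⟨i, hi⟩ := cyc_sound' hT (hf σ _ k1) ho (by simpa using m1)
    simp only [Finset.sum_const_zero, Pi.zero_apply, zero_add, Finset.univ_unique,
      Finset.sum_singleton, Pi.single_eq_same, hn, if_false, flat_zero, if_true, map_zero,
      sub_zero] at hi
    rw [hA o ho _ m1 k1, ← hσ, add_comm] at hi
    have := add_right_cancel hi
    have : Fact (1 < P.r v) := ⟨hv⟩
    cases σ <;> simp at this


/-- `cyc_compl'` for `cls`, `flt`: all `o ε = x - L (δ ε)` are `Cong` (`cong_L`) and their `n`-th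
types lie in one class (the base uses `key b` at `n`), so they have the same state and value. For
`flt`: if the state is `σ` then `Flat.congr` shows that the offsets agree, otherwise the offset
does not change the value. -/
theorem aux_compl (hT : P.Bij T) {n : I} {b : Bool} {v : V} (hv : 2 ≤ P.r v) {w w' : ℤ × ℤ}
    {st : Pt (P.a n) (P.s n) → Bool}
    (h1 : ∀ t ∈ T n, ∀ t' ∈ T n, (key b t).2 = (key b t').2 → st t = st t')
    (h2 : ∀ t ∈ T n, ∀ t' ∈ T n, (key b t).2 = (key b t').2 → Flat b (st t) (t - t'))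
    {c₁ c₂ : ℤ} (hw : c₁ * w.1 + c₂ * w.2 = 1) (hw' : c₁ * w'.1 + c₂ * w'.2 = 0)
    (hα : ∀ o, α o v =
      ((if st (P.pr o n) then P.κ * (c₁ * o.1.1 + c₂ * o.1.2) else 0 : ℤ) : ZMod (P.r v))) :
    P.AuxEqs n b v w w' (Graph (P.O T) α) ∧
      ∀ o, P.Slope α v w o (if st (P.pr o n) then 1 else 0) := by
  classical
  have hM : ∀ o y, α (o + P.M y) v = α o v +
      ((if st (P.pr o n) then c₁ * y.1 + c₂ * y.2 else 0 : ℤ) : ZMod (P.r v)) := by
    intro o y
    rw [hα, hα, map_add, pr_M, add_zero]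
    split_ifs
    · simp only [M_apply, Prod.fst_add, Prod.snd_add, Prod.smul_fst, Prod.smul_snd, smul_eq_mul]
      push_cast
      linear_combination ((c₁ : ZMod (P.r v)) * y.1 + c₂ * y.2) * P.hκ v
    · simp
  have hs : ∀ o, P.Slope α v w o (if st (P.pr o n) then 1 else 0) := by
    intro o j
    rw [hM]
    congr 2
    split_ifs
    · simp only [Prod.smul_fst, Prod.smul_snd, smul_eq_mul]; linear_combination j * hw
    · simp
  have hcl : ∀ (g : P.G), (key b (g n)).2 = 0 → ∀ (x : P.X) (δ : (Unit → Bool) → P.G),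
      (∀ ε m, key (decide ((if b then some n else none : Option I) = some m)) (δ ε m) =
        key (decide ((if b then some n else none : Option I) = some m))
          ((∑ i, if ε i then g else 0) m)) →
      ∀ ε ε', (key b (P.pr (x - P.L (δ ε)) n)).2 = (key b (P.pr (x - P.L (δ ε')) n)).2 := by
    intro g hg x δ hδ
    have : ∀ ε, (key b (δ ε n)).2 = 0 := by
      intro ε
      have := hδ ε n
      rw [gad_decide] at this
      rw [this, Finset.univ_unique, Finset.sum_singleton]
      split_ifs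
      · exact hg
      · rw [Pi.zero_apply, key_zero]; rfl
    intro ε ε'
    simp only [map_sub, pr_L, Pi.sub_apply, key_sub, Prod.snd_sub, this]
  have hval : ∀ (x : P.X) (δ δ' : P.G), st (P.pr (x - P.L δ) n) = st (P.pr (x - P.L δ') n) →
      α (x - P.L δ) v = α (x - P.L δ') v := by
    intro x δ δ' e
    obtain ⟨e1, e2⟩ := P.cong_L x δ δ' v
    rw [hα, hα, e]
    split_ifs
    · push_cast; rw [e1, e2]
    · rfl
  refine ⟨⟨(hole_iff' hT hv w).2 fun o _ => ?_, (tie_iff hT v w').2 fun o _ => ?_,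
    fun g hg => ?_, fun σ g hg => ?_⟩, hs⟩
  · have := hs o
    split_ifs at this
    exacts [Or.inr this, Or.inl this]
  · rw [sub_eq_add_neg, ← map_neg, hM]
    have : c₁ * (-w').1 + c₂ * (-w').2 = 0 := by
      simp only [Prod.fst_neg, Prod.snd_neg]; linear_combination -hw'
    rw [this]; simp
  · refine cyc_compl' hT fun x δ D m1 k1 _ hD => ?_
    have : ∀ ε ε', D ε v = D ε' v := by
      intro ε ε'
      rw [hD, hD]
      simp only [ite_self, Finset.sum_const_zero, add_zero, zero_add, map_zero, sub_zero]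
      exact hval _ _ _ (h1 _ (m1 ε n) _ (m1 ε' n) (hcl g hg x δ k1 ε ε'))
    exact ⟨fun ε ε' _ _ => this ε ε', (), this⟩
  · refine cyc_compl' hT fun x δ D m1 k1 _ hD => ?_
    have hD' : ∀ ε, D ε v = α (x - P.L (δ ε)) v + if Flat b σ (δ ε n) then
        (if σ then 0 else 1) - (if st (P.pr (x - P.L (δ ε)) n) then 1 else 0) else 0 := by
      intro ε
      rw [hD]
      simp only [ite_self, Finset.sum_const_zero, zero_add, Pi.add_apply]
      by_cases hF : Flat b σ (δ ε n)
      · simp only [if_pos hF, Pi.single_eq_same]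
        rw [← (hs (x - P.L (δ ε))).step]
        push_cast
        ring
      · simp [if_neg hF]
    have : ∀ ε ε', D ε v = D ε' v := by
      intro ε ε'
      have k2 := hcl g hg x δ k1 ε ε'
      have e1 := h1 _ (m1 ε n) _ (m1 ε' n) k2
      have e2 := h2 _ (m1 ε n) _ (m1 ε' n) k2
      rw [hD', hD', hval _ _ _ e1, ← e1]
      congr 1
      generalize st (P.pr (x - P.L (δ ε)) n) = τ at e2
      by_cases hτ : τ = σ
      · subst hτ
        have e3 : P.pr (x - P.L (δ ε)) n - P.pr (x - P.L (δ ε')) n = δ ε' n - δ ε n := by simp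
        rw [e3] at e2
        simp only [e2.congr]
      · cases τ <;> cases σ <;> simp at hτ ⊢
    exact ⟨fun ε ε' _ _ => this ε ε', (), this⟩


end Par

end Crest.Agent.R46
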