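import Crest.Agent.R46.Defs

/-!
# R46: from a quotient of `ℤ³` to `ℤ³`, and from a system to one tile
-/

set_option autoImplicit false
open Crest.CombinatoricsR.Tiling Finset

namespace Crest.Agent.R46

/-- Choose a section `sec` of `π` and a finite generating set of `ker π` (subgroups of `ℤ³` are
finitely generated). New equations: `sec ∘ f e`, and for each generator `κ` of the kernel the tile
`j ↦ sec (f e₀ j) + if j = j₀ then κ else 0` for a fixed `e₀`, `j₀`. The preimage of a solution is a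
solution. Conversely if `A` solves the new system, then `A + sec (f e₀ j₀)` and
`A + sec (f e₀ j₀) + κ` are both the complement of what the other indices cover, so `A` is
invariant under `± κ`, hence under `ker π`; then `π '' A` solves the old system, and it is
periodic under `H.map π`, which has finite index. -/
theorem AperSys.lift {Γ : Type} [AddCommGroup Γ] (π : (Fin 3 → ℤ) →+ Γ)
    (hπ : Function.Surjective π) (h : AperSys Γ) : AperSys (Fin 3 → ℤ) := by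
  classical
  obtain ⟨E, hE, ⟨e₀⟩, J, hJ, f, ⟨A₀, hA₀⟩, hap⟩ := h
  choose sec hsec using hπ
  obtain ⟨j₀, -⟩ := (hA₀ e₀ 0).exists
  have hfg : π.ker.FG := by
    have := (Submodule.fg_iff_addSubgroup_fg (AddSubgroup.toIntSubmodule π.ker)).1
      (IsNoetherian.noetherian _)
    simpa using this
  obtain ⟨S, hS⟩ := hfg
  have hSk : ∀ κ ∈ S, π κ = 0 := fun κ hκ => by
    have : κ ∈ π.ker := hS ▸ AddSubgroup.subset_closure hκ
    exact this
  refine ⟨E ⊕ S, inferInstance, ⟨Sum.inl e₀⟩, fun e => Sum.elim J (fun _ => J e₀) e,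
    fun e => by cases e <;> exact hJ _,
    fun e => match e with
      | Sum.inl e => fun j => sec (f e j)
      | Sum.inr κ => fun j => sec (f e₀ j) + if j = j₀ then κ.1 else 0, ⟨π ⁻¹' A₀, ?_⟩, ?_⟩
  · rintro (e | κ) x
    · simpa [hsec] using hA₀ e (π x)
    · have h1 : ∀ j : J e₀, π (if j = j₀ then κ.1 else 0) = 0 := fun j => by
        split_ifs
        · exact hSk _ κ.2
        · exact map_zero _
      have h2 := hA₀ e₀ (π x)
      change ∃! j : J e₀, π (x - (sec (f e₀ j) + if j = j₀ then κ.1 else 0)) ∈ A₀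
      simpa only [map_sub, map_add, hsec, h1, add_zero] using h2
  · rintro A hA ⟨H, hH, hper⟩
    have h1 : ∀ e x, ∃! j, x - sec (f e j) ∈ A := fun e => hA (Sum.inl e)
    have h2 : ∀ κ ∈ S, ∀ x, ∃! j : J e₀, x - (sec (f e₀ j) + if j = j₀ then κ else 0) ∈ A :=
      fun κ hκ => hA (Sum.inr ⟨κ, hκ⟩)
    have h3 : ∀ κ ∈ π.ker, ∀ a, a ∈ A ↔ a + κ ∈ A := by
      intro κ hκ
      rw [← hS] at hκ
      induction hκ using AddSubgroup.closure_induction with
      | mem κ hκ =>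
        intro a
        constructor
        · intro ha
          obtain ⟨j, hj⟩ := (h1 e₀ (a + κ + sec (f e₀ j₀))).exists
          by_cases hj0 : j = j₀
          · simpa [hj0] using hj
          · exact absurd ((h2 κ hκ (a + κ + sec (f e₀ j₀))).unique (y₁ := j) (y₂ := j₀)
              (by simpa [hj0] using hj) (by
                convert ha using 1
                simp only [if_true]
                abel)) hj0
        · intro ha
          obtain ⟨j, hj⟩ := (h2 κ hκ (a + κ + sec (f e₀ j₀))).exists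
          by_cases hj0 : j = j₀
          · subst hj0
            convert hj using 1
            simp only [if_true]
            abel
          · exact absurd ((h1 e₀ (a + κ + sec (f e₀ j₀))).unique (y₁ := j) (y₂ := j₀)
              (by simpa [hj0] using hj) (by simpa using ha)) hj0
      | zero => simp
      | add x y _ _ hx hy => intro a; rw [← add_assoc, ← hy, ← hx]
      | neg x _ hx => intro a; rw [hx (a + -x)]; simp
    have h4 : ∀ x, π x ∈ π '' A ↔ x ∈ A := fun x => by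
      refine ⟨?_, fun hx => ⟨x, hx, rfl⟩⟩
      rintro ⟨a, ha, hax⟩
      have := (h3 (x - a) (by simp [AddMonoidHom.mem_ker, hax]) a).1 ha
      simpa using this
    refine hap (π '' A) (fun e y => ?_) ⟨H.map π, ⟨ne_zero_of_dvd_ne_zero hH.index_ne_zero
      (AddSubgroup.index_map_dvd H fun y => ⟨sec y, hsec y⟩)⟩, ?_⟩
    · have := h1 e (sec y)
      simpa only [← h4, map_sub, hsec] using this
    · rintro _ ⟨h, hh, rfl⟩ _ ⟨a, ha, rfl⟩
      exact ⟨h + a, hper h hh a ha, map_add _ _ _⟩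

/-- `ℤ × ℤ × C` is a quotient of `ℤ³` if `C` is cyclic. -/
theorem AperSys.lift_cyclic {C : Type} [AddCommGroup C] (φ : ℤ →+ C)
    (hφ : Function.Surjective φ) (h : AperSys (ℤ × ℤ × C)) : AperSys (Fin 3 → ℤ) := by
  refine h.lift (AddMonoidHom.mk' (fun v => (v 0, v 1, φ (v 2))) fun a b => by simp) ?_
  rintro ⟨x, y, c⟩
  obtain ⟨z, rfl⟩ := hφ c
  exact ⟨![x, y, z], rfl⟩

theorem isTilingBy_iff {G : Type*} [AddCommGroup G] {T : Finset G} {A : Set G} :
    IsTilingBy T A ↔ ∀ x, ∃! t, t ∈ T ∧ x - t ∈ A := by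
  refine forall_congr' fun x => ⟨?_, ?_⟩
  · rintro ⟨⟨a, t⟩, ⟨h1, h2, rfl⟩, h3⟩
    exact ⟨t, ⟨h2, by simpa using h1⟩, fun t' ht' =>
      congrArg Prod.snd (h3 (a + t - t', t') ⟨ht'.2, ht'.1, by simp⟩)⟩
  · rintro ⟨t, ⟨h1, h2⟩, h3⟩
    refine ⟨(x - t, t), ⟨h2, h1, by simp⟩, ?_⟩
    rintro ⟨a, t'⟩ ⟨h4, h5, rfl⟩
    obtain rfl := h3 t' ⟨h5, by simpa using h4⟩
    simp

/-- A list of tiles with a common solution and without periodic common solution. -/
def AperList (l : List (Finset (Fin 3 → ℤ))) : Prop :=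
  (∃ A : Set (Fin 3 → ℤ), ∀ T ∈ l, IsTilingBy T A) ∧
    ∀ A : Set (Fin 3 → ℤ), (∀ T ∈ l, IsTilingBy T A) → ¬ IsFullyPeriodic A

/-- Every `f e` is injective because a solution exists; take the list of the images. -/
theorem AperSys.exists_list (h : AperSys (Fin 3 → ℤ)) : ∃ l, l ≠ [] ∧ AperList l := by
  classical
  obtain ⟨E, hE, ⟨e₀⟩, J, hJ, f, ⟨A₀, hA₀⟩, hap⟩ := h
  have := Fintype.ofFinite E
  have := fun e => Fintype.ofFinite (J e)
  have hinj : ∀ e, Function.Injective (f e) := by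
    intro e j j' hjj
    obtain ⟨j₀, h0⟩ := (hA₀ e 0).exists
    exact (hA₀ e (0 - f e j₀ + f e j)).unique (by simpa using h0) (by simpa [hjj] using h0)
  have key : ∀ e A, IsTilingBy (univ.image (f e)) A ↔ Tiles A (f e) := by
    intro e A
    rw [isTilingBy_iff]
    refine forall_congr' fun x => ⟨?_, ?_⟩
    · rintro ⟨t, ⟨h1, h2⟩, h3⟩
      obtain ⟨j, -, rfl⟩ := mem_image.1 h1
      exact ⟨j, h2, fun j' hj' => hinj e (h3 _ ⟨mem_image_of_mem _ (mem_univ _), hj'⟩)⟩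
    · rintro ⟨j, h1, h2⟩
      refine ⟨f e j, ⟨mem_image_of_mem _ (mem_univ _), h1⟩, ?_⟩
      rintro t ⟨h3, h4⟩
      obtain ⟨j', -, rfl⟩ := mem_image.1 h3
      rw [h2 j' h4]
  refine ⟨(univ : Finset E).toList.map fun e => univ.image (f e), ?_, ⟨A₀, ?_⟩, fun A hA => ?_⟩
  · exact List.ne_nil_of_mem (List.mem_map_of_mem (a := e₀) (by simp))
  · intro T hT
    obtain ⟨e, -, rfl⟩ := List.mem_map.1 hT
    exact (key e A₀).2 (hA₀ e)
  · exact hap A fun e => (key e A).1 (hA _ (List.mem_map_of_mem (by simp)))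

def E1 : Finset ℤ := {5, 8, 25, 26, 11, 13, 14, 15}
def E2 : Finset ℤ := {0, 17, 18, 3, 20, 22, 7, 12}

/-- Stretch the last coordinate by `16` and add `E`. -/
def comb (T : Finset (Fin 3 → ℤ)) (E : Finset ℤ) : Finset (Fin 3 → ℤ) :=
  (T ×ˢ E).image fun te => ![te.1 0, te.1 1, 16 * te.1 2 + te.2]

/-- `E1 ∪ E2 ⊆ [0, 32)` is a complete residue system modulo `16` containing `0`. If `u ∈ U`, the
cell `u + 16` forces `u + 16 ∈ U`; then compare `u' ≥ u` with `u + 16 k`. -/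
theorem rigid_line {U : Set ℤ} (h1 : ∀ u ∈ U, ∀ u' ∈ U, |u - u'| < 16 → u = u')
    (h2 : ∀ x, ∃ u ∈ U, x - u ∈ E1 ∪ E2) : ∀ u ∈ U, ∀ u' ∈ U, (16 : ℤ) ∣ u - u' := by
  have h3 : ∀ u ∈ U, u + 16 ∈ U := by
    intro u hu
    obtain ⟨u', hu', h⟩ := h2 (u + 16)
    have h4 := h1 u hu u' hu'
    simp only [E1, E2, mem_union, mem_insert, mem_singleton] at h
    rw [abs_lt] at h4
    have : u' = u + 16 := by omega
    exact this ▸ hu'
  have h4 : ∀ u ∈ U, ∀ k : ℕ, u + 16 * k ∈ U := by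
    intro u hu k
    induction k with
    | zero => simpa using hu
    | succ k ih =>
      convert h3 _ ih using 1
      push_cast
      ring
  have h5 : ∀ u ∈ U, ∀ u' ∈ U, u ≤ u' → (16 : ℤ) ∣ u - u' := by
    intro u hu u' hu' hle
    have h6 := h1 _ (h4 u hu ((u' - u) / 16).toNat) u' hu'
    rw [abs_lt] at h6
    omega
  intro u hu u' hu'
  rcases le_total u u' with h | h
  · exact h5 u hu u' hu' h
  · have := h5 u' hu' u hu h
    omega

/-- By `decide`. -/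
theorem exists_diff : ∀ h ∈ Icc (-15 : ℤ) 15, h ≠ 0 → ∀ E ∈ [E1, E2], ∀ E' ∈ [E1, E2],
    ∃ e ∈ E, ∃ e' ∈ E', e - e' = h := by
  decide

theorem mem_comb {T : Finset (Fin 3 → ℤ)} {E : Finset ℤ} {c : Fin 3 → ℤ} :
    c ∈ comb T E ↔ ∃ t ∈ T, ∃ e ∈ E, c 0 = t 0 ∧ c 1 = t 1 ∧ c 2 = 16 * t 2 + e := by
  simp only [comb, mem_image, mem_product, Prod.exists]
  constructor
  · rintro ⟨t, e, ⟨ht, he⟩, rfl⟩
    exact ⟨t, ht, e, he, rfl, rfl, rfl⟩
  · rintro ⟨t, ht, e, he, h0, h1, h2⟩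
    refine ⟨t, e, ⟨ht, he⟩, ?_⟩
    funext i
    fin_cases i <;> simp [h0, h1, h2]

theorem ext3 {a b : Fin 3 → ℤ} (h0 : a 0 = b 0) (h1 : a 1 = b 1) (h2 : a 2 = b 2) : a = b := by
  funext i
  fin_cases i <;> assumption

theorem res_inj : ∀ e ∈ E1 ∪ E2, ∀ e' ∈ E1 ∪ E2, e % 16 = e' % 16 → e = e' := by decide

theorem res_surj : ∀ r ∈ Ico (0 : ℤ) 16, ∃ e ∈ E1 ∪ E2, e % 16 = r := by decide

theorem E_disj : ∀ e ∈ E1, e ∉ E2 := by decide

/-- the two parts of the merged tile, indexed by a Boolean -/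
theorem mem_comb_union {T₁ T₂ : Finset (Fin 3 → ℤ)} {c : Fin 3 → ℤ} :
    c ∈ comb T₁ E1 ∪ comb T₂ E2 ↔ ∃ (i : Bool) (t : Fin 3 → ℤ) (e : ℤ), t ∈ (if i then T₁ else T₂) ∧
      e ∈ (if i then E1 else E2) ∧ c 0 = t 0 ∧ c 1 = t 1 ∧ c 2 = 16 * t 2 + e := by
  simp only [mem_union, mem_comb, Bool.exists_bool, if_true, Bool.false_eq_true, if_false]
  constructor
  · rintro (⟨t, h1, e, h2, h⟩ | ⟨t, h1, e, h2, h⟩)
    · exact Or.inr ⟨t, e, h1, h2, h⟩
    · exact Or.inl ⟨t, e, h1, h2, h⟩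
  · rintro (⟨t, e, h1, h2, h⟩ | ⟨t, e, h1, h2, h⟩)
    · exact Or.inr ⟨t, h1, e, h2, h⟩
    · exact Or.inl ⟨t, h1, e, h2, h⟩

theorem E_sub {i : Bool} {e : ℤ} (h : e ∈ (if i then E1 else E2)) : e ∈ E1 ∪ E2 := by
  cases i
  · exact mem_union_right _ h
  · exact mem_union_left _ h

theorem E_eq {i i' : Bool} {e e' : ℤ} (h : e ∈ (if i then E1 else E2)) (h' : e' ∈ (if i' then E1 else E2))
    (hm : e % 16 = e' % 16) : e = e' ∧ i = i' := by
  obtain rfl := res_inj e (E_sub h) e' (E_sub h') hm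
  refine ⟨rfl, ?_⟩
  cases i <;> cases i'
  · rfl
  · exact absurd h (E_disj e h')
  · exact absurd h' (E_disj e h)
  · rfl

theorem isTilingBy_comb {T₁ T₂ : Finset (Fin 3 → ℤ)} {A : Set (Fin 3 → ℤ)}
    (h₁ : IsTilingBy T₁ A) (h₂ : IsTilingBy T₂ A) :
    IsTilingBy (comb T₁ E1 ∪ comb T₂ E2) ((fun a => ![a 0, a 1, 16 * a 2]) '' A) := by
  have hT : ∀ i : Bool, IsTilingBy (if i then T₁ else T₂) A := fun i => by cases i <;> assumption
  rw [isTilingBy_iff]
  intro x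
  obtain ⟨e, he, hr⟩ := res_surj (x 2 % 16) (by rw [mem_Ico]; omega)
  obtain ⟨i, hi⟩ : ∃ i : Bool, e ∈ (if i then E1 else E2) := by
    rcases mem_union.1 he with h | h
    · exact ⟨true, h⟩
    · exact ⟨false, h⟩
  obtain ⟨t, ⟨h1, h2⟩, h3⟩ := isTilingBy_iff.1 (hT i) ![x 0, x 1, (x 2 - e) / 16]
  refine ⟨![t 0, t 1, 16 * t 2 + e], ⟨mem_comb_union.2 ⟨i, t, e, h1, hi, rfl, rfl, rfl⟩, _, h2, ?_⟩, ?_⟩
  · refine ext3 (by simp) (by simp) ?_
    simp
    omega
  · rintro c ⟨hc, a, ha, hac⟩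
    obtain ⟨i', t', e', h4, h5, h6, h7, h8⟩ := mem_comb_union.1 hc
    have g0 := congrFun hac 0
    have g1 := congrFun hac 1
    have g2 := congrFun hac 2
    simp at g0 g1 g2
    obtain ⟨rfl, rfl⟩ := E_eq hi h5 (by omega)
    obtain rfl := h3 t' ⟨h4, by
      convert ha using 1
      refine ext3 ?_ ?_ ?_ <;> simp <;> omega⟩
    exact ext3 (by simpa using h6) (by simpa using h7) (by simpa using h8)

/-- In each column `(x, y)` the offsets `b 2 + 16 * t 2` (`b ∈ B`, `t ∈ T₁ ∪ T₂` over that column)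
satisfy the hypotheses of `rigid_line` (`exists_diff`), so the `b 2` are congruent modulo `16`. -/
theorem isTilingBy_of_comb {T₁ T₂ : Finset (Fin 3 → ℤ)} {B : Set (Fin 3 → ℤ)}
    (h : IsTilingBy (comb T₁ E1 ∪ comb T₂ E2) B) :
    IsTilingBy T₁ ((fun b => ![b 0, b 1, b 2 / 16]) '' B) ∧
      IsTilingBy T₂ ((fun b => ![b 0, b 1, b 2 / 16]) '' B) := by
  have hu : ∀ (i i' : Bool) (b b' t t' : Fin 3 → ℤ) (e e' : ℤ), b ∈ B → b' ∈ B →
      t ∈ (if i then T₁ else T₂) → t' ∈ (if i' then T₁ else T₂) → e ∈ (if i then E1 else E2) →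
      e' ∈ (if i' then E1 else E2) → b 0 + t 0 = b' 0 + t' 0 → b 1 + t 1 = b' 1 + t' 1 →
      b 2 + 16 * t 2 + e = b' 2 + 16 * t' 2 + e' → t = t' ∧ b = b' ∧ e = e' := by
    intro i i' b b' t t' e e' hb hb' ht ht' he he' g0 g1 g2
    have h1 := (h (b + ![t 0, t 1, 16 * t 2 + e])).unique
      (y₁ := (b, ![t 0, t 1, 16 * t 2 + e])) (y₂ := (b', ![t' 0, t' 1, 16 * t' 2 + e']))
      ⟨hb, mem_comb_union.2 ⟨i, t, e, ht, he, rfl, rfl, rfl⟩, rfl⟩
      ⟨hb', mem_comb_union.2 ⟨i', t', e', ht', he', rfl, rfl, rfl⟩, by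
        refine ext3 ?_ ?_ ?_ <;> simp <;> omega⟩
    obtain rfl : b = b' := congrArg Prod.fst h1
    obtain ⟨rfl, -⟩ := E_eq he he' (by omega)
    exact ⟨ext3 (by omega) (by omega) (by omega), rfl, rfl⟩
  have hc : ∀ x : Fin 3 → ℤ, ∃ (i : Bool) (b t : Fin 3 → ℤ) (e : ℤ), b ∈ B ∧
      t ∈ (if i then T₁ else T₂) ∧ e ∈ (if i then E1 else E2) ∧ b 0 + t 0 = x 0 ∧ b 1 + t 1 = x 1 ∧
      b 2 + 16 * t 2 + e = x 2 := by
    intro x
    obtain ⟨⟨b, c⟩, hb, hc, rfl⟩ := (h x).exists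
    obtain ⟨i, t, e, h1, h2, h3, h4, h5⟩ := mem_comb_union.1 hc
    dsimp only at h3 h4 h5
    exact ⟨i, b, t, e, hb, h1, h2, by simp [h3], by simp [h4], by simp [h5, add_assoc]⟩
  have hr : ∀ (i i' : Bool) (b b' t t' : Fin 3 → ℤ), b ∈ B → b' ∈ B →
      t ∈ (if i then T₁ else T₂) → t' ∈ (if i' then T₁ else T₂) → b 0 + t 0 = b' 0 + t' 0 →
      b 1 + t 1 = b' 1 + t' 1 → (16 : ℤ) ∣ b 2 + 16 * t 2 - (b' 2 + 16 * t' 2) := by
    intro i i' b b' t t' hb hb' ht ht' g0 g1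
    refine rigid_line (U := {u | ∃ (j : Bool) (c s : Fin 3 → ℤ), c ∈ B ∧ s ∈ (if j then T₁ else T₂) ∧
      c 0 + s 0 = b 0 + t 0 ∧ c 1 + s 1 = b 1 + t 1 ∧ u = c 2 + 16 * s 2}) ?_ (fun z => ?_) _
      ⟨i, b, t, hb, ht, rfl, rfl, rfl⟩ _ ⟨i', b', t', hb', ht', g0.symm, g1.symm, rfl⟩
    · rintro _ ⟨j, c, s, h1, h2, h3, h4, rfl⟩ _ ⟨j', c', s', h1', h2', h3', h4', rfl⟩ hlt
      by_contra hne
      rw [abs_lt] at hlt
      obtain ⟨e, he, e', he', hd⟩ := exists_diff (c' 2 + 16 * s' 2 - (c 2 + 16 * s 2))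
        (by rw [mem_Icc]; omega) (by omega) (if j then E1 else E2) (by cases j <;> simp)
        (if j' then E1 else E2) (by cases j' <;> simp)
      have := (hu j j' c c' s s' e e' h1 h1' h2 h2' he he' (by omega) (by omega) (by omega)).2.2
      omega
    · obtain ⟨j, c, s, e, h1, h2, h3, h4, h5, h6⟩ := hc ![b 0 + t 0, b 1 + t 1, z]
      refine ⟨_, ⟨j, c, s, h1, h2, h4, h5, rfl⟩, ?_⟩
      have h7 : c 2 + 16 * s 2 + e = z := h6
      rw [show z - (c 2 + 16 * s 2) = e by omega]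
      exact E_sub h3
  have key : ∀ i : Bool, IsTilingBy (if i then T₁ else T₂) ((fun b => ![b 0, b 1, b 2 / 16]) '' B) := by
    intro i
    obtain ⟨e₀, he₀⟩ : ∃ e₀, e₀ ∈ (if i then E1 else E2) := by
      cases i
      · exact ⟨0, by decide⟩
      · exact ⟨5, by decide⟩
    rw [isTilingBy_iff]
    intro y
    obtain ⟨j, c, s, e, h1, h2, -, h4, h5, -⟩ := hc y
    obtain ⟨i', b, t, e', g1, g2, g3, g4, g5, g6⟩ := hc ![y 0, y 1, 16 * y 2 + c 2 % 16 + e₀]
    have g4' : b 0 + t 0 = y 0 := g4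
    have g5' : b 1 + t 1 = y 1 := g5
    have g6' : b 2 + 16 * t 2 + e' = 16 * y 2 + c 2 % 16 + e₀ := g6
    have g7 := hr i' j b c t s g1 h1 g2 h2 (by omega) (by omega)
    obtain ⟨rfl, rfl⟩ := E_eq g3 he₀ (by omega)
    refine ⟨t, ⟨g2, b, g1, ?_⟩, ?_⟩
    · refine ext3 ?_ ?_ ?_ <;> simp <;> omega
    · rintro t' ⟨k1, b', k2, k3⟩
      have k4 := congrFun k3 0
      have k5 := congrFun k3 1
      have k6 := congrFun k3 2
      simp at k4 k5 k6
      have k7 := hr i' i' b' b t' t k2 g1 k1 g2 (by omega) (by omega)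
      exact (hu i' i' b' b t' t e' e' k2 g1 k1 g2 g3 g3 (by omega) (by omega) (by omega)).1
  exact ⟨key true, key false⟩

/-- The periods are `H.comap (a ↦ ![a 0, a 1, 16 * a 2])`. -/
theorem AperList.merge {T₁ T₂ : Finset (Fin 3 → ℤ)} {l : List (Finset (Fin 3 → ℤ))}
    (h : AperList (T₁ :: T₂ :: l)) :
    AperList ((comb T₁ E1 ∪ comb T₂ E2) :: l.map fun T => comb T E1 ∪ comb T E2) := by
  obtain ⟨⟨A, hA⟩, hap⟩ := h
  refine ⟨⟨(fun a => ![a 0, a 1, 16 * a 2]) '' A, fun T hT => ?_⟩, ?_⟩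
  · rcases List.mem_cons.1 hT with rfl | hT
    · exact isTilingBy_comb (hA _ (by simp)) (hA _ (by simp))
    · obtain ⟨T, hT', rfl⟩ := List.mem_map.1 hT
      exact isTilingBy_comb (hA _ (by simp [hT'])) (hA _ (by simp [hT']))
  · rintro B hB ⟨H, hH, hper⟩
    let σ : (Fin 3 → ℤ) →+ (Fin 3 → ℤ) := AddMonoidHom.mk' (fun a => ![a 0, a 1, 16 * a 2])
      fun a b => ext3 (by simp) (by simp) (by simp [mul_add])
    refine hap ((fun b => ![b 0, b 1, b 2 / 16]) '' B) (fun T hT => ?_) ⟨H.comap σ, ⟨?_⟩, ?_⟩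
    · have h1 := isTilingBy_of_comb (hB _ List.mem_cons_self)
      rcases List.mem_cons.1 hT with rfl | hT
      · exact h1.1
      rcases List.mem_cons.1 hT with rfl | hT
      · exact h1.2
      exact (isTilingBy_of_comb (hB _ (List.mem_cons_of_mem _ (List.mem_map_of_mem hT)))).1
    · rw [AddSubgroup.index_comap]
      exact (AddSubgroup.instFiniteIndex_addSubgroupOf H σ.range).index_ne_zero
    · rintro h hh _ ⟨b, hb, rfl⟩
      refine ⟨σ h + b, hper _ hh b hb, ?_⟩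
      refine ext3 ?_ ?_ ?_ <;> simp [σ]
      omega

/-- Induction on the length of the list. -/
theorem AperSys.exists_tile (h : AperSys (Fin 3 → ℤ)) : ∃ T, AperTile T := by
  obtain ⟨l, hl, h⟩ := h.exists_list
  induction hn : l.length using Nat.strong_induction_on generalizing l with
  | _ n ih =>
    rcases l with _ | ⟨T₁, _ | ⟨T₂, l⟩⟩
    · exact absurd rfl hl
    · exact ⟨T₁, by simpa using h.1, fun A hA => h.2 A (by simpa using hA)⟩
    · exact ih _ (by simp [← hn]) _ (List.cons_ne_nil _ _) h.merge rfl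

end Crest.Agent.R46
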