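import Crest.Agent.R46.SudCol

/-!
# R46: a robust `p`-adic Sudoku
-/

set_option autoImplicit false
open Finset
open scoped Classical

namespace Crest.Agent.R46

theorem glob_fiber {P : ℕ} [NeZero P] {t : ℕ} (ht : 0 < t) (κ n : ZMod P) (z : ZMod P × ZMod P) :
    (univ.filter fun y : ZMod P × ZMod P => (κ + t * y.1 - n * y.2, y.2) = z).card ≤ t := by
  rcases (univ.filter fun y : ZMod P × ZMod P =>
    (κ + t * y.1 - n * y.2, y.2) = z).eq_empty_or_nonempty with h | ⟨y₀, h₀⟩
  · rw [h]
    exact Nat.zero_le _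
  refine le_trans (card_le_card_of_injOn (fun y => y.1 - y₀.1) (fun y hy => ?_)
    fun y hy y' hy' e => ?_) (IsAddCyclic.card_nsmul_eq_zero_le (α := ZMod P) ht)
  · have e := (mem_filter.1 hy).2.trans (mem_filter.1 h₀).2.symm
    obtain ⟨e1, e2⟩ := Prod.mk.inj e
    simp only [coe_filter, mem_univ, true_and, Set.mem_ofPred_eq, nsmul_eq_mul]
    rw [e2] at e1
    linear_combination e1
  · have e' := (mem_filter.1 hy).2.trans (mem_filter.1 hy').2.symm
    exact Prod.ext (sub_left_injective e) (Prod.mk.inj e').2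

theorem glob_line {G : Type} [CommRing G] [Fintype G] (κ t : G) {u : G} (hu : IsUnit u)
    (E : G → Prop) : pr (fun y : G × G => E (t * y.1 + u * y.2 + κ)) = pr E := by
  obtain ⟨v, hv⟩ := hu.exists_right_inv
  have := pr_affine ((AddMonoidHom.mulLeft t).comp (AddMonoidHom.fst G G) +
    (AddMonoidHom.mulLeft u).comp (AddMonoidHom.snd G G))
    (fun x => ⟨(0, v * x), by simp [← mul_assoc, hv]⟩) κ E
  simpa using this

variable {p : ℕ} [hp : Fact p.Prime] {P : ℕ} [NeZero P]
  {F : Fin p → ℤ → ZMod (p ^ 2) × ZMod p} {Act : Fin p → ℤ → ℤ → Prop}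

/-- Second half. Parametrise points by `(k, j) ↦ (κ + t k - n j, j)` with `t = 1` or `t = p`: bad
points have probability `≤ p ε = 1/40` (`pr_comp_le`; the fibres have size `≤ p`), for `n' ≠ n`
the line index `κ + t k + (n' - n) j` is uniform (`pr_affine`). Choose `n', n'' ∈ N \ {n}` that are
the zero column with probability `≤ 1/50` in this parametrisation (`card_heavy_le`). Outside an
event of probability `1/40 + 2/50 + 26/100 ≤ 1/3` the local data agree with the global ones at the
two columns `n'`, `n''`, hence are equal. -/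
theorem pr_not_glob (h200 : 200 ≤ p) (h : (puz p).Defect (40 * p ^ 2) P F Act)
    (hP : P.Coprime (p - 1).factorial) {A B C : ZMod (p ^ 2)} {N : Finset (Fin p)}
    (hB : (P : ZMod (p ^ 2)) * B = 0) (hN : p ≤ N.card + 50)
    (hF : ∀ n ∈ N, pr (fun k : ZMod P =>
      (F n (k.val : ℤ)).1 ≠ B * (k.val : ZMod (p ^ 2)) + A * ((n : ℕ) : ZMod (p ^ 2)) + C) ≤
          13 / 100)
    (n : Fin p) (κ : ℤ) {t : ℕ} (ht : t = 1 ∨ t = p) :
    pr (fun y : ZMod P × ZMod P => ¬ Glob F A B C
      (κ + t * (y.1.val : ℤ) - (n : ℕ) * (y.2.val : ℤ)) (y.2.val : ℤ)) ≤ 1 / 3 := by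
  have hp1 : p.Coprime (p - 1).factorial := (Nat.Prime.coprime_iff_not_dvd hp.out).2 fun hd => by
    have := (hp.out.dvd_factorial).1 hd
    omega
  have hp2 : (p ^ 2).Coprime (p - 1).factorial := hp1.pow_left 2
  have hp' : (200 : ℝ) ≤ p := by exact_mod_cast h200
  have ht0 : 0 < t := by omega
  have htp : (t : ℝ) ≤ p := by exact_mod_cast (by omega : t ≤ p)
  let I : ZMod P × ZMod P → ℤ := fun y => κ + t * (y.1.val : ℤ) - (n : ℕ) * (y.2.val : ℤ)
  let Good : ZMod P × ZMod P → Prop := fun y => ∀ m, Act m (I y) (y.2.val : ℤ)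
  have hbad0 : pr (fun y : ZMod P × ZMod P => ∃ m, ¬ Act m (y.1.val : ℤ) (y.2.val : ℤ)) ≤
      1 / (40 * p) := by
    refine (pr_exists_le _).trans ?_
    refine (sum_le_card_nsmul (univ : Finset (Fin p)) _ (1 / ((40 * p ^ 2 : ℕ) : ℝ))
      fun n _ => h.pr_not_act (by positivity) n).trans ?_
    rw [card_univ, Fintype.card_fin, nsmul_eq_mul]
    push_cast
    rw [mul_one_div, div_le_div_iff₀ (by positivity) (by positivity)]
    nlinarith
  have hbad : pr (fun y => ¬ Good y) ≤ 1 / 40 := by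
    have h1 := pr_comp_le rfl (fun y : ZMod P × ZMod P =>
      ((κ : ZMod P) + t * y.1 - ((n : ℕ) : ZMod P) * y.2, y.2)) t
      (fun z => by convert glob_fiber ht0 (κ : ZMod P) ((n : ℕ) : ZMod P) z)
      fun y : ZMod P × ZMod P => ∃ m, ¬ Act m (y.1.val : ℤ) (y.2.val : ℤ)
    refine (pr_mono fun y hy => ?_).trans (h1.trans ?_)
    · obtain ⟨m, hm⟩ := not_forall.1 hy
      refine ⟨m, fun h2 => hm ?_⟩
      have h3 := periodic_val (f := fun k => Act m k (y.2.val : ℤ)) (P := P)
        (fun k => propext (h.per1 m k _)) (k := I y)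
        (x := (κ : ZMod P) + t * y.1 - ((n : ℕ) : ZMod P) * y.2) (by simp [I])
      exact h3 ▸ h2
    · refine (mul_le_mul htp hbad0 (pr_nonneg _) (by positivity)).trans (le_of_eq ?_)
      field_simp
  have hloc : ∀ y, Good y → ∃ a b, Loc p (fun m => F m (I y + (m : ℕ) * (y.2.val : ℤ))) a b :=
    fun y hy => h.rel _ _ hy
  choose! a b hab using hloc
  let E : Fin p → ZMod P × ZMod P → Prop := fun m y =>
    Good y ∧ red p (a y * ((m : ℕ) : ZMod (p ^ 2)) + b y) = 0
  have hdis : ∀ y n n', E n y → E n' y → n = n' := fun y n n' h1 h2 => by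
    by_contra hne
    have u := col_unit hp1 hne
    have e1 := h1.2
    have e2 := h2.2
    simp only [map_add, map_mul, map_natCast] at e1 e2
    have e3 : red p (a y) = 0 := (u.mul_left_eq_zero).1 (by push_cast; linear_combination e1 - e2)
    rw [e3, zero_mul, zero_add] at e1
    exact (hab y h1.1).1.elim (fun h => h e3) fun h => h e1
  have hcard : 1 < ((N \ univ.filter fun m => 1 / 50 < pr (E m)).erase n).card := by
    have h1 := card_heavy_le E hdis
    have h2 := le_card_sdiff (univ.filter fun m => 1 / 50 < pr (E m)) N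
    have h3 := pred_card_le_card_erase (s := N \ univ.filter fun m => 1 / 50 < pr (E m)) (a := n)
    omega
  have hcol : ∀ m ∈ (N \ univ.filter fun m => 1 / 50 < pr (E m)).erase n,
      pr (fun y => E m y ∨ (F m (I y + (m : ℕ) * (y.2.val : ℤ))).1 ≠
        (A + B * ((y.2.val : ℤ) : ZMod (p ^ 2))) * ((m : ℕ) : ZMod (p ^ 2)) +
          (B * (I y : ZMod (p ^ 2)) + C)) ≤ 1 / 50 + 13 / 100 := fun m hm => by
    obtain ⟨h1, h2⟩ := mem_erase.1 hm
    obtain ⟨h2, h3⟩ := mem_sdiff.1 h2
    simp only [mem_filter, mem_univ, true_and, not_lt] at h3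
    refine (pr_or_le _ _).trans (add_le_add h3 ?_)
    refine le_trans (pr_mono fun y hy => ?_)
      ((glob_line (κ : ZMod P) t (col_unit hP h1) _).le.trans (hF m h2))
    have h4 : ((I y + (m : ℕ) * (y.2.val : ℤ) : ℤ) : ZMod P) =
        t * y.1 + ((((m : ℕ) : ℤ) - ((n : ℕ) : ℤ) : ℤ) : ZMod P) * y.2 + κ := by
      simp only [I]
      push_cast
      simp only [ZMod.natCast_val, ZMod.cast_id', id_eq]
      ring
    have h5 := periodic_val (h.perF m) h4
    have h6 := periodic_val (f := fun k : ℤ => B * (k : ZMod (p ^ 2))) (P := P)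
      (fun k => by push_cast; linear_combination hB) h4
    intro e
    apply hy
    refine (congrArg Prod.fst h5).trans (e.trans ?_)
    rw [Int.cast_natCast] at h6
    rw [← h6]
    push_cast
    ring
  obtain ⟨n₁, h₁, n₂, h₂, hne⟩ := one_lt_card.1 hcard
  have b1 := (pr_or_le _ _).trans (add_le_add hbad ((pr_or_le _ _).trans
    (add_le_add (hcol n₁ h₁) (hcol n₂ h₂))))
  refine (pr_mono fun y hy => ?_).trans (b1.trans (by norm_num))
  by_contra hn
  simp only [not_or, not_not, E, not_and] at hn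
  obtain ⟨g, ⟨e1, f1⟩, e2, f2⟩ := hn
  rw [(hab y g).2.1 n₁ (e1 g)] at f1
  rw [(hab y g).2.1 n₂ (e2 g)] at f2
  have e3 : a y = A + B * ((y.2.val : ℤ) : ZMod (p ^ 2)) := by
    have u := col_unit hp2 hne
    rw [Int.cast_sub, Int.cast_natCast, Int.cast_natCast] at u
    refine sub_eq_zero.1 ((u.mul_left_eq_zero).1 ?_)
    linear_combination f1 - f2
  have e4 : b y = B * (I y : ZMod (p ^ 2)) + C := by
    rw [e3] at f1
    exact add_left_cancel f1
  apply hy
  have h1 := hab y g
  rw [e3, e4] at h1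
  exact h1

end Crest.Agent.R46
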