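import Crest.Agent.R46.SudCol
import Crest.Agent.R46.SudGlob

/-!
# R46: a robust `p`-adic Sudoku
-/

set_option autoImplicit false
open Finset
open scoped Classical

namespace Crest.Agent.R46

variable {p : ℕ} [hp : Fact p.Prime] {P : ℕ} [NeZero P]
  {F : Fin p → ℤ → ZMod (p ^ 2) × ZMod p} {Act : Fin p → ℤ → ℤ → Prop}

/-- No column is mostly constant modulo `p`. -/
def NonDeg (P : ℕ) [NeZero P] (F : Fin p → ℤ → ZMod (p ^ 2) × ZMod p) : Prop :=
  ∀ (n : Fin p) (u : ZMod p), pr (fun k : ZMod P => red p (F n (k.val : ℤ)).1 = u) ≤ 1 / 2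

/-- The conclusion of the structure theorem. -/
def Str (P : ℕ) [NeZero P] (F : Fin p → ℤ → ZMod (p ^ 2) × ZMod p) (A B C : ZMod (p ^ 2)) : Prop :=
  (P : ZMod (p ^ 2)) * B = 0 ∧ ∀ (n : Fin p) (κ : ℤ) (t : ℕ), t = 1 ∨ t = p →
    pr (fun y : ZMod P × ZMod P => ¬ Glob F A B C
      (κ + t * (y.1.val : ℤ) - (n : ℕ) * (y.2.val : ℤ)) (y.2.val : ℤ)) ≤ 1 / 3

theorem exists_str (h200 : 200 ≤ p) (h : (puz p).Defect (40 * p ^ 2) P F Act)
    (hP : P.Coprime (p - 1).factorial) : ∃ A B C, Str P F A B C := by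
  obtain ⟨A, B, C, N, h1, h2, h3⟩ := exists_columns h200 h hP
  exact ⟨A, B, C, h1, fun n κ t ht => pr_not_glob h200 h hP h1 h2 h3 n κ ht⟩

theorem sud_pr_fst (E : ZMod P → Prop) : pr (fun y : ZMod P × ZMod P => E y.1) = pr E := by
  simpa using col_line 0 E

/-- If `red B = 0` then `red A ≠ 0` or `red C ≠ 0`; for `n ∈ {0, 1}` with `red (A n + C) ≠ 0`
column `n` equals `red (A n + C)` with probability `≥ 2/3` (`t = 1`, `κ = 0`). -/
theorem Str.unit_of_nonDeg {A B C : ZMod (p ^ 2)} (h : Str P F A B C) (hF : NonDeg P F) :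
    red p B ≠ 0 := by
  intro hB
  have key : ∀ n : Fin p, red p (A * ((n : ℕ) : ZMod (p ^ 2)) + C) = 0 := fun n => by
    by_contra hn
    have h1 := h.2 n 0 1 (Or.inl rfl)
    have h2 := hF n (red p (A * ((n : ℕ) : ZMod (p ^ 2)) + C))
    have h3 := pr_not fun k : ZMod P =>
      red p (F n (k.val : ℤ)).1 = red p (A * ((n : ℕ) : ZMod (p ^ 2)) + C)
    rw [← sud_pr_fst] at h3
    refine absurd (h3.ge.trans ((pr_mono fun y hy hg => hy ?_).trans h1)) (by linarith)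
    have h4 := hg.2.1 n (by simpa [hB] using hn)
    simp only [Nat.cast_one, one_mul, zero_add, sub_add_cancel] at h4
    rw [h4]
    simp [hB]
  obtain ⟨y, hy⟩ := exists_not_of_pr_lt
    ((h.2 ⟨0, hp.out.pos⟩ 0 1 (Or.inl rfl)).trans_lt (by norm_num))
  have h0 := key ⟨0, hp.out.pos⟩
  have h1 := key ⟨1, hp.out.one_lt⟩
  simp only [Nat.cast_zero, mul_zero, zero_add] at h0
  simp only [Nat.cast_one, mul_one, map_add, h0, add_zero] at h1
  simpa [hB, h0, h1] using (not_not.1 hy).1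

/-- Periodicity and `Labelled` give `p ∣ P`; every label has probability `≤ 1/p`
(`pr_cast_eq`); if `red B = 0` the label is `0` or `red C` with probability `≥ 2/3`. -/
theorem Str.unit_of_labelled (h200 : 200 ≤ p) {A B C : ZMod (p ^ 2)} (h : Str P F A B C)
    (hper : ∀ n k, F n (k + P) = F n k) (hF : (puz p).Labelled F) : red p B ≠ 0 := by
  intro hB
  have hp' : (200 : ℝ) ≤ p := by exact_mod_cast h200
  have hF' : ∀ d : ZMod p, ∃ c : ZMod p, ∀ k : ℤ, (F ⟨0, hp.out.pos⟩ k).2 = d → (k : ZMod p) = c :=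
    hF
  have hd : p ∣ P := by
    obtain ⟨c, hc⟩ := hF' (F ⟨0, hp.out.pos⟩ 0).2
    have h1 := hc 0 rfl
    have h2 := hc (0 + P) (by rw [hper])
    rw [← h1] at h2
    simpa [ZMod.natCast_eq_zero_iff] using h2
  have hl : ∀ d : ZMod p,
      pr (fun y : ZMod P × ZMod P => (F ⟨0, hp.out.pos⟩ (y.1.val : ℤ)).2 = d) ≤ 1 / 200 := fun d => by
    obtain ⟨c, hc⟩ := hF' d
    rw [sud_pr_fst fun k => (F ⟨0, hp.out.pos⟩ (k.val : ℤ)).2 = d]
    refine (pr_mono fun k hk => hc _ hk).trans ((pr_cast_eq hd c).le.trans ?_)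
    exact one_div_le_one_div_of_le (by norm_num) hp'
  obtain ⟨y, hy⟩ := exists_not_of_pr_lt (((pr_or_le _ _).trans (add_le_add
    (h.2 ⟨0, hp.out.pos⟩ 0 1 (Or.inl rfl)) ((pr_or_le _ _).trans
      (add_le_add (hl 0) (hl (red p C)))))).trans_lt (by norm_num))
  simp only [not_or, not_not] at hy
  have h4 := hy.1.2.2.2
  simp only [Nat.cast_one, one_mul, zero_add, Nat.cast_zero, zero_mul, sub_zero, add_zero] at h4
  refine hy.2.2 ?_
  rw [← h4 hy.2.1]
  simp [hB]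

theorem sud_isUnit {B : ZMod (p ^ 2)} (hB : red p B ≠ 0) : IsUnit B := by
  rw [← ZMod.natCast_zmod_val B] at hB ⊢
  rw [map_natCast, Ne, ZMod.natCast_eq_zero_iff] at hB
  rw [ZMod.isUnit_iff_coprime]
  exact ((Nat.Prime.coprime_iff_not_dvd hp.out).2 hB).symm.pow_right 2

/-- `B` is a unit, so `p² ∣ P`. Choose `i₀`, `j₀` with `B i₀ + C = 0`, `A + B j₀ = 0` in
`ZMod (p²)`. On the line `κ + p k`, `κ = i₀ + n j₀`, of column `n` the global affine function is
`p * (B k)`; so `red (F ..) = red B * k` unless `p ∣ k`, outside probability `1/3` (`t = p`). Use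
`pr_val_of_dvd`, `pr_cast_eq`, `1/3 + 2/p ≤ 1/2`. -/
theorem Str.descend (h200 : 200 ≤ p) {A B C : ZMod (p ^ 2)} (h : Str P F A B C)
    (hper : ∀ n k, F n (k + P) = F n k) (hB : red p B ≠ 0) :
    ∃ (P' : ℕ) (_ : NeZero P') (i₀ j₀ : ℤ), P = p * P' ∧
      NonDeg P' fun n k => F n (i₀ + (n : ℕ) * j₀ + p * k) := by
  have hp' : (200 : ℝ) ≤ p := by exact_mod_cast h200
  have hu := sud_isUnit hB
  have hd : p ∣ P := (dvd_pow_self p two_ne_zero).trans
    ((ZMod.natCast_eq_zero_iff _ _).1 (hu.mul_left_eq_zero.1 h.1))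
  obtain ⟨P', hP'⟩ := id hd
  have hne : NeZero P' := ⟨fun e => NeZero.ne P (by rw [hP', e, mul_zero])⟩
  obtain ⟨v, hv⟩ := hu.exists_right_inv
  obtain ⟨i₀, hi⟩ := ZMod.intCast_surjective (-(v * C))
  obtain ⟨j₀, hj⟩ := ZMod.intCast_surjective (-(v * A))
  refine ⟨P', hne, i₀, j₀, hP', fun n u => ?_⟩
  rw [← pr_val_of_dvd (P := P) ⟨p, by rw [hP', mul_comm]⟩
    (E := fun k => red p (F n (i₀ + (n : ℕ) * j₀ + p * k)).1 = u) fun k => by
      rw [mul_add, ← add_assoc, ← Nat.cast_mul, ← hP', hper], ← sud_pr_fst]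
  have hl : ∀ c : ZMod p,
      pr (fun y : ZMod P × ZMod P => ((y.1.val : ℤ) : ZMod p) = c) ≤ 1 / 200 := fun c => by
    rw [sud_pr_fst fun k => ((k.val : ℤ) : ZMod p) = c]
    exact (pr_cast_eq hd c).le.trans (one_div_le_one_div_of_le (by norm_num) hp')
  refine (pr_mono fun y hy => ?_).trans (((pr_or_le _ _).trans (add_le_add
    (h.2 n (i₀ + (n : ℕ) * j₀) p (Or.inr rfl)) ((pr_or_le _ _).trans
      (add_le_add (hl 0) (hl ((red p B)⁻¹ * u)))))).trans (by norm_num))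
  by_contra hn
  simp only [not_or, not_not] at hn
  have h4 := hn.1.2.2.1 n (B * ((y.1.val : ℤ) : ZMod (p ^ 2))) (by
    push_cast
    rw [hi, hj]
    linear_combination (-C - A * ((n : ℕ) : ZMod (p ^ 2))) * hv) (by
    rw [map_mul, map_intCast]
    exact mul_ne_zero hB hn.2.1)
  simp only [sub_add_cancel] at h4
  refine hn.2.2 ?_
  rw [← hy, h4, map_mul, map_intCast, inv_mul_cancel_left₀ hB]

/-- Strong induction on `P` (`exists_str`, `unit_of_nonDeg`, `descend`, `Defect.restrict`). -/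
theorem not_nonDeg (h200 : 200 ≤ p) (h : (puz p).Defect (40 * p ^ 2) P F Act)
    (hP : P.Coprime (p - 1).factorial) : ¬ NonDeg P F := by
  suffices key : ∀ (P : ℕ) [NeZero P] (F : Fin p → ℤ → ZMod (p ^ 2) × ZMod p)
      (Act : Fin p → ℤ → ℤ → Prop), (puz p).Defect (40 * p ^ 2) P F Act →
      P.Coprime (p - 1).factorial → ¬ NonDeg P F from key P F Act h hP
  intro P
  induction P using Nat.strong_induction_on with
  | _ P ih =>
    intro _ F Act h hP hF
    obtain ⟨A, B, C, hs⟩ := exists_str h200 h hP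
    obtain ⟨P', hne, i₀, j₀, e, hN⟩ := hs.descend h200 h.perF (hs.unit_of_nonDeg hF)
    have hlt : P' < P := by
      have := Nat.pos_of_ne_zero hne.out
      rw [e]; nlinarith
    exact ih P' hlt _ _ (h.restrict (e := 1) e
      (by rw [pow_one]; exact Nat.dvd_factorial hp.out.pos le_rfl) i₀ j₀)
      (hP.coprime_dvd_left ⟨p, by rw [e, mul_comm]⟩) hN

/-- `exists_split`, `Defect.restrict`, `Labelled.scale`, `unit_of_labelled`, `descend`,
`not_nonDeg`. -/
theorem puz_good (h200 : 200 ≤ p) : (puz p).Good := by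
  refine ⟨puz_exact p, 40 * p ^ 2, fun P F Act h hL => ?_⟩
  have hp1 : p.Coprime (p - 1).factorial := (Nat.Prime.coprime_iff_not_dvd hp.out).2 fun hd => by
    have := (hp.out.dvd_factorial).1 hd
    omega
  obtain ⟨t, P', e, e1, e2, e3⟩ := exists_split (p := p) h.pos
  have hne : NeZero P' := ⟨fun e => h.pos.ne' (by rw [e1, e, mul_zero])⟩
  have h1 := h.restrict (e := e) e1 (e2.trans (pow_dvd_pow_of_dvd
    (Nat.factorial_dvd_factorial (Nat.sub_le _ _)) e)) 0 0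
  have h2 := hL.scale (t := t) ((hp1.pow_right e).symm.coprime_dvd_left e2)
  obtain ⟨A, B, C, hs⟩ := exists_str h200 h1 e3
  obtain ⟨P'', hne', i₀, j₀, e4, hN⟩ := hs.descend h200 h1.perF
    (hs.unit_of_labelled h200 h1.perF h2)
  exact not_nonDeg h200 (h1.restrict (e := 1) e4
    (by rw [pow_one]; exact Nat.dvd_factorial hp.out.pos le_rfl) i₀ j₀)
    (e3.coprime_dvd_left ⟨p, by rw [e4, mul_comm]⟩) hN

theorem exists_good : ∃ Z : Puzzle, Z.Good :=
  haveI : Fact (Nat.Prime 211) := ⟨by norm_num⟩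
  ⟨puz 211, puz_good (by norm_num)⟩

end Crest.Agent.R46
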