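import Crest.Agent.R46.Sound
import Crest.Agent.R46.Compl
import Crest.Agent.R46.Red
import Crest.Agent.R46.Sud

/-!
# R46: an aperiodic tile of `ℤ³`
-/

set_option autoImplicit false

namespace Crest.Agent.R46

theorem Puzzle.Good.aperSys {Z : Puzzle} (h : Z.Good) : AperSys (Fin 3 → ℤ) := by
  obtain ⟨⟨F, hF⟩, q₀, hq⟩ := h
  obtain ⟨P, hP⟩ := exists_par Z.I Z.V Z.piv (NeZero.pos Z.p) q₀
  have h1 : AperSys (P.X × P.H) := (Z.sys_eqs P).aper (Puzzle.exists_eqs hP hF) fun A hA hp => by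
    obtain ⟨Q, F, Act, h1, h2⟩ := hA.defect hP hp
    exact hq Q F Act h1 h2
  let π : (Fin 3 → ℤ) →+ P.X × P.H :=
    { toFun := fun y => (((y 0, y 1), (y 2 : P.R)), (y 2 : P.H))
      map_zero' := by simp
      map_add' := fun x y => by simp }
  refine h1.lift π fun x => ?_
  obtain ⟨z, hz1, hz2⟩ := P.surj x.1.2 x.2
  exact ⟨![x.1.1.1, x.1.1.2, z], Prod.ext (Prod.ext rfl (funext hz1)) (funext hz2)⟩

theorem exists_aperTile : ∃ T, AperTile T := by
  obtain ⟨Z, hZ⟩ := exists_good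
  exact hZ.aperSys.exists_tile

end Crest.Agent.R46
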