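import Crest.Agent.R46.Enc

/-!
# R46: the occupied set, and the choice of moduli
-/

set_option autoImplicit false
set_option linter.unusedSectionVars false
open Finset

namespace Crest.Agent.R46

namespace Par
variable {I V : Type} (P : Par I V) [Fintype I] [DecidableEq I] [Fintype V] [DecidableEq V]

theorem Bij.sub_unique {P : Par I V} {T : P.Fr} (hT : P.Bij T) {n : I} {b : Bool}
    {y d d' : Pt (P.a n) (P.s n)} (h1 : key b d = 0) (h2 : key b d' = 0) (h3 : y - d ∈ T n)
    (h4 : y - d' ∈ T n) : d = d' := by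
  have := (hT n b (key b y)).unique ⟨h3, by rw [key_sub, h1, sub_zero]⟩
    ⟨h4, by rw [key_sub, h2, sub_zero]⟩
  exact sub_right_injective this

/-- Componentwise: `δ n = pr x n - t n` for the point `t n ∈ T n` with the key of `pr x n`. -/
theorem Bij.existsUnique {P : Par I V} {T : P.Fr} (hT : P.Bij T) (b : Option I) (y : P.G) :
    ∃! δ : P.K b, ∀ n, (y - δ.1) n ∈ T n := by
  choose t ht using fun n => (hT n (decide (b = some n)) (key (decide (b = some n)) (y n))).exists
  refine ⟨⟨fun n => y n - t n, fun n => by rw [key_sub, (ht n).2, sub_self]⟩, fun n => ?_, ?_⟩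
  · simpa using (ht n).1
  · intro δ hδ
    refine Subtype.ext (funext fun n => hT.sub_unique (y := y n) (δ.2 n) ?_ (hδ n) ?_)
    · rw [key_sub, (ht n).2, sub_self]
    · simpa using (ht n).1


theorem occ_key_surj {a s : ℕ} (b : Bool) (x : ZMod a × ZMod s) : ∃ t : Pt a s, key b t = x := by
  cases b
  · exact ⟨((0, x.2), 0, (x.1, 0)), rfl⟩
  · exact ⟨((x.1, 0), 0, (0, x.2)), Prod.ext (sub_zero _) rfl⟩

/-- The zero offset. -/
def K0 (b : Option I) : P.K b := ⟨0, fun _ => key_zero _⟩

/-- `Tiles.exists_graph` gives `A = Graph O α`, `tiles_graph_full` turns the equations into tilings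
by `O`. `Tiles.shift_mem` (with `δ₀ = 0`) and `exists_M`: `x ∈ O ↔ pr x ∈ T' := pr '' O`, so every
`y : G` has a unique `δ : K b` with `y - δ ∈ T'`. Let `U n` be the set of `y` whose `δ : K none` has
`δ n = 0`. The last equations show that `U n` is invariant under all `g` with `g n = 0` (both
`U n` and `U n + g` are the complement of what the `δ` with `δ n ≠ 0` cover). Put
`T n = (· n) '' T'`; then `y ∈ U n ↔ y n ∈ T n` and `T' = ⋂ U n`. -/
theorem occ_sound {A : Set (P.X × P.H)} (h : P.OccEqs A) :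
    ∃ T α, P.Bij T ∧ A = Graph (P.O T) α := by
  classical
  obtain ⟨h1, h2, h3, h4⟩ := h
  obtain ⟨O, α, rfl⟩ := Tiles.exists_graph (pos := fun δ : P.K none => P.L δ.1) (h1 none)
  have t1 : ∀ b, Tiles O fun δ : P.K b => P.L δ.1 := fun b =>
    (tiles_graph_full (pos := fun δ : P.K b => P.L δ.1)).1 (h1 b)
  have sh : ∀ w : ℤ × ℤ, (Tiles (Graph O α) fun j : P.K none × P.H =>
      (P.L j.1.1 + if j.1.1 = 0 then P.M w else 0, j.2)) → ∀ x, x + P.M w ∈ O ↔ x ∈ O := by
    intro w hw
    have := (tiles_graph_full (pos := fun δ : P.K none =>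
      P.L δ.1 + if δ.1 = 0 then P.M w else 0)).1 hw
    refine Tiles.shift_mem (δ₀ := P.K0 none) (t1 none) ?_
    convert this using 4 with δ
    exact Subtype.ext_iff
  let S : AddSubgroup (ℤ × ℤ) :=
    { carrier := {w | ∀ x, x + P.M w ∈ O ↔ x ∈ O}
      zero_mem' := fun x => by simp
      add_mem' := fun {a b} ha hb x => by rw [map_add, ← add_assoc, hb, ha]
      neg_mem' := fun {a} ha x => by rw [← ha, map_neg, neg_add_cancel_right] }
  have hM : ∀ w x, x + P.M w ∈ O ↔ x ∈ O := by
    intro w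
    have e : w = w.1 • ((1, 0) : ℤ × ℤ) + w.2 • ((0, 1) : ℤ × ℤ) := by ext <;> simp
    have : w ∈ S := by
      rw [e]
      exact S.add_mem (S.zsmul_mem (sh _ h2) _) (S.zsmul_mem (sh _ h3) _)
    exact this
  let T' : Set P.G := P.pr '' O
  have hO : ∀ x, x ∈ O ↔ P.pr x ∈ T' := by
    refine fun x => ⟨fun hx => ⟨x, hx, rfl⟩, ?_⟩
    rintro ⟨x', hx', e⟩
    obtain ⟨w, rfl⟩ := P.exists_M e
    exact (hM w x').2 hx'
  have u1 : ∀ b (y : P.G), ∃! δ : P.K b, y - δ.1 ∈ T' := by
    intro b y
    have := t1 b (P.L y)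
    simpa only [hO, map_sub, pr_L] using this
  have u2 : ∀ n (g : P.G), g n = 0 → ∀ y : P.G,
      ∃! δ : P.K none, y - (δ.1 + if δ.1 n = 0 then g else 0) ∈ T' := by
    intro n g hg y
    have := (tiles_graph_full (pos := fun δ : P.K none =>
      P.L (δ.1 + if δ.1 n = 0 then g else 0))).1 (h4 n g hg) (P.L y)
    simpa only [hO, map_sub, pr_L] using this
  have hU : ∀ n (g : P.G), g n = 0 → ∀ y ∈ T', ∃ δ : P.K none, δ.1 n = 0 ∧ y - g - δ.1 ∈ T' := by
    intro n g hg y hy
    obtain ⟨δ, hδ, -⟩ := u2 n g hg y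
    by_cases h0 : δ.1 n = 0
    · refine ⟨δ, h0, ?_⟩
      rw [if_pos h0] at hδ
      rwa [sub_sub, add_comm]
    · rw [if_neg h0, add_zero] at hδ
      have := (u1 none y).unique (y₂ := P.K0 none) hδ (by simpa [K0] using hy)
      exact absurd (by rw [this]; rfl) h0
  let T : P.Fr := fun n => (fun y : P.G => y n) '' T'
  have hT' : ∀ y : P.G, y ∈ T' ↔ ∀ n, y n ∈ T n := by
    refine fun y => ⟨fun hy n => ⟨y, hy, rfl⟩, fun hy => ?_⟩
    obtain ⟨δ, hδ, hu⟩ := u1 none y
    have : δ.1 = 0 := by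
      funext n
      obtain ⟨y', hy', e⟩ := hy n
      obtain ⟨δ', h1, h2⟩ := hU n (y' - y) (by simpa [sub_eq_zero] using e) y' hy'
      rw [sub_sub_cancel] at h2
      rw [← hu δ' h2, h1]; rfl
    simpa [this] using hδ
  refine ⟨T, α, fun n b x => ?_, ?_⟩
  · have hb : decide ((if b then some n else none : Option I) = some n) = b := by cases b <;> simp
    obtain ⟨t, ht⟩ := occ_key_surj (a := P.a n) (s := P.s n) b x
    obtain ⟨δ, hδ, -⟩ := u1 (if b then some n else none) (Pi.single n t)
    have hδn := δ.2 n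
    rw [hb] at hδn
    refine existsUnique_of_exists_of_unique ⟨_, (hT' _).1 hδ n, ?_⟩ ?_
    · rw [Pi.sub_apply, key_sub, hδn, sub_zero, Pi.single_eq_same, ht]
    · rintro t₁ t₂ ⟨⟨y, hy, e⟩, k1⟩ ⟨h2, k2⟩
      simp only at e
      have hy' : y + Pi.single n (t₂ - t₁) ∈ T' := by
        refine (hT' _).2 fun m => ?_
        by_cases hm : m = n
        · subst hm
          simpa [e] using h2
        · simpa [Pi.single_eq_of_ne hm] using (hT' _).1 hy m
      have := (u1 (if b then some n else none) (y + Pi.single n (t₂ - t₁))).unique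
        (y₁ := ⟨Pi.single n (t₂ - t₁), fun m => by
          by_cases hm : m = n
          · subst hm
            rw [hb, Pi.single_eq_same, key_sub, k1, k2, sub_self]
          · rw [Pi.single_eq_of_ne hm, key_zero]⟩) (y₂ := P.K0 _) (by simpa using hy)
        (by simpa [K0] using hy')
      have h3 := congrFun (congrArg Subtype.val this) n
      simp only [K0, Pi.single_eq_same, Pi.zero_apply, sub_eq_zero] at h3
      exact h3.symm
  · congr 1
    ext x
    rw [hO, hT', mem_O]


theorem occ_compl {T : P.Fr} (hT : P.Bij T) (α : P.X → P.H) : P.OccEqs (Graph (P.O T) α) := by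
  classical
  have t1 : ∀ b (κ : P.K b → ℤ × ℤ), Tiles (P.O T) fun δ : P.K b => P.L δ.1 + P.M (κ δ) := by
    intro b κ x
    have := hT.existsUnique b (P.pr x)
    simpa only [mem_O, map_sub, map_add, pr_L, pr_M, add_zero] using this
  have t2 : ∀ w : ℤ × ℤ, Tiles (Graph (P.O T) α) fun j : P.K none × P.H =>
      (P.L j.1.1 + if j.1.1 = 0 then P.M w else 0, j.2) := by
    intro w
    refine (tiles_graph_full (pos := fun δ : P.K none =>
      P.L δ.1 + if δ.1 = 0 then P.M w else 0)).2 ?_
    convert t1 none (fun δ => if δ.1 = 0 then w else 0) using 3 with δ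
    split_ifs <;> simp
  refine ⟨fun b => ?_, t2 _, t2 _, fun n g hg => ?_⟩
  · refine (tiles_graph_full (pos := fun δ : P.K b => P.L δ.1)).2 ?_
    simpa using t1 b fun _ => 0
  · refine (tiles_graph_full (pos := fun δ : P.K none =>
      P.L (δ.1 + if δ.1 n = 0 then g else 0))).2 fun x => ?_
    simp only [mem_O, map_sub, pr_L]
    generalize P.pr x = y
    obtain ⟨δ₁, a1, a2⟩ := hT.existsUnique none y
    obtain ⟨δ₂, b1, b2⟩ := hT.existsUnique none (y - g)
    have e : δ₁.1 n = δ₂.1 n :=
      hT.sub_unique (y := y n) (δ₁.2 n) (δ₂.2 n) (a1 n) (by simpa [hg] using b1 n)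
    by_cases h0 : δ₁.1 n = 0
    · refine ⟨δ₂, ?_, fun δ hδ => ?_⟩
      · simp only
        rw [if_pos (e ▸ h0), add_comm, ← sub_sub]; exact b1
      · beta_reduce at hδ
        by_cases h1 : δ.1 n = 0
        · rw [if_pos h1, add_comm, ← sub_sub] at hδ
          exact b2 δ hδ
        · rw [if_neg h1, add_zero] at hδ
          exact absurd (by rw [a2 δ hδ]; exact h0) h1
    · refine ⟨δ₁, ?_, fun δ hδ => ?_⟩
      · simp only
        rw [if_neg h0, add_zero]; exact a1
      · beta_reduce at hδ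
        by_cases h1 : δ.1 n = 0
        · rw [if_pos h1, add_comm, ← sub_sub] at hδ
          exact absurd (by rw [e, ← b2 δ hδ]; exact h1) h0
        · rw [if_neg h1, add_zero] at hδ
          exact a2 δ hδ


end Par

/-- Take `exists_moduli` with `c = (q₀ + 2) * p !` and an injection `e : I ⊕ V → ℕ`; `a n`, `s n`
come from the index `e (inl n)`, and `r v = a (e (inr v))` for `v ≠ v₀`. All `a n`, `s n`, `r v` are
pairwise coprime, so `exists_int_cast_eq` (index type `I ⊕ I ⊕ V`) gives `surj`, and from it `h`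
(put `h 0 = 0` by a case distinction) and `kk`; `m = ∏ n, a n * s n`; an integer `z ≡ 0` modulo all
`a n`, `s n` and `≡ 1` modulo all `r v` is `m * κ`. `frame` is `exists_frameData`. -/
theorem exists_par (I V : Type) [Finite I] [Finite V] (v₀ : V) {p : ℕ} (hp : 0 < p) (q₀ : ℕ) :
    ∃ P : Par I V, P.r v₀ = p ∧
      ∀ v, v ≠ v₀ → q₀ ≤ P.r v ∧ 2 ≤ P.r v ∧ (P.r v).Coprime p.factorial := by
  classical
  have := Fintype.ofFinite I
  have hc : 0 < (q₀ + 2) * p.factorial := Nat.mul_pos (by omega) (Nat.factorial_pos p)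
  obtain ⟨a, k, h1, h2, h3⟩ := exists_moduli _ hc
  obtain ⟨e, he⟩ := exists_injective_nat (I ⊕ V)
  have hk : ∀ i, q₀ + 2 ≤ k i := fun i =>
    (Nat.le_mul_of_pos_right _ (Nat.factorial_pos p)).trans (h1 i).1
  have ha : ∀ i, q₀ + 2 ≤ a i := fun i => by have := hk i; have := (h1 i).2; omega
  let s : ℕ → ℕ := fun i => k i * a i ^ 2 + 1
  let f : ℕ → Bool → ℕ := fun i b => if b then s i else a i
  have hf : ∀ i j, i ≠ j → ∀ b b', (f i b).Coprime (f j b') := by
    have : ∀ i j, i < j → ∀ b b', (f i b).Coprime (f j b') := by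
      intro i j hij b b'
      have d1 : f i b ∣ k j := by
        refine dvd_trans ?_ (h3 i j hij)
        cases b
        · exact Dvd.intro _ rfl
        · exact Dvd.intro_left _ rfl
      cases b'
      · show (f i b).Coprime (a j)
        rw [(h1 j).2]; exact cyc_coprime d1
      · exact cyc_coprime (d1.mul_right _)
    intro i j hij b b'
    rcases lt_or_gt_of_ne hij with h | h
    · exact this i j h b b'
    · exact (this j i h b' b).symm
  have hpf : ∀ i b, (p.factorial).Coprime (f i b) := by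
    intro i b
    refine Nat.Coprime.coprime_dvd_left (Dvd.intro_left (q₀ + 2) rfl) ?_
    cases b
    · exact (h2 i).1
    · exact (h2 i).2.1
  have hp' : ∀ i b, p.Coprime (f i b) := fun i b =>
    (hpf i b).coprime_dvd_left (Nat.dvd_factorial hp le_rfl)
  let r : V → ℕ := fun v => if v = v₀ then p else a (e (.inr v))
  have hr : ∀ v, v ≠ v₀ → r v = f (e (.inr v)) false := fun v hv => if_neg hv
  have hr0 : r v₀ = p := if_pos rfl
  let μ : (I × Bool) ⊕ V → ℕ := Sum.elim (fun x => f (e (.inl x.1)) x.2) r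
  have hf0 : ∀ i b, 0 < f i b := by
    intro i b
    cases b
    · have := ha i; show 0 < a i; omega
    · exact Nat.succ_pos _
  have hrpos : ∀ v, 0 < r v := by
    intro v
    by_cases hv : v = v₀
    · rw [hv, hr0]; exact hp
    · rw [hr v hv]; exact hf0 _ _
  have hμ0 : ∀ u, 0 < μ u := by
    rintro (x | v)
    · exact hf0 _ _
    · exact hrpos v
  have hII : ∀ x y : I × Bool, x ≠ y → (μ (.inl x)).Coprime (μ (.inl y)) := by
    rintro ⟨n, b⟩ ⟨n', b'⟩ hne
    by_cases hn : n = n'
    · subst hn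
      have hb : b ≠ b' := fun h => hne (by rw [h])
      cases b <;> cases b'
      · exact absurd rfl hb
      · exact (h2 _).2.2
      · exact (h2 _).2.2.symm
      · exact absurd rfl hb
    · exact hf _ _ (fun h => hn (Sum.inl_injective (he h))) _ _
  have hIV : ∀ (x : I × Bool) (v : V), (μ (.inl x)).Coprime (μ (.inr v)) := by
    intro x v
    show (f _ _).Coprime (r v)
    by_cases hv : v = v₀
    · rw [hv, hr0]; exact (hp' _ _).symm
    · rw [hr v hv]; exact hf _ _ (fun h => Sum.inl_ne_inr (he h)) _ _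
  have hμ : Pairwise fun u u' => (μ u).Coprime (μ u') := by
    rintro (x | v) (y | w) hne
    · exact hII x y fun h => hne (by rw [h])
    · exact hIV x w
    · exact (hIV y v).symm
    · have hvw : v ≠ w := fun h => hne (by rw [h])
      show (r v).Coprime (r w)
      by_cases hv : v = v₀
      · rw [hr w (fun h => hvw (hv.trans h.symm)), hv, hr0]; exact hp' _ _
      · by_cases hw : w = v₀
        · rw [hr v hv, hw, hr0]; exact (hp' _ _).symm
        · rw [hr v hv, hr w hw]; exact hf _ _ (fun h => hvw (Sum.inr_injective (he h))) _ _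
  have surj : ∀ (ρ : ∀ n : I, ZMod (a (e (.inl n))) × ZMod (s (e (.inl n)))) (η : ∀ v, ZMod (r v)),
      ∃ z : ℤ, (∀ n, (z : ZMod (a (e (.inl n))) × ZMod (s (e (.inl n)))) = ρ n) ∧
        ∀ v, (z : ZMod (r v)) = η v := by
    intro ρ η
    obtain ⟨z, hz⟩ := exists_int_cast_eq hμ0 hμ (fun u => match u with
      | .inl (n, false) => (ρ n).1
      | .inl (n, true) => (ρ n).2
      | .inr v => η v)
    exact ⟨z, fun n => Prod.ext (hz (.inl (n, false))) (hz (.inl (n, true))), fun v => hz (.inr v)⟩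
  have ker : ∀ z : ℤ, (∀ n : I, (z : ZMod (a (e (.inl n))) × ZMod (s (e (.inl n)))) = 0) ↔
      (∏ x : I × Bool, (μ (.inl x) : ℤ)) ∣ z := by
    intro z
    constructor
    · intro hz
      refine Fintype.prod_dvd_of_coprime (fun x y hxy => Nat.isCoprime_iff_coprime.2 (hII x y hxy)) ?_
      rintro ⟨n, b⟩
      cases b
      · exact (ZMod.intCast_zmod_eq_zero_iff_dvd _ _).1 (congrArg Prod.fst (hz n))
      · exact (ZMod.intCast_zmod_eq_zero_iff_dvd _ _).1 (congrArg Prod.snd (hz n))
    · intro hz n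
      have := fun x => (Finset.dvd_prod_of_mem (fun x : I × Bool => (μ (.inl x) : ℤ))
        (Finset.mem_univ x)).trans hz
      exact Prod.ext ((ZMod.intCast_zmod_eq_zero_iff_dvd _ _).2 (this (n, false)))
        ((ZMod.intCast_zmod_eq_zero_iff_dvd _ _).2 (this (n, true)))
  choose h₀ hh1 hh2 using fun ρ => surj ρ 0
  obtain ⟨z, hz1, hz2⟩ := surj 0 1
  obtain ⟨κ, hκ⟩ := (ker z).1 hz1
  choose kk hkk1 hkk2 using fun v => surj 0 (Pi.single v 1)
  refine ⟨{
    a := fun n => a (e (.inl n))
    s := fun n => s (e (.inl n))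
    r := r
    nea := fun n => ⟨(hf0 _ false).ne'⟩
    nes := fun n => ⟨(hf0 _ true).ne'⟩
    ner := fun v => ⟨(hrpos v).ne'⟩
    a2 := fun n => by have := ha (e (.inl n)); omega
    cop := fun n => (h2 _).2.2
    frame := fun n => exists_frameData (by have := ha (e (.inl n)); omega)
      (by have := hk (e (.inl n)); omega)
    m := ∏ x : I × Bool, (μ (.inl x) : ℤ)
    ker := ker
    h := fun ρ => if ρ = 0 then 0 else h₀ ρ
    hR := fun ρ n => by
      split_ifs with h
      · rw [h]; simp
      · exact hh1 ρ n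
    hH := fun ρ v => by
      split_ifs with h
      · simp
      · exact hh2 ρ v
    h0 := if_pos rfl
    κ := κ
    hκ := fun v => by
      have := hz2 v
      rw [hκ, Int.cast_mul, mul_comm] at this
      exact this
    kk := kk
    kk_self := fun v => by rw [hkk2, Pi.single_eq_same]
    kk_ne := fun v w hvw => by rw [hkk2, Pi.single_eq_of_ne hvw.symm]
    surj := surj }, hr0, fun v hv => ?_⟩
  show q₀ ≤ r v ∧ 2 ≤ r v ∧ (r v).Coprime p.factorial
  rw [hr v hv]
  have := ha (e (.inr v))
  exact ⟨show q₀ ≤ a _ by omega, show 2 ≤ a _ by omega, (hpf _ _).symm⟩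


end Crest.Agent.R46
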