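import Crest.Agent.R46.Defs

/-!
# R46: a rigid tile and its Euclidean thickening
-/

set_option autoImplicit false
open Crest.CombinatoricsR.Tiling Finset

namespace Crest.Agent.R46

/-- The cube `[0,3)³` with three face centres moved to the outside of the opposite faces. -/
def bump : Finset (Fin 3 → ℤ) :=
  (Fintype.piFinset (fun _ => ({0, 1, 2} : Finset ℤ)) \ {![2, 1, 1], ![1, 2, 1], ![1, 1, 2]}) ∪
    {![-1, 1, 1], ![1, -1, 1], ![1, 1, -1]}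

/-- All tilings by `T` lie in one class modulo `3`. -/
def Rigid (T : Finset (Fin 3 → ℤ)) : Prop :=
  ∀ B : Set (Fin 3 → ℤ), IsTilingBy T B → ∀ b ∈ B, ∀ b' ∈ B, ∀ i, (3 : ℤ) ∣ b i - b' i

/-- Membership in `bump` in terms of coordinates. -/
def realP (a b c : ℤ) : Prop :=
  (0 ≤ a ∧ a ≤ 2 ∧ 0 ≤ b ∧ b ≤ 2 ∧ 0 ≤ c ∧ c ≤ 2 ∧ ¬(a = 2 ∧ b = 1 ∧ c = 1) ∧
    ¬(a = 1 ∧ b = 2 ∧ c = 1) ∧ ¬(a = 1 ∧ b = 1 ∧ c = 2)) ∨
  (a = -1 ∧ b = 1 ∧ c = 1) ∨ (a = 1 ∧ b = -1 ∧ c = 1) ∨ (a = 1 ∧ b = 1 ∧ c = -1)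

instance (a b c : ℤ) : Decidable (realP a b c) := by unfold realP; infer_instance

lemma real_mem {r : Fin 3 → ℤ} : r ∈ bump ↔ realP (r 0) (r 1) (r 2) := by
  simp only [bump, realP, mem_union, mem_sdiff, Fintype.mem_piFinset, mem_insert, mem_singleton,
    funext_iff, Fin.forall_fin_succ, Matrix.cons_val_zero, Matrix.cons_val_succ,
    Fin.succ_zero_eq_one, Fin.succ_one_eq_two, and_true, IsEmpty.forall_iff, not_or]
  refine or_congr_left ⟨fun ⟨⟨h1, h2, h3⟩, h4⟩ => ?_, fun ⟨h1, h2, h3, h4, h5, h6, h7⟩ => ?_⟩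
  · exact ⟨by clear h4; omega, by clear h4; omega, by clear h4; omega, by clear h4; omega,
      by clear h4; omega, by clear h4; omega, h4⟩
  · exact ⟨⟨by clear h7; omega, by clear h7; omega, by clear h7; omega⟩, h7⟩

lemma real_uniq {r r' : Fin 3 → ℤ} (hr : r ∈ bump) (hr' : r' ∈ bump)
    (h : ∀ i, (3 : ℤ) ∣ r i - r' i) : r = r' := by
  have h0 := h 0
  have h1 := h 1
  have h2 := h 2
  simp only [real_mem, realP] at hr hr'
  funext i
  fin_cases i <;> simp only [Fin.zero_eta, Fin.mk_one, Fin.reduceFinMk] <;> omega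

lemma real_res (x : Fin 3 → ℤ) : ∃ r ∈ bump, ∀ i, (3 : ℤ) ∣ x i - r i ∧ r i ≤ 2 := by
  have h : ∀ a ∈ [0, 1, 2], ∀ b ∈ [0, 1, 2], ∀ c ∈ [0, 1, 2], ∃ a' ∈ [-1, 0, 1, 2],
      ∃ b' ∈ [-1, 0, 1, 2], ∃ c' ∈ [-1, 0, 1, 2], realP a' b' c' ∧ a' % 3 = a ∧ b' % 3 = b ∧
        c' % 3 = c := by decide +kernel
  obtain ⟨a, ha, b, hb, c, hc, h1, h2, h3, h4⟩ := h (x 0 % 3) (by simp; omega) (x 1 % 3)
    (by simp; omega) (x 2 % 3) (by simp; omega)
  refine ⟨![a, b, c], real_mem.2 h1, fun i => ?_⟩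
  simp only [List.mem_cons, List.not_mem_nil, or_false] at ha hb hc
  fin_cases i <;> simp <;> omega

lemma real_chk (d e : ℤ × ℤ × ℤ) (hde : (d, e) ∈ [((2, 1, 1), (3, 0, 0)), ((1, 2, 1), (0, 3, 0)),
    ((1, 1, 2), (0, 0, 3))]) : ¬realP d.1 d.2.1 d.2.2 ∧
    ∀ a ∈ [-1, 0, 1, 2], ∀ b ∈ [-1, 0, 1, 2], ∀ c ∈ [-1, 0, 1, 2], realP a b c →
      (d.1 - a = e.1 ∧ d.2.1 - b = e.2.1 ∧ d.2.2 - c = e.2.2) ∨
        ∃ a' ∈ [-1, 0, 1, 2], ∃ b' ∈ [-1, 0, 1, 2], ∃ c' ∈ [-1, 0, 1, 2], realP a' b' c' ∧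
          realP (d.1 - a + a') (d.2.1 - b + b') (d.2.2 - c + c') := by
  simp only [List.mem_cons, List.not_mem_nil, or_false, Prod.mk.injEq] at hde
  rcases hde with ⟨rfl, rfl⟩ | ⟨rfl, rfl⟩ | ⟨rfl, rfl⟩ <;> decide +kernel

lemma real_step {U : Set (Fin 3 → ℤ)} (h : IsTilingBy bump U) {u : Fin 3 → ℤ} (hu : u ∈ U)
    (d e : ℤ × ℤ × ℤ) (hde : (d, e) ∈ [((2, 1, 1), (3, 0, 0)), ((1, 2, 1), (0, 3, 0)),
      ((1, 1, 2), (0, 0, 3))]) : u + ![e.1, e.2.1, e.2.2] ∈ U := by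
  obtain ⟨h1, h2⟩ := real_chk d e hde
  obtain ⟨⟨u', r⟩, ⟨hu', hr, h3⟩, -⟩ := h (u + ![d.1, d.2.1, d.2.2])
  have e0 : u' 0 + r 0 = u 0 + d.1 := congrFun h3 0
  have e1 : u' 1 + r 1 = u 1 + d.2.1 := congrFun h3 1
  have e2 : u' 2 + r 2 = u 2 + d.2.2 := congrFun h3 2
  have hr' : realP (r 0) (r 1) (r 2) := real_mem.1 hr
  rcases h2 (r 0) (by simp [realP] at hr' ⊢; omega) (r 1) (by simp [realP] at hr' ⊢; omega) (r 2)
    (by simp [realP] at hr' ⊢; omega) hr' with h4 | ⟨a, -, b, -, c, -, h4, h5⟩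
  · convert hu' using 1
    funext i
    fin_cases i <;> simp <;> omega
  · have h6 := (h (u' + ![a, b, c])).unique (y₁ := (u', ![a, b, c]))
      (y₂ := (u, ![d.1 - r 0 + a, d.2.1 - r 1 + b, d.2.2 - r 2 + c])) ⟨hu', real_mem.2 h4, rfl⟩
      ⟨hu, real_mem.2 h5, by funext i; fin_cases i <;> simp <;> omega⟩
    obtain rfl : u' = u := congrArg Prod.fst h6
    rw [add_left_cancel e0, add_left_cancel e1, add_left_cancel e2] at hr'
    exact absurd hr' h1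

lemma real_oct {U : Set (Fin 3 → ℤ)} (h : IsTilingBy bump U) {u : Fin 3 → ℤ} (hu : u ∈ U)
    (w : Fin 3 → ℤ) (hw : ∀ i, (3 : ℤ) ∣ w i - u i ∧ u i ≤ w i) : w ∈ U := by
  have key : ∀ e : Fin 3 → ℤ, (∀ u ∈ U, u + e ∈ U) → ∀ u ∈ U, ∀ n : ℕ, u + n • e ∈ U := by
    intro e he u hu n
    induction n with
    | zero => simpa using hu
    | succ n ih => rw [succ_nsmul, ← add_assoc]; exact he _ ih
  have h0 := key _ fun u hu => real_step h hu (2, 1, 1) (3, 0, 0) (by simp)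
  have h1 := key _ fun u hu => real_step h hu (1, 2, 1) (0, 3, 0) (by simp)
  have h2 := key _ fun u hu => real_step h hu (1, 1, 2) (0, 0, 3) (by simp)
  convert h2 _ (h1 _ (h0 u hu ((w 0 - u 0) / 3).toNat) ((w 1 - u 1) / 3).toNat)
    ((w 2 - u 2) / 3).toNat using 1
  have a0 := hw 0
  have a1 := hw 1
  have a2 := hw 2
  funext i
  simp only [Pi.add_apply, nsmul_eq_mul]
  fin_cases i <;> simp <;> omega

/-- If the translates `u + bump`, `u ∈ U`, partition `ℤ³` then the dent of `u + bump` in direction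
`i` can only be filled by `u + 3 e_i + bump` (finite check: for `r ∈ bump`, `h = dent i - r`, either
`h + bump` meets `bump` or `h = 3 e_i`; better do it on triples of integers). So `U` is closed under
`+ 3 e_i`. For `u, u' ∈ U` go far into the common positive octant: a cell there is covered from
`u + 3 ℕ³` and from `u' + 3 ℕ³` because `bump` is a complete residue system modulo `3`. -/
theorem rigid_bump {U : Set (Fin 3 → ℤ)} (h : IsTilingBy bump U) :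
    ∀ u ∈ U, ∀ u' ∈ U, ∀ i, (3 : ℤ) ∣ u i - u' i := by
  intro u hu u' hu' i
  let x : Fin 3 → ℤ := fun i => max (u i) (u' i) + 2
  have key : ∀ u ∈ U, (∀ i, u i + 2 ≤ x i) → ∃ r ∈ bump, x - r ∈ U ∧ (3 : ℤ) ∣ x i - u i - r i := by
    intro u hu hx
    obtain ⟨r, hr, h1⟩ := real_res (x - u)
    refine ⟨r, hr, real_oct h hu _ fun j => ?_, (h1 i).1⟩
    have := h1 j
    have := hx j
    simp only [Pi.sub_apply] at *
    omega
  obtain ⟨r, hr, h1, h2⟩ := key u hu fun i => by simp [x]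
  obtain ⟨r', hr', h1', h2'⟩ := key u' hu' fun i => by simp [x]
  have h3 := (h x).unique (y₁ := (x - r, r)) (y₂ := (x - r', r')) ⟨h1, hr, by simp⟩
    ⟨h1', hr', by simp⟩
  obtain rfl : r = r' := congrArg Prod.snd h3
  omega

lemma real_split {y y' r r' : Fin 3 → ℤ} (hr : r ∈ bump) (hr' : r' ∈ bump)
    (h : 3 • y + r = 3 • y' + r') : y = y' ∧ r = r' := by
  have h1 : ∀ i, 3 * y i + r i = 3 * y' i + r' i := fun i => by simpa using congrFun h i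
  exact ⟨funext fun i => by
      have := congrFun (real_uniq hr hr' fun i => by have := h1 i; omega) i
      have := h1 i
      omega,
    real_uniq hr hr' fun i => by have := h1 i; omega⟩

/-- `T' = 3 T + bump`. A tiling `B` by `T'` gives the tiling `B + 3 T` by `bump` (two
representations `b + 3 t = b' + 3 t'` coincide); so `B = b₀ + 3 A` with `A` a tiling by `T`. -/
theorem AperTile.exists_rigid {T : Finset (Fin 3 → ℤ)} (h : AperTile T) :
    ∃ T', AperTile T' ∧ Rigid T' := by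
  obtain ⟨⟨A, hA⟩, h2⟩ := h
  obtain ⟨⟨a₀, t₀⟩, ⟨-, ht₀, -⟩, -⟩ := hA 0
  have h0 : (0 : Fin 3 → ℤ) ∈ bump := real_mem.2 (by simp [realP])
  let T' := image₂ (fun t r => 3 • t + r) T bump
  have hT' : ∀ t ∈ T, ∀ r ∈ bump, 3 • t + r ∈ T' := fun t ht r hr => mem_image₂_of_mem ht hr
  have hR : Rigid T' := by
    intro B hB b hb b' hb' i
    have h3 : IsTilingBy bump {u | ∃ b ∈ B, ∃ t ∈ T, b + 3 • t = u} := fun x => by
      obtain ⟨⟨c, s⟩, ⟨hc, hs, h4⟩, h5⟩ := hB x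
      obtain ⟨t, ht, r, hr, rfl⟩ := mem_image₂.1 hs
      refine ⟨(c + 3 • t, r), ⟨⟨c, hc, t, ht, rfl⟩, hr, by rw [add_assoc]; exact h4⟩, ?_⟩
      rintro ⟨_, r'⟩ ⟨⟨c', hc', t', ht', rfl⟩, hr', h6⟩
      have h7 := h5 (c', 3 • t' + r') ⟨hc', hT' _ ht' _ hr', by rw [← add_assoc]; exact h6⟩
      obtain ⟨rfl, h8⟩ := Prod.mk.inj h7
      obtain ⟨rfl, rfl⟩ := real_split hr' hr h8
      rfl
    simpa using rigid_bump h3 _ ⟨b, hb, t₀, ht₀, rfl⟩ _ ⟨b', hb', t₀, ht₀, rfl⟩ i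
  refine ⟨T', ⟨⟨(fun a => 3 • a) '' A, fun x => ?_⟩, fun B hB ⟨H, hH, h3⟩ => ?_⟩, hR⟩
  · obtain ⟨r, hr, h3⟩ := real_res x
    choose y hy using fun i => (h3 i).1
    obtain ⟨⟨a, t⟩, ⟨ha, ht, h4⟩, h5⟩ := hA y
    have hx : 3 • y + r = x := funext fun i => by have := hy i; simp; omega
    refine ⟨(3 • a, 3 • t + r), ⟨⟨a, ha, rfl⟩, hT' _ ht _ hr, ?_⟩, ?_⟩
    · rw [← hx, ← h4, smul_add, add_assoc]
    · rintro ⟨_, s⟩ ⟨⟨a', ha', rfl⟩, hs, h6⟩
      obtain ⟨t', ht', r', hr', rfl⟩ := mem_image₂.1 hs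
      obtain ⟨h7, rfl⟩ := real_split (y := a' + t') (y' := y) hr' hr
        (by rw [hx, ← h6, smul_add, add_assoc])
      obtain ⟨rfl, rfl⟩ := Prod.mk.inj (h5 (a', t') ⟨ha', ht', h7⟩)
      rfl
  · obtain ⟨⟨b₀, s₀⟩, ⟨hb₀, -, -⟩, -⟩ := hB 0
    refine h2 {a | b₀ + 3 • a ∈ B} (fun y => ?_) ⟨H, hH, fun k hk a ha => ?_⟩
    · obtain ⟨⟨c, s⟩, ⟨hc, hs, h4⟩, h5⟩ := hB (b₀ + 3 • y)
      obtain ⟨t, ht, r, hr, rfl⟩ := mem_image₂.1 hs
      choose a ha using hR B hB c hc b₀ hb₀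
      obtain rfl : c = b₀ + 3 • a := funext fun i => by have := ha i; simp; omega
      obtain ⟨h6, rfl⟩ := real_split (y := a + t) (y' := y) hr h0 (add_left_cancel (a := b₀)
        (by rw [add_zero, ← h4, smul_add, add_assoc, add_assoc]))
      refine ⟨(a, t), ⟨hc, ht, h6⟩, ?_⟩
      rintro ⟨a', t'⟩ ⟨ha', ht', h7⟩
      obtain ⟨h8, h9⟩ := Prod.mk.inj (h5 (b₀ + 3 • a', 3 • t' + 0) ⟨ha', hT' _ ht' _ h0,
        by rw [← h7, smul_add, add_zero, add_assoc]⟩)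
      rw [(real_split h0 h0 h9).1, (real_split h0 h0 (congrArg (· + 0) (add_left_cancel h8))).1]
    · have := h3 _ (H.nsmul_mem hk 3) _ ha
      rwa [add_left_comm, ← smul_add] at this

lemma real_ae {ι : Type*} [Countable ι] (c : ι → Fin 3 → ℝ) :
    ∀ᵐ x : Fin 3 → ℝ, ∀ j i, ∀ n : ℤ, x i ≠ c j i + n := by
  simp only [MeasureTheory.ae_all_iff]
  exact fun j i n => MeasureTheory.Measure.ae_eval_ne (fun _ => MeasureTheory.volume) i _

theorem isAETilingBy_of_isTilingBy {T : Finset (Fin 3 → ℤ)} {A : Set (Fin 3 → ℤ)}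
    (h : IsTilingBy T A) :
    IsAETilingBy (cubeThickening T) ((fun a i => (a i : ℝ)) '' A) := by
  filter_upwards [real_ae fun _ : Unit => 0] with x hx
  obtain ⟨⟨a, t⟩, ⟨ha, ht, h1⟩, h2⟩ := h fun i => ⌊x i⌋
  refine ⟨_, ⟨⟨a, ha, rfl⟩, t, ht, fun i => ?_⟩, ?_⟩
  · have h3 : (a i : ℝ) + t i = ⌊x i⌋ := by exact_mod_cast congrFun h1 i
    simp only [Pi.sub_apply]
    constructor <;> linarith [Int.floor_le (x i), Int.lt_floor_add_one (x i)]
  · rintro _ ⟨⟨a', ha', rfl⟩, t', ht', h3⟩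
    suffices h4 : a' + t' = fun i => ⌊x i⌋ by
      rw [(Prod.mk.inj (h2 (a', t') ⟨ha', ht', h4⟩)).1]
    funext i
    obtain ⟨h4, h5⟩ := h3 i
    have h6 := hx () i (a' i + t' i + 1)
    simp only [Pi.sub_apply, Pi.zero_apply, zero_add] at h4 h5 h6
    push_cast at h6
    rw [eq_comm, Int.floor_eq_iff, Pi.add_apply]
    push_cast
    exact ⟨by linarith, lt_of_le_of_ne (by linarith) h6⟩

/-- Let `S` be the conull set of `x` such that all `x + z`, `z ∈ ℤ³`, are covered exactly once. For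
`x ∈ S`: `⌈b - x⌉ + t = ⌈b' - x⌉ + t'` implies `b = b'`. So `B` is countable (`T` is nonempty), and
for a.e. `x` no coordinate of `b - x` is an integer; then `⌈B - x⌉` tiles `ℤ³`. -/
theorem ae_isTilingBy {T : Finset (Fin 3 → ℤ)} {B : Set (Fin 3 → ℝ)}
    (h : IsAETilingBy (cubeThickening T) B) :
    ∀ᵐ x : Fin 3 → ℝ, IsTilingBy T ((fun b i => ⌈b i - x i⌉) '' B) := by
  have hS : ∀ᵐ x : Fin 3 → ℝ, ∀ z : Fin 3 → ℤ, ∃! b, b ∈ B ∧
      x + (fun i => (z i : ℝ)) - b ∈ cubeThickening T := MeasureTheory.ae_all_iff.2 fun z =>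
    (MeasureTheory.measurePreserving_add_right MeasureTheory.volume _).quasiMeasurePreserving.ae h
  have key : ∀ x : Fin 3 → ℝ, (∀ z : Fin 3 → ℤ, ∃! b, b ∈ B ∧
      x + (fun i => (z i : ℝ)) - b ∈ cubeThickening T) → ∀ b ∈ B, ∀ b' ∈ B, ∀ t ∈ T, ∀ t' ∈ T,
      (fun i => ⌈b i - x i⌉) + t = (fun i => ⌈b' i - x i⌉) + t' → b = b' := by
    intro x hx b hb b' hb' t ht t' ht' e
    have h1 : ∀ b : Fin 3 → ℝ, ∀ t ∈ T, x + (fun i => ((((fun i => ⌈b i - x i⌉) + t :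
        Fin 3 → ℤ) i : ℤ) : ℝ)) - b ∈ cubeThickening T := fun b t ht => ⟨t, ht, fun i => by
      simp only [Pi.sub_apply, Pi.add_apply]
      push_cast
      constructor <;> linarith [Int.le_ceil (b i - x i), Int.ceil_lt_add_one (b i - x i)]⟩
    exact (hx _).unique ⟨hb, h1 b t ht⟩ ⟨hb', e ▸ h1 b' t' ht'⟩
  have hB : B.Countable := by
    obtain ⟨x, hx⟩ := hS.exists
    obtain ⟨-, ⟨-, t, ht, -⟩, -⟩ := hx 0
    exact Set.countable_of_injective_of_countable_image (f := fun b i => ⌈b i - x i⌉)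
      (fun b hb b' hb' e => key x hx b hb b' hb' t ht t ht (congrArg (· + t) e))
      (Set.to_countable _)
  have := hB.to_subtype
  filter_upwards [hS, real_ae fun b : B => b.1] with x hx hx' y
  obtain ⟨b, ⟨hb, t, ht, h1⟩, -⟩ := hx y
  have h2 : (fun i => ⌈b i - x i⌉) + t = y := funext fun i => by
    obtain ⟨h4, h5⟩ := h1 i
    have h6 := hx' ⟨b, hb⟩ i (t i + 1 - y i)
    simp only [Pi.sub_apply, Pi.add_apply] at h4 h5 h6
    push_cast at h6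
    rw [Pi.add_apply, ← eq_sub_iff_add_eq, Int.ceil_eq_iff]
    push_cast
    exact ⟨lt_of_le_of_ne (by linarith) fun e => h6 (by linarith), by linarith⟩
  refine ⟨(_, t), ⟨⟨b, hb, rfl⟩, ht, h2⟩, ?_⟩
  rintro ⟨_, t'⟩ ⟨⟨b', hb', rfl⟩, ht', h3⟩
  obtain rfl := key x hx b' hb' b hb t' ht' t ht (h3.trans h2.symm)
  exact Prod.ext rfl (add_left_cancel (h3.trans h2.symm))

/-- If `v i` is not an integer then `⌈b i + v i - x i⌉ - ⌈b i - x i⌉` takes two consecutive values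
on nonempty open sets of `x`; both would be divisible by `3`. -/
theorem Rigid.int_of_period {T : Finset (Fin 3 → ℤ)} (hT : Rigid T) {B : Set (Fin 3 → ℝ)}
    (h : IsAETilingBy (cubeThickening T) B) {v : Fin 3 → ℝ} (hv : ∀ b ∈ B, v + b ∈ B) (i : Fin 3) :
    ∃ z : ℤ, v i = z := by
  by_contra hne
  obtain ⟨x₀, b, ⟨hb, -⟩, -⟩ := h.exists
  have hd := MeasureTheory.Measure.dense_of_ae (ae_isTilingBy h)
  have key : ∀ α β : ℝ, α < β → ∃ s, α < s ∧ s < β ∧ (3 : ℤ) ∣ ⌈v i + s⌉ - ⌈s⌉ := by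
    intro α β hαβ
    obtain ⟨x, hx, h1⟩ := hd.exists_mem_open (U := (fun x => b i - x i) ⁻¹' Set.Ioo α β)
      (isOpen_Ioo.preimage (by fun_prop))
      ⟨fun _ => b i - (α + β) / 2, by simp only [Set.mem_preimage, Set.mem_Ioo]
                                      constructor <;> linarith⟩
    refine ⟨_, h1.1, h1.2, ?_⟩
    simpa only [Pi.add_apply, add_sub_assoc] using hT _ hx _ ⟨_, hv b hb, rfl⟩ _ ⟨b, hb, rfl⟩ i
  have h0 : (⌊v i⌋ : ℝ) < v i := lt_of_le_of_ne (Int.floor_le _) fun e => hne ⟨_, e.symm⟩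
  have h1 := Int.lt_floor_add_one (v i)
  obtain ⟨s, a1, a2, a3⟩ := key 0 (⌊v i⌋ + 1 - v i) (by linarith)
  obtain ⟨s', b1, b2, b3⟩ := key (⌊v i⌋ + 1 - v i) 1 (by linarith)
  rw [show ⌈s⌉ = 1 from Int.ceil_eq_iff.2 (by push_cast; constructor <;> linarith),
    show ⌈v i + s⌉ = ⌊v i⌋ + 1 from Int.ceil_eq_iff.2 (by push_cast; constructor <;> linarith)] at a3
  rw [show ⌈s'⌉ = 1 from Int.ceil_eq_iff.2 (by push_cast; constructor <;> linarith),
    show ⌈v i + s'⌉ = ⌊v i⌋ + 2 from Int.ceil_eq_iff.2 (by push_cast; constructor <;> linarith)] at b3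
  omega

/-- The integer vectors in the lattice form a subgroup of finite index (it contains `d ℤ³` for the
determinant `d ≠ 0` of the integer matrix of the basis; `Matrix.adjugate`). -/
theorem AperTile.not_latticePeriodic {T : Finset (Fin 3 → ℤ)} (h : AperTile T) (hT : Rigid T)
    (B : Set (Fin 3 → ℝ)) (hB : IsAETilingBy (cubeThickening T) B) : ¬ IsLatticePeriodic B := by
  rintro ⟨b, hb⟩
  choose m hm using fun j => hT.int_of_period hB (hb (b j) (Submodule.subset_span ⟨j, rfl⟩))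
  let φ : (Fin 3 → ℤ) →ₗ[ℤ] Fin 3 → ℝ := (Int.castAddHom ℝ).toIntLinearMap.compLeft (Fin 3)
  have e : φ ∘ m = b := funext fun j => funext fun i => (hm j i).symm
  have hli : LinearIndependent ℤ m :=
    LinearIndependent.of_comp φ (e ▸ b.linearIndependent.restrict_scalars' ℤ)
  have hf := Submodule.finiteQuotientOfFreeOfRankEq (Submodule.span ℤ (Set.range m))
    (by rw [finrank_span_eq_card hli, Module.finrank_fintype_fun_eq_card])
  obtain ⟨x, hx⟩ := (ae_isTilingBy hB).exists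
  refine h.2 _ hx ⟨(Submodule.span ℤ (Set.range m)).toAddSubgroup,
    @AddSubgroup.finiteIndex_of_finite_quotient _ _ _ hf, ?_⟩
  rintro k hk _ ⟨β, hβ, rfl⟩
  refine ⟨φ k + β, hb _ ?_ β hβ, funext fun i => ?_⟩
  · rw [← e, Set.range_comp, ← Submodule.map_span]
    exact Submodule.mem_map_of_mem hk
  · change ⌈(k i : ℝ) + β i - x i⌉ = k i + ⌈β i - x i⌉
    rw [add_sub_assoc, Int.ceil_intCast_add]

theorem final_of_aperTile {T : Finset (Fin 3 → ℤ)} (h : AperTile T) :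
    ∃ T : Finset (Fin 3 → ℤ), T.Nonempty ∧
      (∃ A : Set (Fin 3 → ℤ), IsTilingBy T A) ∧
      (∀ A : Set (Fin 3 → ℤ), IsTilingBy T A → ¬ IsFullyPeriodic A) ∧
      (∃ B : Set (Fin 3 → ℝ), IsAETilingBy (cubeThickening T) B) ∧
      ∀ B : Set (Fin 3 → ℝ), IsAETilingBy (cubeThickening T) B → ¬ IsLatticePeriodic B := by
  obtain ⟨T', h1, h2⟩ := h.exists_rigid
  obtain ⟨A, hA⟩ := h1.1
  obtain ⟨p, hp, -⟩ := hA 0
  exact ⟨T', ⟨p.2, hp.2.1⟩, h1.1, h1.2, ⟨_, isAETilingBy_of_isTilingBy hA⟩,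
    h1.not_latticePeriodic h2⟩

end Crest.Agent.R46
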