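import Crest.Agent.R46.Eqs

/-!
# R46: what the system says about a solution
-/

set_option autoImplicit false
open Crest.CombinatoricsR.Tiling Finset

namespace Crest.Agent.R46

namespace Puzzle
variable {Z : Puzzle}

/-- The consequences of the equations. -/
structure Snd (P : Par Z.I Z.V) (T : P.Fr) (α : P.X → P.H)
    (st : ∀ n, Bool → Pt (P.a n) (P.s n) → Bool) : Prop where
  frame : ∀ n, FrameData (T n) (st n)
  litR : ∀ n c, ∀ o ∈ P.O T, st (.inl n) true (P.pr o (.inl n)) = false →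
    P.Slope α (lit n c) (Z.dir (.inl n)) o 0
  litV : ∀ n, ∀ o ∈ P.O T, st (.inl n) true (P.pr o (.inl n)) = true →
    ∃ c, P.Slope α (lit n c) (Z.dir (.inl n)) o 1
  ptr : ∀ o ∈ P.O T, P.Slope α Z.piv (-Z.ν Z.n₀, 1) o 0
  pdir : ∀ o ∈ P.O T, P.Slope α Z.piv (1, 0) o
    (∑ d, if st (.inr d) true (P.pr o (.inr d)) then 1 else 0)
  main : ∀ c, c ∉ Z.Rel → ∀ o ∈ P.O T, ∀ ζ : P.R, (∀ d, ζ (.inr d) = 0) → o - (0, ζ) ∈ P.O T →
    ∃ n, α (o - (0, ζ)) (lit n (c n)) = α o (lit n (c n))
  label : ∀ c, ∀ o ∈ P.O T, ∀ ζ : P.R, (∀ n, n ≠ .inl Z.n₀ → n ≠ .inr (Z.lab c) → ζ n = 0) →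
    o - (0, ζ) ∈ P.O T →
    α (o - (0, ζ)) Z.piv = α o Z.piv ∨ α (o - (0, ζ)) (lit Z.n₀ c) = α o (lit Z.n₀ c)

/-- `occ_sound`, then `aux_sound` (with `span_dir_tr`) for each `n`, `b` gives `st n b`. The clauses
are read with `clause_iff` (`inj_k1` …; `hper` by `Slope.per`, for `piv` by `pper`, `tie_iff`),
`Slope.step`, `hole_iff'`, and `0 ≠ 1` in `ZMod (r v)` for `v ≠ piv`: `k1` gives `good`, `k2` gives
`litR`, `k3` gives `litV`, `k4` for the pattern of states at `o` gives the step of `piv` at all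
`o + M (j • (1, 0))` (these have the same types), hence `pdir`. `nand_sound` gives the rest. -/
theorem Eqs.snd {q₀ : ℕ} {P : Par Z.I Z.V} (hP : Z.Fits q₀ P) {A : Set (P.X × P.H)}
    (h : Z.Eqs P A) : ∃ T α st, A = Graph (P.O T) α ∧ Snd P T α st := by
  classical
  obtain ⟨T, α, hT, rfl⟩ := P.occ_sound h.occ
  choose st hs1 hs2 hs3 using fun n b =>
    Par.aux_sound hT (hP.2 _ (Z.aux_ne_piv n b)).2.1 (Z.span_dir_tr n) (h.gad n b)
  have h01 : ∀ v, v ≠ Z.piv → (1 : ZMod (P.r v)) ≠ 0 := fun v hv => by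
    have : Fact (1 < P.r v) := ⟨(hP.2 v hv).2.1⟩
    exact one_ne_zero
  have hlit := fun n c => (Par.hole_iff' hT (hP.2 _ (Z.lit_ne_piv n c)).2.1 _).1 (h.hole n c)
  have hlitp : ∀ n c, ∀ o ∈ P.O T, α (o - P.M ((P.r (lit n c) : ℤ) • Z.dir (.inl n))) (lit n c) =
      α o (lit n c) := fun n c o ho => (hlit n c o ho).elim (·.per) (·.per)
  have hstep : ∀ {v w o σ τ}, P.Slope α v w o σ → α (o - P.M w) v + ((τ : ℤ) : ZMod (P.r v)) = α o v →
      (τ : ZMod (P.r v)) = σ := fun h1 h2 => add_left_cancel (h2.trans h1.step.symm)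
  have hslope : ∀ v w (σ : P.X → ℤ), (∀ o w', σ (o + P.M w') = σ o) →
      (∀ o ∈ P.O T, α (o - P.M w) v + (σ o : ZMod (P.r v)) = α o v) →
      ∀ o ∈ P.O T, P.Slope α v w o (σ o) := by
    intro v w σ hσ hh o ho j
    have key : ∀ j : ℤ, α (o + P.M ((j + 1) • w)) v = α (o + P.M (j • w)) v + (σ o : ZMod _) := by
      intro j
      have := hh (o + P.M ((j + 1) • w)) (P.add_M_mem.2 ho)
      rw [hσ, add_smul, one_smul, map_add, ← add_assoc, add_sub_cancel_right] at this
      rw [add_smul, one_smul, map_add, ← add_assoc, this]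
    induction j using Int.induction_on with
    | zero => simp
    | succ i ih => rw [key, ih]; push_cast; ring
    | pred i ih =>
      have := key (-(i : ℤ) - 1)
      rw [sub_add_cancel, ih] at this
      push_cast at this ⊢
      linear_combination -this
  refine ⟨T, α, fun n b => st n b, rfl, fun n => ⟨hT n, hs2 n, hs3 n, fun t ht hV => ?_⟩,
    fun n c o ho hR => ?_, fun n o ho hV => ?_, ?_, ?_, fun c hc o ho ζ hζ ho' => ?_,
    fun c o ho ζ hζ ho' => ?_⟩
  · obtain ⟨o, ho, rfl⟩ := hT.nonempty ht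
    obtain ⟨b, hb⟩ := (Par.clause_iff hT (Z.inj_k1 n) _ fun b o ho => (hs1 n b o ho).per).1
      (h.k1 n) o ho
    have := hstep (hs1 n b o ho) hb
    cases b
    · by_contra hc
      simp only [hc] at this
      exact h01 _ (Z.aux_ne_piv n false) (by simpa using this)
    · simp only [hV] at this
      exact (h01 _ (Z.aux_ne_piv n true) (by simpa using this.symm)).elim
  · obtain ⟨b, hb⟩ := (Par.clause_iff hT (Z.inj_k2 n c) _ fun b o ho => by
      cases b; exacts [hlitp n c o ho, (hs1 _ true o ho).per]).1 (h.k2 n c) o ho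
    cases b
    · refine (hlit n c o ho).resolve_right fun h1 => ?_
      exact h01 _ (Z.lit_ne_piv n c) (by simpa using (hstep (τ := 0) h1 hb).symm)
    · have := hstep (τ := 1) (hs1 _ true o ho) hb
      simp only [hR] at this
      exact (h01 _ (Z.aux_ne_piv _ true) (by simpa using this)).elim
  · obtain ⟨b, hb⟩ := (Par.clause_iff hT (Z.inj_k3 n) _ fun b o ho => by
      cases b; exacts [(hs1 _ true o ho).per, hlitp n _ o ho]).1 (h.k3 n) o ho
    cases b with
    | none =>
      have := hstep (τ := 0) (hs1 _ true o ho) hb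
      simp only [hV] at this
      exact (h01 _ (Z.aux_ne_piv _ true) (by simpa using this.symm)).elim
    | some c =>
      refine ⟨c, (hlit n c o ho).resolve_left fun h1 => ?_⟩
      exact h01 _ (Z.lit_ne_piv n c) (by simpa using hstep (τ := 1) h1 hb)
  · refine hslope _ _ (fun _ => 0) (fun _ _ => rfl) fun o ho => ?_
    simpa using (Par.tie_iff hT _ _).1 h.ptr o ho
  · refine hslope _ _ (fun o => ∑ d, if st (.inr d) true (P.pr o (.inr d)) then 1 else 0)
      (fun o w => by simp) fun o ho => ?_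
    obtain ⟨b, hb⟩ := (Par.clause_iff hT Z.inj_k4 _ fun b o ho => by
      cases b with
      | none =>
        have := (Par.tie_iff hT _ _).1 h.pper o ho
        rw [← hP.1] at this
        exact this
      | some d => exact (hs1 (.inr d) true o ho).per).1
      (h.k4 fun d => st (.inr d) true (P.pr o (.inr d))) o ho
    cases b with
    | none => exact hb
    | some d =>
      have := hstep (τ := if st (.inr d) true (P.pr o (.inr d)) then 0 else 1)
        (hs1 (.inr d) true o ho) hb
      have h1 := h01 _ (Z.aux_ne_piv (.inr d) true)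
      split_ifs at this
      · exact (h1 (by simpa using this.symm)).elim
      · exact (h1 (by simpa using this)).elim
  · have : Nonempty Z.ι := ⟨Z.n₀⟩
    refine Par.nand_sound hT (h.main c hc ζ) ho ?_ ho'
    funext n
    rw [Finset.sum_apply]
    cases n with
    | inl n =>
      rw [sum_eq_single n (fun m _ hm => Pi.single_eq_of_ne (by simpa using hm.symm) _) (by simp),
        Pi.single_eq_same]
    | inr d => rw [hζ, sum_eq_zero fun m _ => Pi.single_eq_of_ne (by simp) _]
  · obtain ⟨b, hb⟩ := Par.nand_sound hT (h.label c ζ) ho (ζ' := ζ) (by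
      funext n
      rw [Fintype.sum_bool, Pi.add_apply]
      change ζ n = (Pi.single (.inr (Z.lab c)) (ζ _) : P.R) n + (Pi.single (.inl Z.n₀) (ζ _) : P.R) n
      by_cases h1 : n = .inl Z.n₀
      · subst h1
        rw [Pi.single_eq_same, Pi.single_eq_of_ne (by simp), zero_add]
      · by_cases h2 : n = .inr (Z.lab c)
        · subst h2
          rw [Pi.single_eq_same, Pi.single_eq_of_ne (by simp), add_zero]
        · rw [Pi.single_eq_of_ne h1, Pi.single_eq_of_ne h2, hζ n h1 h2, add_zero]) ho'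
    cases b
    · exact Or.inr hb
    · exact Or.inl hb

end Puzzle

/-- `N` is the index of the group of periods, which contains `N • (M w, 0)`. -/
theorem Par.exists_period {I V : Type} {P : Par I V} {T : P.Fr} {α : P.X → P.H}
    (h : IsFullyPeriodic (Graph (P.O T) α)) :
    ∃ N : ℕ, 0 < N ∧ ∀ o ∈ P.O T, ∀ w : ℤ × ℤ, α (o + P.M ((N : ℤ) • w)) = α o := by
  obtain ⟨Λ, hΛ, hp⟩ := h
  refine ⟨Λ.index, Nat.pos_of_ne_zero hΛ.index_ne_zero, fun o ho w => ?_⟩
  have := (hp _ (Λ.nsmul_index_mem (P.M w, 0)) (o, α o) ⟨ho, rfl⟩).2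
  simp only [Prod.smul_mk, smul_zero, Prod.mk_add_mk, zero_add] at this
  rw [this, map_zsmul, natCast_zsmul, add_comm]

end Crest.Agent.R46
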