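import Crest.Agent.R46.Eqs

/-!
# R46: the intended solution
-/

set_option autoImplicit false
open Finset

namespace Crest.Agent.R46

namespace Puzzle
variable {Z : Puzzle}

/-- The symbol shown in column `n` at `y` when `B` tells which frames are good. -/
noncomputable def sym (F : Z.ι → ℤ → Z.S) (B : Z.I → Bool) (y : ℤ × ℤ) (n : Z.ι) : Z.S :=
  if ∀ n', B n' = true then F n (y.1 + Z.ν n * y.2)
  else if h : ∃ d, B (.inr d) = false then F n (h.choose.val : ℤ)
  else if n = Z.n₀ then F n (((y.1 + Z.ν Z.n₀ * y.2 : ℤ) : ZMod Z.p).val : ℤ) else F n 0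

variable (Z) in
def c₁ : Z.I → ℤ
  | .inl _ => 0
  | .inr _ => 1

variable (Z) in
def c₂ : Z.I → ℤ
  | .inl _ => 1
  | .inr _ => Z.ν Z.n₀

variable {P : Par Z.I Z.V} (F : Z.ι → ℤ → Z.S) (st : ∀ n, Bool → Pt (P.a n) (P.s n) → Bool)

/-- The symbol shown in column `n` at the position `o`. -/
noncomputable def symAt (o : P.X) (n : Z.ι) : Z.S :=
  sym F (fun n' => st n' false (P.pr o n')) o.1 n

noncomputable def val (o : P.X) : Z.V → ℤ
  | .inl (n, b) => if st n b (P.pr o n) then P.κ * (Z.c₁ n * o.1.1 + Z.c₂ n * o.1.2) else 0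
  | .inr (.inl (n, c)) =>
    if st (.inl n) true (P.pr o (.inl n)) = true ∧ symAt F st o n = c then P.κ * o.1.2 else 0
  | .inr (.inr _) => P.κ * ∑ d : ZMod Z.p,
    if st (.inr d) true (P.pr o (.inr d)) then o.1.1 + Z.ν Z.n₀ * o.1.2 - (d.val : ℤ) else 0

/-- The intended values. -/
noncomputable def sol (o : P.X) : P.H := fun v => (val F st o v : ZMod (P.r v))

theorem sol_aux (o : P.X) (n : Z.I) (b : Bool) : sol F st o (aux n b) =
    ((if st n b (P.pr o n) then P.κ * (Z.c₁ n * o.1.1 + Z.c₂ n * o.1.2) else 0 : ℤ) : ZMod _) := rfl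

theorem sol_lit (o : P.X) (n : Z.ι) (c : Z.S) : sol F st o (lit n c) =
    ((if st (.inl n) true (P.pr o (.inl n)) = true ∧ symAt F st o n = c then P.κ * o.1.2 else 0 :
      ℤ) : ZMod _) := rfl

theorem sol_piv (o : P.X) : sol F st o Z.piv = ((P.κ * ∑ d : ZMod Z.p,
    if st (.inr d) true (P.pr o (.inr d)) then o.1.1 + Z.ν Z.n₀ * o.1.2 - (d.val : ℤ) else 0 :
      ℤ) : ZMod _) := rfl

theorem symAt_dir (o : P.X) (n : Z.ι) (j : ℤ) :
    symAt F st (o + P.M (j • Z.dir (.inl n))) n = symAt F st o n := by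
  have e : (o + P.M (j • Z.dir (.inl n))).1.1 + Z.ν n * (o + P.M (j • Z.dir (.inl n))).1.2 =
      o.1.1 + Z.ν n * o.1.2 := by
    simp [Par.M_apply, dir]; ring
  simp only [symAt, sym, map_add, Par.pr_M, add_zero, e]
  split_ifs with h1 h2 h3
  · rfl
  · rfl
  · subst h3; rw [e]
  · rfl

theorem slope_lit (o : P.X) (n : Z.ι) (c : Z.S) : P.Slope (sol F st) (lit n c) (Z.dir (.inl n)) o
    (if st (.inl n) true (P.pr o (.inl n)) = true ∧ symAt F st o n = c then 1 else 0) := by
  intro j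
  rw [sol_lit, sol_lit, symAt_dir]
  simp only [map_add, Par.pr_M, add_zero]
  split_ifs
  · simp only [Par.M_apply, dir, Prod.fst_add, Prod.snd_add, Prod.smul_snd, smul_eq_mul]
    push_cast
    linear_combination (j : ZMod (P.r (lit n c))) * P.hκ (lit n c)
  · simp

theorem slope_piv (o : P.X) : P.Slope (sol F st) Z.piv (1, 0) o
    (∑ d, if st (.inr d) true (P.pr o (.inr d)) then 1 else 0) := by
  intro j
  rw [sol_piv, sol_piv]
  simp only [map_add, Par.pr_M, add_zero]
  have : (∑ d : ZMod Z.p, if st (.inr d) true (P.pr o (.inr d)) then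
      (o + P.M (j • (1, 0))).1.1 + Z.ν Z.n₀ * (o + P.M (j • (1, 0))).1.2 - (d.val : ℤ) else 0) =
      (∑ d : ZMod Z.p, if st (.inr d) true (P.pr o (.inr d)) then
        o.1.1 + Z.ν Z.n₀ * o.1.2 - (d.val : ℤ) else 0) +
      P.m * j * ∑ d : ZMod Z.p, if st (.inr d) true (P.pr o (.inr d)) then 1 else 0 := by
    rw [mul_sum, ← sum_add_distrib]
    refine sum_congr rfl fun d _ => ?_
    split_ifs
    · simp [Par.M_apply]; ring
    · simp
  rw [this]
  generalize (∑ d : ZMod Z.p, if st (.inr d) true (P.pr o (.inr d)) then 1 else 0 : ℤ) = a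
  generalize (∑ d : ZMod Z.p, if st (.inr d) true (P.pr o (.inr d)) then
        o.1.1 + Z.ν Z.n₀ * o.1.2 - (d.val : ℤ) else 0) = b
  push_cast
  linear_combination (j : ZMod (P.r Z.piv)) * (a : ZMod (P.r Z.piv)) * P.hκ Z.piv

theorem slope_piv_tr (o : P.X) : P.Slope (sol F st) Z.piv (-Z.ν Z.n₀, 1) o 0 := by
  intro j
  have e : (o + P.M (j • (-Z.ν Z.n₀, 1))).1.1 + Z.ν Z.n₀ * (o + P.M (j • (-Z.ν Z.n₀, 1))).1.2 =
      o.1.1 + Z.ν Z.n₀ * o.1.2 := by
    simp [Par.M_apply]; ring
  rw [sol_piv, sol_piv, e]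
  simp

variable {st} {T : P.Fr} {q₀ : ℕ}

theorem bij_of_frame (hT : ∀ n, FrameData (T n) (st n)) : P.Bij T := fun n => (hT n).bij

theorem sol_gad (hP : Z.Fits q₀ P) (hT : ∀ n, FrameData (T n) (st n)) (n : Z.I) (b : Bool) :
    P.AuxEqs n b (aux n b) (Z.dir n) (Z.tr n) (Graph (P.O T) (sol F st)) ∧
      ∀ o, P.Slope (sol F st) (aux n b) (Z.dir n) o (if st n b (P.pr o n) then 1 else 0) :=
  Par.aux_compl (bij_of_frame hT) (hP.2 _ (Z.aux_ne_piv n b)).2.1 ((hT n).st_eq b) ((hT n).flat b)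
    (c₁ := Z.c₁ n) (c₂ := Z.c₂ n) (by cases n <;> simp [c₁, c₂, dir])
    (by cases n <;> simp [c₁, c₂, tr]) fun o => sol_aux F st o n b

/-- `clause_iff` with `inj_k1`, `Slope.per`, `Slope.step`, `FrameData.good`. -/
theorem sol_k1 (hP : Z.Fits q₀ P) (hT : ∀ n, FrameData (T n) (st n)) (n : Z.I) :
    Tiles (Graph (P.O T) (sol F st)) (P.clause (aux n) (Z.dir n) fun b => if b then 0 else 1) := by
  refine (Par.clause_iff (bij_of_frame hT) (Z.inj_k1 n) _
    fun b o _ => ((sol_gad F hP hT n b).2 o).per).2 fun o ho => ?_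
  cases hV : st n true (P.pr o n)
  · exact ⟨true, by simpa [hV] using ((sol_gad F hP hT n true).2 o).step⟩
  · exact ⟨false, by simpa [(hT n).good _ (ho n) hV] using ((sol_gad F hP hT n false).2 o).step⟩

theorem sol_hole (hP : Z.Fits q₀ P) (hT : ∀ n, FrameData (T n) (st n)) (n : Z.ι) (c : Z.S) :
    Tiles (Graph (P.O T) (sol F st)) (P.hole (lit n c) (Z.dir (.inl n))) := by
  refine (Par.hole_iff' (bij_of_frame hT) (hP.2 _ (Z.lit_ne_piv n c)).2.1 _).2 fun o _ => ?_
  have := slope_lit F st o n c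
  split_ifs at this
  exacts [Or.inr this, Or.inl this]

theorem sol_k2 (hP : Z.Fits q₀ P) (hT : ∀ n, FrameData (T n) (st n)) (n : Z.ι) (c : Z.S) :
    Tiles (Graph (P.O T) (sol F st))
      (P.clause (fun b : Bool => if b then aux (.inl n) true else lit n c)
        (Z.dir (.inl n)) fun b => if b then 1 else 0) := by
  refine (Par.clause_iff (bij_of_frame hT) (Z.inj_k2 n c) _ fun b o _ => by
    cases b; exacts [(slope_lit F st o n c).per, ((sol_gad F hP hT _ true).2 o).per]).2
    fun o _ => ?_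
  cases hV : st (.inl n) true (P.pr o (.inl n))
  · have := (slope_lit F st o n c).step
    rw [if_neg (by simp [hV])] at this
    exact ⟨false, this⟩
  · have := ((sol_gad F hP hT (.inl n) true).2 o).step
    rw [if_pos hV] at this
    exact ⟨true, this⟩

theorem sol_k3 (hP : Z.Fits q₀ P) (hT : ∀ n, FrameData (T n) (st n)) (n : Z.ι) :
    Tiles (Graph (P.O T) (sol F st))
      (P.clause (fun o : Option Z.S => o.elim (aux (.inl n) true) (lit n))
        (Z.dir (.inl n)) fun o => o.elim 0 fun _ => 1) := by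
  refine (Par.clause_iff (bij_of_frame hT) (Z.inj_k3 n) _ fun b o _ => by
    cases b; exacts [((sol_gad F hP hT _ true).2 o).per, (slope_lit F st o n _).per]).2
    fun o _ => ?_
  cases hV : st (.inl n) true (P.pr o (.inl n))
  · have := ((sol_gad F hP hT (.inl n) true).2 o).step
    rw [if_neg (by simp [hV])] at this
    exact ⟨none, this⟩
  · have := (slope_lit F st o n (symAt F st o n)).step
    rw [if_pos ⟨hV, rfl⟩] at this
    exact ⟨some (symAt F st o n), this⟩

theorem sol_ptr (hT : ∀ n, FrameData (T n) (st n)) :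
    Tiles (Graph (P.O T) (sol F st)) (P.tie Z.piv (-Z.ν Z.n₀, 1)) := by
  refine (Par.tie_iff (bij_of_frame hT) _ _).2 fun o _ => ?_
  simpa using (slope_piv_tr F st o).step

theorem sol_pper (hP : Z.Fits q₀ P) (hT : ∀ n, FrameData (T n) (st n)) :
    Tiles (Graph (P.O T) (sol F st)) (P.tie Z.piv ((Z.p : ℤ) • ((1, 0) : ℤ × ℤ))) := by
  refine (Par.tie_iff (bij_of_frame hT) _ _).2 fun o _ => ?_
  have := (slope_piv F st o).per
  rwa [show ((P.r Z.piv : ℕ) : ℤ) = Z.p by rw [hP.1]] at this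

theorem sol_k4 (hP : Z.Fits q₀ P) (hT : ∀ n, FrameData (T n) (st n)) (b : ZMod Z.p → Bool) :
    Tiles (Graph (P.O T) (sol F st))
      (P.clause (fun o : Option (ZMod Z.p) => o.elim Z.piv fun d => aux (.inr d) true) (1, 0)
        fun o => o.elim (∑ d, if b d then 1 else 0) fun d => if b d then 0 else 1) := by
  refine (Par.clause_iff (bij_of_frame hT) Z.inj_k4 _ fun i o _ => by
    cases i; exacts [(slope_piv F st o).per, ((sol_gad F hP hT (.inr _) true).2 o).per]).2
    fun o _ => ?_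
  by_cases hb : ∀ d, st (.inr d) true (P.pr o (.inr d)) = b d
  · have := (slope_piv F st o).step
    simp only [hb] at this
    exact ⟨none, this⟩
  · push Not at hb
    obtain ⟨d, hd⟩ := hb
    have := ((sol_gad F hP hT (.inr d) true).2 o).step
    have e : (if st (.inr d) true (P.pr o (.inr d)) then 1 else 0 : ℤ) = if b d then 0 else 1 := by
      revert hd
      cases st (.inr d) true (P.pr o (.inr d)) <;> cases b d <;> simp
    rw [e] at this
    exact ⟨some d, this⟩

end Puzzle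

end Crest.Agent.R46
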