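import Crest.Agent.R46.Snd

/-!
# R46: a periodic solution of the system gives a periodic solution of the puzzle with defects
-/

set_option autoImplicit false
open Crest.CombinatoricsR.Tiling Finset

namespace Crest.Agent.R46

namespace Puzzle
variable {Z : Puzzle}

/-- `FrameData.exists_mixed` gives for each frame `n` a variable type `t n` and a reference type
`t' n` in the same fibre; `ζ n = (t n).2.2 - (t' n).2.2`, `o₀ = L t`. For any set `B` of frames,
`o₀ + M w - (0, ζ restricted to B)` is in `O` and has type `t' n` for `n ∈ B`, `t n` otherwise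
(`pr_fib`). Let `F n k` be a symbol `c` such that `lit n c` has slope `1` at `o₀ + M (k, 0)`
(choose as a function of the predicate on `c`, which is `N`-periodic in `k`, so that `F` is
periodic). `ζ₁` = `ζ` on the columns, `0` on the hosts. `Act n i j` says that `lit n c`,
`c = F n (i + ν n * j)`, has different values at `o₀ + M (i, j)` and `o₀ + M (i, j) - (0, ζ₁)`.
The period is `N * ∏ v, r v`. `rare`: `(k - ν n * j, j) = (k, 0) + j • dir n`, slopes `1` and `0`,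
`q = r (lit n c)`. `Labelled`: for `d` let `ζ₂` = `ζ` on `inl n₀`, `inr d`. If `lab (F n₀ k) = d`
take `j ∈ {0, 1}` where the values of `lit n₀ c` differ; `label`, `ptr` give that `piv` has the same
value at `o₀ + M (k, 0)` and `o₀ + M (k, 0) - (0, ζ₂)`; by `pdir` the slopes along `(1, 0)` at `o₀`
and `o₀ - (0, ζ₂)` are `p` and `p - 1`; so `p ∣ D + k` with `D` depending on `d` only. -/
theorem Snd.defect {q₀ : ℕ} {P : Par Z.I Z.V} (hP : Z.Fits q₀ P) {T : P.Fr} {α : P.X → P.H}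
    {st : ∀ n, Bool → Pt (P.a n) (P.s n) → Bool} (h : Snd P T α st) {N : ℕ} (hN : 0 < N)
    (hper : ∀ o ∈ P.O T, ∀ w : ℤ × ℤ, α (o + P.M ((N : ℤ) • w)) = α o) :
    ∃ Q F Act, Z.Defect q₀ Q F Act ∧ Z.Labelled F := by
  classical
  choose t ht t' ht' hV hR h1 h2 using fun n => (h.frame n).exists_mixed (P.a2 n) (P.cop n)
  obtain ⟨ζ, hζ⟩ : ∃ ζ : (Z.I → Prop) → P.R,
      ∀ B n, ζ B n = if B n then (t n).2.2 - (t' n).2.2 else 0 := ⟨_, fun _ _ => rfl⟩
  obtain ⟨o, ho⟩ : ∃ o : ℤ × ℤ → P.X, ∀ w, o w = P.L t + P.M w := ⟨_, fun _ => rfl⟩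
  have oadd : ∀ w w', o (w + w') = o w + P.M w' := fun w w' => by rw [ho, ho, map_add, add_assoc]
  have oadd' : ∀ w w' z, o (w + w') - z = o w - z + P.M w' := fun w w' z => by
    rw [oadd]; abel
  have hpr : ∀ w n, P.pr (o w) n = t n := fun w n => by simp [ho]
  have hprB : ∀ B w n, P.pr (o w - (0, ζ B)) n = if B n then t' n else t n := fun B w n => by
    rw [map_sub, Pi.sub_apply, hpr, P.pr_fib, P.fib_apply, hζ]
    split_ifs
    · exact Prod.ext (by simpa using h1 n) (Prod.ext (by simpa using h2 n) (by simp))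
    · exact sub_zero _
  have hO : ∀ w, o w ∈ P.O T := fun w n => by rw [hpr]; exact ht n
  have hOB : ∀ B w, o w - (0, ζ B) ∈ P.O T := fun B w n => by
    rw [hprB]; split_ifs; exacts [ht' n, ht n]
  have hc : ∀ n k, ∃ c, P.Slope α (lit n c) (Z.dir (.inl n)) (o (k, 0)) 1 := fun n k =>
    h.litV n _ (hO _) (by rw [hpr]; exact hV _)
  choose F₀ hF₀ using hc
  obtain ⟨F, hFd⟩ : ∃ F : Z.ι → ℤ → Z.S, ∀ n k, F n k = F₀ n (k % N) := ⟨_, fun _ _ => rfl⟩
  have hF : ∀ n k, P.Slope α (lit n (F n k)) (Z.dir (.inl n)) (o (k, 0)) 1 := fun n k j => by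
    have e : ((k, 0) : ℤ × ℤ) = (k % N, 0) + (N : ℤ) • (k / N, 0) := by
      ext <;> simp [Int.emod_add_mul_ediv]
    have e3 : o (k, 0) = o (k % N, 0) + P.M ((N : ℤ) • (k / N, 0)) := by rw [← oadd, ← e]
    have e2 : o (k, 0) + P.M (j • Z.dir (.inl n)) =
        o (k % N, 0) + P.M (j • Z.dir (.inl n)) + P.M ((N : ℤ) • (k / N, 0)) := by
      rw [e3, add_right_comm]
    rw [e2, hper _ (P.add_M_mem.2 (hO _)), e3, hper _ (hO _), hFd]
    exact hF₀ n (k % N) j
  have hFper : ∀ n k c, F n (k + N * c) = F n k := fun n k c => by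
    rw [hFd, hFd, Int.add_mul_emod_self_left]
  have hline : ∀ n k j, ((k - Z.ν n * j, j) : ℤ × ℤ) = (k, 0) + j • Z.dir (.inl n) :=
    fun n k j => by ext <;> simp [dir]; ring
  -- the difference along a line
  have hdiff : ∀ (B : Z.I → Prop) n k, B (.inl n) → ∃ D : ℤ, ∀ j : ℤ,
      α (o (k - Z.ν n * j, j) - (0, ζ B)) (lit n (F n k)) =
        α (o (k - Z.ν n * j, j)) (lit n (F n k)) → (P.r (lit n (F n k)) : ℤ) ∣ D + j := by
    intro B n k hB
    obtain ⟨D, hD⟩ := ZMod.intCast_surjective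
      (α (o (k, 0)) (lit n (F n k)) - α (o (k, 0) - (0, ζ B)) (lit n (F n k)))
    refine ⟨D, fun j hj => ?_⟩
    have s0 := h.litR n (F n k) _ (hOB B (k, 0)) (by rw [hprB, if_pos hB]; exact hR _) j
    rw [hline, oadd', oadd, s0, hF n k j] at hj
    rw [← ZMod.intCast_zmod_eq_zero_iff_dvd]
    push_cast at hj ⊢
    rw [hD]
    linear_combination -hj
  let B₁ : Z.I → Prop := fun n => n.isLeft = true
  let Q : ℕ := N * ∏ v, P.r v
  have hQ : (Q : ℤ) = N * ((∏ v, P.r v : ℕ) : ℤ) := by simp [Q]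
  refine ⟨Q, F, fun n i j => α (o (i, j) - (0, ζ B₁)) (lit n (F n (i + Z.ν n * j))) ≠
    α (o (i, j)) (lit n (F n (i + Z.ν n * j))), ⟨?_, ?_, ?_, ?_, ?_, ?_⟩, ?_⟩
  · exact Nat.mul_pos hN (prod_pos fun v _ => NeZero.pos _)
  · intro n k
    rw [hQ, hFper]
  · intro n i j
    have e : ((i + Q, j) : ℤ × ℤ) = (i, j) + (N : ℤ) • (((∏ v, P.r v : ℕ) : ℤ), 0) := by
      ext <;> simp [hQ]
    have e2 : i + Q + Z.ν n * j = i + Z.ν n * j + N * ((∏ v, P.r v : ℕ) : ℤ) := by rw [hQ]; ring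
    rw [e2, hFper, e, oadd', oadd, hper _ (hO _), hper _ (hOB _ _)]
  · intro n i j
    have e : ((i, j + Q) : ℤ × ℤ) = (i, j) + (N : ℤ) • (0, ((∏ v, P.r v : ℕ) : ℤ)) := by
      ext <;> simp [hQ]
    have e2 : i + Z.ν n * (j + Q) = i + Z.ν n * j + N * (Z.ν n * ((∏ v, P.r v : ℕ) : ℤ)) := by
      rw [hQ]; ring
    rw [e2, hFper, e, oadd', oadd, hper _ (hO _), hper _ (hOB _ _)]
  · intro n k
    obtain ⟨D, hD⟩ := hdiff B₁ n k rfl
    have hr := hP.2 _ (Z.lit_ne_piv n (F n k))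
    refine ⟨P.r (lit n (F n k)), D, hr.1, hr.2.2, (dvd_prod_of_mem _ (mem_univ _)).mul_left _,
      fun j hj => hD j ?_⟩
    have e : k - Z.ν n * j + Z.ν n * j = k := sub_add_cancel _ _
    rw [e] at hj
    exact not_not.1 hj
  · intro i j hA
    by_contra hrel
    obtain ⟨n, hn⟩ := h.main _ hrel _ (hO (i, j)) (ζ B₁) (fun d => by simp [hζ, B₁]) (hOB _ _)
    exact hA n hn
  · intro d
    let B₂ : Z.I → Prop := fun n => n = .inl Z.n₀ ∨ n = .inr d
    obtain ⟨D, hD⟩ := ZMod.intCast_surjective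
      (α (o (0, 0)) Z.piv - α (o (0, 0) - (0, ζ B₂)) Z.piv)
    refine ⟨((-D : ℤ) : ZMod Z.p), fun k hk => ?_⟩
    obtain ⟨D', hD'⟩ := hdiff B₂ Z.n₀ k (Or.inl rfl)
    have hr := (hP.2 _ (Z.lit_ne_piv Z.n₀ (F Z.n₀ k))).2.1
    obtain ⟨j, hj⟩ : ∃ j : ℤ, ¬ (P.r (lit Z.n₀ (F Z.n₀ k)) : ℤ) ∣ D' + j := by
      by_contra hh
      push Not at hh
      have := (hh 1).sub (hh 0)
      simp only [add_zero, add_sub_cancel_left] at this
      have := Int.le_of_dvd one_pos this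
      omega
    have hl := (h.label (F Z.n₀ k) _ (hO (k - Z.ν Z.n₀ * j, j)) (ζ B₂)
      (fun n a b => by rw [hζ, if_neg]; rintro (e | e); exacts [a e, b (hk ▸ e)])
      (hOB _ _)).resolve_right fun e => hj (hD' j e)
    have ek : ((k, 0) : ℤ × ℤ) = (0, 0) + k • (1, 0) := by ext <;> simp
    rw [hline, oadd', oadd] at hl
    have p1 := h.ptr _ (hO (k, 0)) j
    have p2 := h.ptr _ (hOB B₂ (k, 0)) j
    have p3 := h.pdir _ (hO (0, 0)) k
    have p4 := h.pdir _ (hOB B₂ (0, 0)) k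
    rw [← oadd, ← ek] at p3
    rw [← oadd', ← ek] at p4
    have c3 : (∑ d' : ZMod Z.p, if st (.inr d') true (P.pr (o (0, 0)) (.inr d')) then 1 else 0 : ℤ) =
        (∑ d' : ZMod Z.p, if st (.inr d') true (P.pr (o (0, 0) - (0, ζ B₂)) (.inr d'))
          then 1 else 0) + 1 := by
      rw [← add_sum_erase _ _ (mem_univ d), ← add_sum_erase _ _ (mem_univ d), hpr, hprB, hV,
        if_pos (show B₂ (.inr d) from Or.inr rfl), hR]
      rw [sum_congr rfl (g := fun d' => if st (.inr d') true (P.pr (o (0, 0) - (0, ζ B₂)) (.inr d'))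
        then 1 else 0)]
      · simp [add_comm]
      · intro d' hd'
        rw [hpr, hprB, if_neg (show ¬ B₂ (.inr d') by simpa [B₂] using ne_of_mem_erase hd')]
    rw [c3] at p3
    change α (_ + P.M (j • ((-Z.ν Z.n₀, 1) : ℤ × ℤ))) _ =
      α (_ + P.M (j • ((-Z.ν Z.n₀, 1) : ℤ × ℤ))) _ at hl
    rw [p1, p2, p3, p4] at hl
    have : (P.r Z.piv : ℤ) ∣ D + k := by
      rw [← ZMod.intCast_zmod_eq_zero_iff_dvd]
      push_cast at hl ⊢
      rw [hD]
      linear_combination -hl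
    rw [hP.1, ← ZMod.intCast_zmod_eq_zero_iff_dvd] at this
    push_cast at this ⊢
    linear_combination this

theorem Eqs.defect {q₀ : ℕ} {P : Par Z.I Z.V} (hP : Z.Fits q₀ P) {A : Set (P.X × P.H)}
    (h : Z.Eqs P A) (hA : IsFullyPeriodic A) : ∃ Q F Act, Z.Defect q₀ Q F Act ∧ Z.Labelled F := by
  obtain ⟨T, α, st, rfl, hS⟩ := h.snd hP
  obtain ⟨N, hN, hper⟩ := Par.exists_period hA
  exact hS.defect hP hN hper

end Puzzle

end Crest.Agent.R46
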