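import Crest.Agent.R46.SudDef

/-!
# R46: a robust `p`-adic Sudoku
-/

set_option autoImplicit false
open Finset
open scoped Classical

namespace Crest.Agent.R46

section abstract

variable {G H : Type} [CommRing G] [Fintype G] [CommRing H]

omit [Fintype G] in
theorem col_map_int (φ : G →+ H) (u : ℤ) (k : G) : φ ((u : G) * k) = (u : H) * φ k := by
  rw [← zsmul_eq_mul, map_zsmul, zsmul_eq_mul]

theorem col_unscale {u : ℤ} (hG : IsUnit (u : G)) (hH : IsUnit (u : H)) (f : G → H) (φ : G →+ H)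
    (c : H) {δ : ℝ} (h : pr (fun x => (u : H) * f (Ring.inverse (u : G) * x) ≠ φ x + c) ≤ δ) :
    pr (fun k => f k ≠ φ k + Ring.inverse (u : H) * c) ≤ δ := by
  have h1 := pr_affine (AddMonoidHom.mulLeft (u : G))
    (fun x => ⟨Ring.inverse (u : G) * x, Ring.mul_inverse_cancel_left _ _ hG⟩) 0
    (fun x => (u : H) * f (Ring.inverse (u : G) * x) ≠ φ x + c)
  refine le_trans (pr_mono fun k hk => ?_) (h1.le.trans h)
  simp only [AddMonoidHom.coe_mulLeft, add_zero, Ring.inverse_mul_cancel_left _ _ hG, col_map_int]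
  intro e
  apply hk
  rw [← Ring.inverse_mul_cancel_left (u : H) (f k) hH, e, mul_add,
    Ring.inverse_mul_cancel_left _ _ hH]

theorem col_three (f₁ f₂ f₃ : G → H) (n₁ n₂ n₃ : ℤ) (g₁ : IsUnit ((n₂ - n₃ : ℤ) : G))
    (g₂ : IsUnit ((n₃ - n₁ : ℤ) : G)) (g₃ : IsUnit ((n₂ - n₁ : ℤ) : G))
    (h₁ : IsUnit ((n₂ - n₃ : ℤ) : H)) (h₂ : IsUnit ((n₃ - n₁ : ℤ) : H)) {δ : ℝ} (hδ : 6 * δ < 1)
    (h : pr (fun y : G × G => ((n₂ - n₃ : ℤ) : H) * f₁ (y.1 + n₁ * y.2) +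
      ((n₃ - n₁ : ℤ) : H) * f₂ (y.1 + n₂ * y.2) ≠ ((n₂ - n₁ : ℤ) : H) * f₃ (y.1 + n₃ * y.2)) ≤ δ) :
    ∃ (φ : G →+ H) (c₁ c₂ : H), pr (fun x => f₁ x ≠ φ x + c₁) ≤ 2 * δ ∧
      pr (fun x => f₂ x ≠ φ x + c₂) ≤ 2 * δ := by
  let ψ : G × G →+ G × G :=
    { toFun := fun y => (((n₂ - n₃ : ℤ) : G) * (y.1 + n₁ * y.2),
        ((n₃ - n₁ : ℤ) : G) * (y.1 + n₂ * y.2))
      map_zero' := by simp
      map_add' := fun a b => by ext <;> simp only [Prod.fst_add, Prod.snd_add] <;> ring }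
  have hψ : Function.Surjective ψ := by
    refine Finite.surjective_of_injective ((injective_iff_map_eq_zero ψ).2 fun y hy => ?_)
    have a1 := (g₁.mul_right_eq_zero).1 (congrArg Prod.fst hy)
    have a2 := (g₂.mul_right_eq_zero).1 (congrArg Prod.snd hy)
    have a3 : y.2 = 0 := (g₃.mul_right_eq_zero).1 (by push_cast; linear_combination a2 - a1)
    rw [a3, mul_zero, add_zero] at a1
    exact Prod.ext a1 a3
  have h1 := pr_affine ψ hψ 0 fun z : G × G =>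
    ((n₂ - n₃ : ℤ) : H) * f₁ (Ring.inverse ((n₂ - n₃ : ℤ) : G) * z.1) +
      ((n₃ - n₁ : ℤ) : H) * f₂ (Ring.inverse ((n₃ - n₁ : ℤ) : G) * z.2) ≠
      ((n₂ - n₁ : ℤ) : H) * f₃ (Ring.inverse ((n₂ - n₁ : ℤ) : G) * (z.1 + z.2))
  obtain ⟨φ, c₁, c₂, a1, a2⟩ := blr
    (fun x => ((n₂ - n₃ : ℤ) : H) * f₁ (Ring.inverse ((n₂ - n₃ : ℤ) : G) * x))
    (fun x => ((n₃ - n₁ : ℤ) : H) * f₂ (Ring.inverse ((n₃ - n₁ : ℤ) : G) * x))
    (fun x => ((n₂ - n₁ : ℤ) : H) * f₃ (Ring.inverse ((n₂ - n₁ : ℤ) : G) * x)) hδ (by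
      refine h1.ge.trans (le_trans (pr_mono fun y hy => ?_) h)
      have e : (ψ y).1 + (ψ y).2 = ((n₂ - n₁ : ℤ) : G) * (y.1 + n₃ * y.2) := by
        simp only [ψ, AddMonoidHom.coe_mk, ZeroHom.coe_mk]; push_cast; ring
      rw [add_zero, e] at hy
      simpa only [ψ, AddMonoidHom.coe_mk, ZeroHom.coe_mk, Ring.inverse_mul_cancel_left _ _ g₁,
        Ring.inverse_mul_cancel_left _ _ g₂, Ring.inverse_mul_cancel_left _ _ g₃] using hy)
  exact ⟨φ, _, _, col_unscale g₁ h₁ f₁ φ c₁ a1, col_unscale g₂ h₂ f₂ φ c₂ a2⟩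

theorem col_unique {f : G → H} {φ φ' : G →+ H} {c c' : H} {δ : ℝ} (hδ : 2 * δ < 1 / 2)
    (h : pr (fun x => f x ≠ φ x + c) ≤ δ) (h' : pr (fun x => f x ≠ φ' x + c') ≤ δ) : φ = φ' := by
  refine sub_eq_zero.1 (hom_eq_zero (φ - φ') (c' - c) ?_)
  refine lt_of_le_of_lt ((pr_mono fun x hx => ?_).trans
    (pr_or_le (fun x => f x ≠ φ x + c) fun x => f x ≠ φ' x + c')) (by linarith)
  by_contra hn
  push Not at hn
  apply hx
  rw [AddMonoidHom.sub_apply]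
  linear_combination hn.2 - hn.1

theorem col_line (n : ℤ) (E : G → Prop) : pr (fun y : G × G => E (y.1 + n * y.2)) = pr E := by
  have := pr_affine (AddMonoidHom.fst G G + (AddMonoidHom.mulLeft (n : G)).comp
    (AddMonoidHom.snd G G)) (fun x => ⟨(x, 0), by simp⟩) 0 E
  simpa using this

theorem col_const (f₁ f₂ f₃ : G → H) (n₁ n₂ n₃ : ℤ) {δ : ℝ} (hδ : 7 * δ < 1)
    (h : pr (fun y : G × G => ((n₂ - n₃ : ℤ) : H) * f₁ (y.1 + n₁ * y.2) +
      ((n₃ - n₁ : ℤ) : H) * f₂ (y.1 + n₂ * y.2) ≠ ((n₂ - n₁ : ℤ) : H) * f₃ (y.1 + n₃ * y.2)) ≤ δ)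
    {φ : G →+ H} {c₁ c₂ c₃ : H} (a₁ : pr (fun x => f₁ x ≠ φ x + c₁) ≤ 2 * δ)
    (a₂ : pr (fun x => f₂ x ≠ φ x + c₂) ≤ 2 * δ) (a₃ : pr (fun x => f₃ x ≠ φ x + c₃) ≤ 2 * δ) :
    ((n₂ - n₃ : ℤ) : H) * c₁ + ((n₃ - n₁ : ℤ) : H) * c₂ = ((n₂ - n₁ : ℤ) : H) * c₃ := by
  rw [← col_line n₁] at a₁
  rw [← col_line n₂] at a₂
  rw [← col_line n₃] at a₃
  have b1 := (pr_or_le _ _).trans (add_le_add h ((pr_or_le _ _).trans (add_le_add a₁
    ((pr_or_le _ _).trans (add_le_add a₂ a₃)))))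
  obtain ⟨y, hy⟩ := exists_not_of_pr_lt (b1.trans_lt (by linarith))
  push Not at hy
  obtain ⟨e0, e1, e2, e3⟩ := hy
  rw [e1, e2, e3] at e0
  simp only [map_add, col_map_int] at e0
  push_cast at e0 ⊢
  linear_combination e0

end abstract

theorem col_unit {p M : ℕ} (hM : M.Coprime (p - 1).factorial) {a b : Fin p} (h : a ≠ b) :
    IsUnit ((((a : ℕ) : ℤ) - ((b : ℕ) : ℤ) : ℤ) : ZMod M) := by
  have key : ∀ a b : Fin p, b < a → IsUnit ((((a : ℕ) : ℤ) - ((b : ℕ) : ℤ) : ℤ) : ZMod M) := by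
    intro a b hab
    have h1 := Fin.lt_def.1 hab
    have h2 := a.2
    rw [← Nat.cast_sub h1.le, Int.cast_natCast, ZMod.isUnit_iff_coprime]
    exact (hM.coprime_dvd_right (Nat.dvd_factorial (by omega) (by omega))).symm
  rcases lt_or_gt_of_ne h with h1 | h1
  · rw [← neg_sub, Int.cast_neg]
    exact (key b a h1).neg
  · exact key a b h1

variable {p : ℕ} [hp : Fact p.Prime] {P : ℕ} [NeZero P]
  {F : Fin p → ℤ → ZMod (p ^ 2) × ZMod p} {Act : Fin p → ℤ → ℤ → Prop}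

/-- First half of the structure theorem. Let `ε = p / q₀ = 1 / (40 p)` bound the probability of a
bad point (`pr_not_act`, `pr_exists_le`); at good points choose `(a, b)`; the events
`red (a n + b) = 0` are disjoint in `n`; `N` is the set of `n` where this has probability `≤ 1/50`
(`card_heavy_le`). For distinct `n₁ n₂ n₃ ∈ N` the relation
`(n₂ - n₃) F₁ + (n₃ - n₁) F₂ = (n₂ - n₁) F₃` fails with probability `≤ δ = 3/50 + ε`. The differences
are units modulo `P` and modulo `p²`; in the coordinates `x = (n₂ - n₃) k₁`, `y = (n₃ - n₁) k₂`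
(`k_s = i + n_s j`, a bijection of `ZMod P × ZMod P`) apply `blr`: `F₁ k = φ k + C₁`,
`F₂ k = φ k + C₂` up to `2 δ`. `φ` does not depend on the choices (`hom_eq_zero`, `4 δ < 1/2`),
`B = φ 1`, and `n ↦ C_n` is affine on `N` (a point where the relation and the three approximations
hold, `7 δ < 1`). -/
theorem exists_columns (h200 : 200 ≤ p) (h : (puz p).Defect (40 * p ^ 2) P F Act)
    (hP : P.Coprime (p - 1).factorial) :
    ∃ (A B C : ZMod (p ^ 2)) (N : Finset (Fin p)), (P : ZMod (p ^ 2)) * B = 0 ∧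
      p ≤ N.card + 50 ∧ ∀ n ∈ N, pr (fun k : ZMod P =>
        (F n (k.val : ℤ)).1 ≠ B * (k.val : ZMod (p ^ 2)) + A * ((n : ℕ) : ZMod (p ^ 2)) + C) ≤
          13 / 100 := by
  have hp1 : p.Coprime (p - 1).factorial := (Nat.Prime.coprime_iff_not_dvd hp.out).2 fun hd => by
    have := (hp.out.dvd_factorial).1 hd
    omega
  have hp2 : (p ^ 2).Coprime (p - 1).factorial := hp1.pow_left 2
  have hp' : (200 : ℝ) ≤ p := by exact_mod_cast h200
  let f : Fin p → ZMod P → ZMod (p ^ 2) := fun n k => (F n (k.val : ℤ)).1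
  let Good : ZMod P × ZMod P → Prop := fun y => ∀ n, Act n (y.1.val : ℤ) (y.2.val : ℤ)
  have hbad : pr (fun y => ¬ Good y) ≤ 1 / 8000 := by
    refine (pr_mono (E' := fun y : ZMod P × ZMod P => ∃ n, ¬ Act n (y.1.val : ℤ) (y.2.val : ℤ))
      fun y hy => not_forall.1 hy).trans ((pr_exists_le _).trans ?_)
    refine (sum_le_card_nsmul (univ : Finset (Fin p)) _ (1 / ((40 * p ^ 2 : ℕ) : ℝ))
      fun n _ => h.pr_not_act (by positivity) n).trans ?_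
    rw [card_univ, Fintype.card_fin, nsmul_eq_mul]
    push_cast
    rw [mul_one_div, div_le_div_iff₀ (by positivity) (by norm_num)]
    nlinarith
  have hloc : ∀ y, Good y → ∃ a b, Loc p (fun n => F n
      (((y.1 + (((n : ℕ) : ℤ) : ZMod P) * y.2).val : ℕ) : ℤ)) a b := fun y hy => by
    obtain ⟨a, b, hab⟩ := h.rel _ _ hy
    refine ⟨a, b, ?_⟩
    convert hab using 2 with n
    exact (periodic_val (h.perF n) (by simp [puz])).symm
  choose! a b hab using hloc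
  let E : Fin p → ZMod P × ZMod P → Prop := fun n y =>
    Good y ∧ red p (a y * ((n : ℕ) : ZMod (p ^ 2)) + b y) = 0
  have hdis : ∀ y n n', E n y → E n' y → n = n' := fun y n n' h1 h2 => by
    by_contra hne
    have u := col_unit hp1 hne
    have e1 := h1.2
    have e2 := h2.2
    simp only [map_add, map_mul, map_natCast] at e1 e2
    have e3 : red p (a y) = 0 := (u.mul_left_eq_zero).1 (by push_cast; linear_combination e1 - e2)
    rw [e3, zero_mul, zero_add] at e1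
    exact (hab y h1.1).1.elim (fun h => h e3) fun h => h e1
  let N := univ.filter fun n => ¬ 1 / 50 < pr (E n)
  have hN : p ≤ N.card + 50 := by
    have h1 := card_heavy_le E hdis
    have h2 := card_filter_add_card_filter_not (s := univ) fun n => 1 / 50 < pr (E n)
    rw [card_univ, Fintype.card_fin] at h2
    simp only [N]
    omega
  have hrel : ∀ n₁ ∈ N, ∀ n₂ ∈ N, ∀ n₃ ∈ N, pr (fun y : ZMod P × ZMod P =>
      ((((n₂ : ℕ) : ℤ) - ((n₃ : ℕ) : ℤ) : ℤ) : ZMod (p ^ 2)) * f n₁ (y.1 + ((n₁ : ℕ) : ℤ) * y.2) +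
      ((((n₃ : ℕ) : ℤ) - ((n₁ : ℕ) : ℤ) : ℤ) : ZMod (p ^ 2)) * f n₂ (y.1 + ((n₂ : ℕ) : ℤ) * y.2) ≠
      ((((n₂ : ℕ) : ℤ) - ((n₁ : ℕ) : ℤ) : ℤ) : ZMod (p ^ 2)) * f n₃ (y.1 + ((n₃ : ℕ) : ℤ) * y.2)) ≤
        61 / 1000 := by
    intro n₁ h₁ n₂ h₂ n₃ h₃
    have b1 := (pr_or_le _ _).trans (add_le_add hbad ((pr_or_le _ _).trans (add_le_add
      (not_lt.1 (mem_filter.1 h₁).2) ((pr_or_le _ _).trans
        (add_le_add (not_lt.1 (mem_filter.1 h₂).2) (not_lt.1 (mem_filter.1 h₃).2))))))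
    refine (pr_mono fun y hy => ?_).trans (b1.trans (by norm_num))
    by_contra hn
    simp only [not_or, not_not, E, not_and] at hn
    obtain ⟨g, e1, e2, e3⟩ := hn
    apply hy
    simp only [f]
    rw [(hab y g).2.1 n₁ (e1 g), (hab y g).2.1 n₂ (e2 g), (hab y g).2.1 n₃ (e3 g)]
    push_cast
    ring
  have hpair : ∀ n₁ ∈ N, ∀ n₂ ∈ N, n₂ ≠ n₁ → ∃ (φ : ZMod P →+ ZMod (p ^ 2)) (c₁ c₂ : ZMod (p ^ 2)),
      pr (fun x => f n₁ x ≠ φ x + c₁) ≤ 2 * (61 / 1000) ∧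
        pr (fun x => f n₂ x ≠ φ x + c₂) ≤ 2 * (61 / 1000) := fun n₁ h₁ n₂ h₂ hne => by
    obtain ⟨n₃, h₃, h₄⟩ := exists_mem_notMem_of_card_lt_card
      (s := {n₁, n₂}) (t := N) ((card_le_two).trans_lt (by omega))
    simp only [mem_insert, mem_singleton, not_or] at h₄
    exact col_three _ _ (f n₃) _ _ _ (col_unit hP (Ne.symm h₄.2)) (col_unit hP h₄.1)
      (col_unit hP hne) (col_unit hp2 (Ne.symm h₄.2)) (col_unit hp2 h₄.1) (by norm_num)
      (hrel n₁ h₁ n₂ h₂ n₃ h₃)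
  obtain ⟨n₁, h₁, n₂, h₂, hne⟩ := one_lt_card.1 (by omega : 1 < N.card)
  obtain ⟨φ, c₁, c₂, a₁, a₂⟩ := hpair n₁ h₁ n₂ h₂ hne.symm
  have hall : ∀ n ∈ N, ∃ c, pr (fun x => f n x ≠ φ x + c) ≤ 2 * (61 / 1000) := fun n hn => by
    by_cases e : n = n₁
    · exact ⟨c₁, e ▸ a₁⟩
    obtain ⟨φ', d₁, d₂, b₁, b₂⟩ := hpair n₁ h₁ n hn e
    exact ⟨d₂, col_unique (by norm_num) a₁ b₁ ▸ b₂⟩
  have u := col_unit hp2 hne.symm
  obtain ⟨v, hv⟩ := u.exists_left_inv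
  have hφ : ∀ k : ZMod P, φ k = φ 1 * (k.val : ZMod (p ^ 2)) := fun k => by
    conv_lhs => rw [← ZMod.natCast_zmod_val k, ← nsmul_one, map_nsmul, nsmul_eq_mul, mul_comm]
  refine ⟨v * (c₂ - c₁), φ 1, v * (((n₂ : ℕ) : ZMod (p ^ 2)) * c₁ - ((n₁ : ℕ) : ZMod (p ^ 2)) * c₂),
    N, ?_, hN, fun n hn => ?_⟩
  · rw [← nsmul_eq_mul, ← map_nsmul, nsmul_one, ZMod.natCast_self, map_zero]
  obtain ⟨c, hc⟩ := hall n hn
  have e := col_const _ _ _ _ _ _ (by norm_num) (hrel n₁ h₁ n₂ h₂ n hn) a₁ a₂ hc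
  refine (pr_mono fun k hk => ?_).trans (hc.trans (by norm_num))
  intro e'
  apply hk
  push_cast at e hv
  change f n k = _
  rw [e', hφ]
  linear_combination (-c) * hv - v * e

end Crest.Agent.R46
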