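import Crest.Agent.R46.BLR

/-!
# R46: a robust `p`-adic Sudoku
-/

set_option autoImplicit false
open Finset
open scoped Classical

namespace Crest.Agent.R46

variable (p : ℕ) [hp : Fact p.Prime]

/-- Reduction modulo `p`. -/
def red : ZMod (p ^ 2) →+* ZMod p := ZMod.castHom (dvd_pow_self p two_ne_zero) (ZMod p)

/-- The rule at a point, with local affine data `(a, b)`. -/
def Loc (g : Fin p → ZMod (p ^ 2) × ZMod p) (a b : ZMod (p ^ 2)) : Prop :=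
  (red p a ≠ 0 ∨ red p b ≠ 0) ∧
  (∀ n : Fin p, red p (a * ((n : ℕ) : ZMod (p ^ 2)) + b) ≠ 0 →
    (g n).1 = a * ((n : ℕ) : ZMod (p ^ 2)) + b) ∧
  (∀ (n : Fin p) (u : ZMod (p ^ 2)),
    a * ((n : ℕ) : ZMod (p ^ 2)) + b = (p : ZMod (p ^ 2)) * u → red p u ≠ 0 →
      red p (g n).1 = red p u) ∧
  ((g ⟨0, hp.out.pos⟩).2 ≠ 0 → red p b = (g ⟨0, hp.out.pos⟩).2)

noncomputable def puz : Puzzle where
  ι := Fin p
  S := ZMod (p ^ 2) × ZMod p
  ν n := (n : ℕ)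
  n₀ := ⟨0, hp.out.pos⟩
  p := p
  Rel := {g | ∃ a b, Loc p g a b}
  lab := Prod.snd

theorem sud_unit_part : ∃ U : ℤ → ℤ, U 0 = 1 ∧
    ∀ (v : ℕ) (m : ℤ), ¬ (p : ℤ) ∣ m → U ((p : ℤ) ^ v * m) = m := by
  refine ⟨fun k => if k = 0 then 1 else k / (p : ℤ) ^ padicValInt p k, by simp, fun v m hm => ?_⟩
  have hp0 : (p : ℤ) ^ v ≠ 0 := pow_ne_zero _ (by exact_mod_cast hp.out.ne_zero)
  have hm0 : m ≠ 0 := fun e => hm (e ▸ dvd_zero _)
  have h1 : padicValInt p ((p : ℤ) ^ v * m) = v := by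
    rw [padicValInt.mul hp0 hm0, padicValInt.eq_zero_of_not_dvd hm, add_zero, ← Nat.cast_pow,
      padicValInt.of_nat, padicValNat.prime_pow]
  simp only [if_neg (mul_ne_zero hp0 hm0), h1]
  exact Int.mul_ediv_cancel_left _ hp0

theorem sud_split {i j : ℤ} (h : ¬ (i = 0 ∧ j = 0)) : ∃ (v : ℕ) (a b : ℤ),
    i = (p : ℤ) ^ v * b ∧ j = (p : ℤ) ^ v * a ∧ (¬ (p : ℤ) ∣ a ∨ ¬ (p : ℤ) ∣ b) := by
  have h0 : 0 < Int.gcd i j := Nat.pos_of_ne_zero fun e => h (Int.gcd_eq_zero_iff.1 e)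
  obtain ⟨i', j', h1, h2, h3⟩ := Int.exists_gcd_one h0
  obtain ⟨v, m, h4, h5⟩ := Nat.exists_eq_pow_mul_and_not_dvd h0.ne' p hp.out.ne_one
  have hP : Prime (p : ℤ) := Nat.prime_iff_prime_int.1 hp.out
  have h6 : ¬ (p : ℤ) ∣ m := fun e => h4 (Int.natCast_dvd_natCast.1 e)
  rw [h5] at h2 h3
  refine ⟨v, j' * m, i' * m, by rw [h2]; push_cast; ring, by rw [h3]; push_cast; ring, ?_⟩
  by_contra hn
  push Not at hn
  have := Int.dvd_gcd ((hP.dvd_or_dvd hn.2).resolve_right h6)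
    ((hP.dvd_or_dvd hn.1).resolve_right h6)
  rw [h1] at this
  exact hp.out.one_lt.ne' (Nat.dvd_one.1 this)

theorem red_intCast_eq_zero (m : ℤ) : red p m = 0 ↔ (p : ℤ) ∣ m := by
  rw [map_intCast, ZMod.intCast_zmod_eq_zero_iff_dvd]

/-- `F n k = (k / p ^ v_p(k), k)` (and `1` in the first entry for `k = 0`). At `(i, j) ≠ 0` write
`(i, j) = p ^ v (b, a)` with `a`, `b` not both divisible by `p`; at `0` take `a = 0`, `b = 1`. -/
theorem puz_exact : ∃ F, (puz p).Exact F := by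
  obtain ⟨U, U0, hU⟩ := sud_unit_part p
  refine ⟨fun _ k => ((U k : ZMod (p ^ 2)), (k : ZMod p)), fun i j => ?_, fun k => rfl⟩
  change ∃ a b, Loc p (fun n : Fin p => ((U (i + (n : ℕ) * j) : ZMod (p ^ 2)),
    ((i + (n : ℕ) * j : ℤ) : ZMod p))) a b
  by_cases h : i = 0 ∧ j = 0
  · obtain ⟨rfl, rfl⟩ := h
    refine ⟨0, 1, Or.inr (by simp), fun n _ => by simp [U0], fun n u hu _ => ?_, by simp⟩
    have := congrArg (red p) hu
    simp at this
  obtain ⟨v, a, b, rfl, rfl, h3⟩ := sud_split p h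
  have e : ∀ n : ℕ, (p : ℤ) ^ v * b + n * ((p : ℤ) ^ v * a) = (p : ℤ) ^ v * (a * n + b) :=
    fun n => by ring
  have e' : ∀ n : ℕ, (a : ZMod (p ^ 2)) * n + b = ((a * n + b : ℤ) : ZMod (p ^ 2)) :=
    fun n => by push_cast; rfl
  refine ⟨a, b, by simpa only [Ne, red_intCast_eq_zero] using h3, fun n hn => ?_,
    fun n u hu hu' => ?_, fun h0 => ?_⟩
  · rw [e', Ne, red_intCast_eq_zero] at hn
    simp only [e, hU _ _ hn, e']
  · obtain ⟨u, rfl⟩ := ZMod.intCast_surjective u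
    rw [e', ← Int.cast_natCast (R := ZMod (p ^ 2)) p, ← Int.cast_mul, ZMod.intCast_eq_intCast_iff_dvd_sub] at hu
    obtain ⟨c, hc⟩ := hu
    have h1 : a * (n : ℕ) + b = p * (u - p * c) := by
      push_cast at hc
      linear_combination -hc
    have h2 : red p ((u - p * c : ℤ) : ZMod (p ^ 2)) = red p u := by simp
    have h4 : ¬ (p : ℤ) ∣ u - p * c := by rwa [← red_intCast_eq_zero, h2]
    dsimp only
    rw [e, h1, ← mul_assoc, ← pow_succ, hU _ _ h4, h2]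
  · cases v with
    | zero => simp
    | succ v => simp [pow_succ] at h0

variable {p} {P : ℕ} [NeZero P] {F : Fin p → ℤ → ZMod (p ^ 2) × ZMod p}
  {Act : Fin p → ℤ → ℤ → Prop}

/-- The rule holds at `(i, j)` with the global affine data. -/
def Glob (F : Fin p → ℤ → ZMod (p ^ 2) × ZMod p) (A B C : ZMod (p ^ 2)) (i j : ℤ) : Prop :=
  Loc p (fun n => F n (i + (n : ℕ) * j)) (A + B * j) (B * i + C)

end Crest.Agent.R46
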