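import Crest.Agent.R46.Occ

/-!
# R46: what the switch tiles say
-/

set_option autoImplicit false
set_option linter.unusedSectionVars false
open Finset

namespace Crest.Agent.R46

theorem sw_arith {A : Type*} [Ring A] (a : ℤ → A) (h : ∀ j, a (j + 1) - a j = a j - a (j - 1))
    (j : ℤ) : a j = a 0 + j * (a 1 - a 0) := by
  have h1 : ∀ j, a (j + 1) - a j = a 1 - a 0 := fun j => by
    induction j using Int.induction_on with
    | zero => rw [zero_add]
    | succ j ih => rw [h, add_sub_cancel_right, ih]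
    | pred j ih => rw [sub_add_cancel, ← h, ih]
  induction j using Int.induction_on with
  | zero => simp
  | succ j ih =>
    rw [sub_eq_iff_eq_add.1 (h1 j), ih]
    push_cast
    noncomm_ring
  | pred j ih =>
    have := h1 (-j - 1)
    rw [sub_add_cancel, sub_eq_iff_eq_add, ← sub_eq_iff_eq_add'] at this
    rw [← this, ih]
    push_cast
    noncomm_ring

theorem sw_const {A : Type*} (a : ℤ → A) (h : ∀ j, a (j + 1) = a j) (j : ℤ) : a j = a 0 := by
  induction j using Int.induction_on with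
  | zero => rfl
  | succ j ih => rw [h, ih]
  | pred j ih => rw [← h, sub_add_cancel, ih]

namespace Par
variable {I V : Type} {P : Par I V} [Fintype I] [DecidableEq I] [Fintype V] [DecidableEq V]
variable {T : P.Fr} {α : P.X → P.H}

/-- `sel x g = δ + g` for the unique `δ : K b` with `pr x - g - δ` in the frames
(`Bij.existsUnique`); then `tiles_graph_iff`. -/
theorem exists_sel (hT : P.Bij T) (b : Option I) : ∃ sel : P.X → P.G → P.G,
    (∀ x g, x - P.L (sel x g) ∈ P.O T) ∧
    (∀ x g n, key (decide (b = some n)) (sel x g n) = key (decide (b = some n)) (g n)) ∧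
    (∀ x g, x - P.L g ∈ P.O T → sel x g = g) ∧
    ∀ (α : P.X → P.H) gs us es, Tiles (Graph (P.O T) α) (P.sw b gs us es) ↔
      ∀ x, Function.Injective fun η : P.H => η + (es η (sel x (gs η)) +
        α (x - P.L (sel x (gs η)) - P.M (us η (sel x (gs η))))) := by
  choose d hd hu using hT.existsUnique b
  have hmem : ∀ (x : P.X) (g : P.G) (δ : P.K b), x - P.L (δ.1 + g) ∈ P.O T ↔ δ = d (P.pr x - g) := by
    intro x g δ
    have e : P.pr (x - P.L (δ.1 + g)) = P.pr x - g - δ.1 := by rw [map_sub, pr_L]; abel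
    rw [mem_O, e]
    exact ⟨hu _ δ, fun h => h ▸ hd _⟩
  refine ⟨fun x g => (d (P.pr x - g)).1 + g, fun x g => (hmem x g _).2 rfl, fun x g n => ?_,
    fun x g h => ?_, fun α gs us es => ?_⟩
  · simp only [Pi.add_apply, key_add, (d (P.pr x - g)).2 n, zero_add]
  · have := (hmem x g ⟨0, fun n => key_zero _⟩).1 (by simpa using h)
    simp only [← this, zero_add]
  · have := tiles_graph_iff (O := P.O T) (α := α)
      (pos := fun (δ : P.K b) η => P.L (δ.1 + gs η) + P.M (us η (δ.1 + gs η)))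
      (off := fun δ η => es η (δ.1 + gs η)) (sel := fun x η => d (P.pr x - gs η))
      fun x η δ => by rw [← sub_sub, sub_M_mem, hmem]
    simp only [← sub_sub] at this
    exact this

/-- `exists_sel` at `x = o` and `cyc_sound`. -/
theorem cyc_sound' (hT : P.Bij T) {b : Option I} {S : Type} [Fintype S] [Nonempty S] {c : S → V}
    {g : S → P.G} {u : S → ℤ × ℤ} {e : S → P.H} {u' : P.G → ℤ × ℤ} {e' : P.G → P.H}
    (h : Tiles (Graph (P.O T) α) (P.cyc b c g u e u' e')) {o : P.X} (ho : o ∈ P.O T)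
    (ho' : o - P.L (∑ i, g i) ∈ P.O T) :
    ∃ i, (∑ j, e j) (c i) + e' (∑ j, g j) (c i) +
        α (o - P.L (∑ j, g j) - P.M (∑ j, u j + u' (∑ j, g j))) (c i) =
      e' 0 (c i) + α (o - P.M (u' 0)) (c i) := by
  obtain ⟨sel, -, -, h3, h4⟩ := exists_sel hT b
  obtain ⟨i, hi⟩ := cyc_sound (c := c) (D := fun ε =>
    ((∑ i, if ε i then e i else 0) + e' (sel o (∑ i, if ε i then g i else 0))) +
      α (o - P.L (sel o (∑ i, if ε i then g i else 0)) - P.M ((∑ i, if ε i then u i else 0) +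
        u' (sel o (∑ i, if ε i then g i else 0))))) ((h4 α _ _ _).1 h o)
  refine ⟨i, ?_⟩
  simpa [h3 o _ ho', h3 o 0 (by simpa using ho)] using hi

/-- `exists_sel` and `cyc_compl`. -/
theorem cyc_compl' (hT : P.Bij T) {b : Option I} {S : Type} [Fintype S] {c : S → V}
    {g : S → P.G} {u : S → ℤ × ℤ} {e : S → P.H} {u' : P.G → ℤ × ℤ} {e' : P.G → P.H}
    (h : ∀ (x : P.X) (δ : (S → Bool) → P.G) (D : (S → Bool) → P.H),
      (∀ ε, x - P.L (δ ε) ∈ P.O T) →
      (∀ ε n, key (decide (b = some n)) (δ ε n) =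
        key (decide (b = some n)) ((∑ i, if ε i then g i else 0) n)) →
      (∀ ε ε', (∑ i, if ε i then g i else 0) = (∑ i, if ε' i then g i else 0) → δ ε = δ ε') →
      (∀ ε, D ε = (∑ i, if ε i then e i else 0) + e' (δ ε) +
        α (x - P.L (δ ε) - P.M ((∑ i, if ε i then u i else 0) + u' (δ ε)))) →
      (∀ ε ε' i, ε i = ε' i → D ε (c i) = D ε' (c i)) ∧
        ∃ i₀, ∀ ε ε', D ε (c i₀) = D ε' (c i₀)) :
    Tiles (Graph (P.O T) α) (P.cyc b c g u e u' e') := by
  obtain ⟨sel, h1, h2, -, h4⟩ := exists_sel hT b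
  refine (h4 α _ _ _).2 fun x => ?_
  obtain ⟨a1, i₀, a2⟩ := h x (fun ε => sel x (∑ i, if ε i then g i else 0)) _ (fun ε => h1 _ _)
    (fun ε n => h2 _ _ n) (fun ε ε' e => by rw [e]) fun ε => rfl
  exact cyc_compl a1 a2

/-- `exists_sel` and `hole_iff`: at each `o` either both neighbours `o ± M w` have the same value
or the values go up by one. Since `0 ≠ 1` the alternative propagates along the line. -/
theorem hole_iff' (hT : P.Bij T) {v : V} (hv : 2 ≤ P.r v) (w : ℤ × ℤ) :
    Tiles (Graph (P.O T) α) (P.hole v w) ↔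
      ∀ o ∈ P.O T, P.Slope α v w o 0 ∨ P.Slope α v w o 1 := by
  obtain ⟨sel, h1, -, h3, h4⟩ := exists_sel hT none
  have key : ∀ o : P.X, (Function.Injective fun η : P.H =>
      η + (0 + α (o - P.M (if η v = 0 then -w else if η v = 1 then w else 0)))) ↔
      (α (o + P.M w) v = α o v ∧ α (o - P.M w) v = α o v) ∨
        (α (o + P.M w) v = α o v + 1 ∧ α (o - P.M w) v = α o v - 1) := fun o => by
    rw [← hole_iff hv]
    refine iff_of_eq (congrArg _ (funext fun η => ?_))
    split_ifs <;> simp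
  refine (h4 α _ _ _).trans ⟨fun h o ho => ?_, fun h x => (key _).2 ?_⟩
  · have h5 : ∀ o ∈ P.O T, (α (o + P.M w) v = α o v ∧ α (o - P.M w) v = α o v) ∨
        (α (o + P.M w) v = α o v + 1 ∧ α (o - P.M w) v = α o v - 1) := fun o ho => by
      have := (key _).1 (h o)
      rwa [h3 o 0 (by simpa using ho), L_zero, sub_zero] at this
    have h6 := sw_arith (fun j : ℤ => α (o + P.M (j • w)) v) fun j => by
      have e1 : o + P.M ((j + 1) • w) = o + P.M (j • w) + P.M w := by
        rw [add_smul, one_smul, map_add, add_assoc]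
      have e2 : o + P.M ((j - 1) • w) = o + P.M (j • w) - P.M w := by
        rw [sub_smul, one_smul, map_sub, add_sub_assoc]
      rw [e1, e2]
      rcases h5 (o + P.M (j • w)) (P.add_M_mem.2 ho) with ⟨a, b⟩ | ⟨a, b⟩ <;> rw [a, b] <;> ring
    simp only [zero_smul, map_zero, add_zero, one_smul] at h6
    rcases h5 o ho with ⟨a, -⟩ | ⟨a, -⟩
    · exact Or.inl fun j => by rw [h6, a]; simp
    · exact Or.inr fun j => by rw [h6, a]; simp
  · rcases h _ (h1 x 0) with a | a
    · exact Or.inl ⟨by simpa using a 1, by simpa [← sub_eq_add_neg] using a (-1)⟩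
    · exact Or.inr ⟨by simpa using a 1, by simpa [← sub_eq_add_neg] using a (-1)⟩

theorem tie_iff (hT : P.Bij T) (v : V) (w : ℤ × ℤ) :
    Tiles (Graph (P.O T) α) (P.tie v w) ↔ ∀ o ∈ P.O T, α (o - P.M w) v = α o v := by
  constructor
  · intro h o ho
    obtain ⟨i, hi⟩ := cyc_sound' hT h ho (by simpa using ho)
    simpa using hi
  · intro h
    refine cyc_compl' hT fun x δ D h1 _ h3 h4 => ?_
    have key : ∀ ε, D ε v = α (x - P.L (δ fun _ => true)) v := fun ε => by
      rw [h4, h3 ε (fun _ => true) (by simp)]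
      cases e : ε () <;> simp [e, h _ (h1 _)]
    exact ⟨fun ε ε' _ _ => by rw [key, key], (), fun ε ε' => by rw [key, key]⟩

/-- By `hper`, `α (o - M (K • w)) (c i)` depends only on `K` modulo `r (c i)`, and
`∑ j, if ε j then kk (c j) else 0` is `if ε i then 1 else 0` modulo `r (c i)`. -/
theorem clause_iff (hT : P.Bij T) {S : Type} [Fintype S] [Nonempty S] {c : S → V}
    (hc : Function.Injective c) {w : ℤ × ℤ} (τ : S → ℤ)
    (hper : ∀ i, ∀ o ∈ P.O T, α (o - P.M ((P.r (c i) : ℤ) • w)) (c i) = α o (c i)) :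
    Tiles (Graph (P.O T) α) (P.clause c w τ) ↔
      ∀ o ∈ P.O T, ∃ i, α (o - P.M w) (c i) + (τ i : ZMod (P.r (c i))) = α o (c i) := by
  have h1 : ∀ i, ∀ o ∈ P.O T, ∀ K K' : ℤ, (K : ZMod (P.r (c i))) = K' →
      α (o - P.M (K • w)) (c i) = α (o - P.M (K' • w)) (c i) := fun i o ho K K' e => by
    obtain ⟨t, ht⟩ := (ZMod.intCast_eq_intCast_iff_dvd_sub K' K _).1 e.symm
    have := sw_const (fun t : ℤ => α (o - P.M ((K' + P.r (c i) * t) • w)) (c i)) (fun t => by
      rw [← hper i _ (P.sub_M_mem.2 ho : o - P.M ((K' + P.r (c i) * t) • w) ∈ _), sub_sub, ← map_add,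
        ← add_smul, mul_add, mul_one, add_assoc]) t
    rwa [← ht, add_sub_cancel, mul_zero, add_zero] at this
  have h2 : ∀ o ∈ P.O T, ∀ (ε : S → Bool) i,
      (∑ j, if ε j then (Pi.single (c j) (τ j : ZMod (P.r (c j))) : P.H) else 0) (c i) +
        α (o - P.M (∑ j, if ε j then P.kk (c j) • w else 0)) (c i) =
      if ε i then α (o - P.M w) (c i) + (τ i : ZMod (P.r (c i))) else α o (c i) := by
    intro o ho ε i
    have e1 : (∑ j, if ε j then P.kk (c j) • w else 0) = (∑ j, if ε j then P.kk (c j) else 0) • w := by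
      rw [Finset.sum_smul]
      exact Finset.sum_congr rfl fun j _ => by split_ifs <;> simp
    have e2 : ((∑ j, if ε j then P.kk (c j) else 0 : ℤ) : ZMod (P.r (c i))) =
        ((if ε i then 1 else 0 : ℤ) : ZMod (P.r (c i))) := by
      rw [Int.cast_sum, Finset.sum_eq_single i]
      · split_ifs <;> simp [P.kk_self]
      · intro j _ hj
        split_ifs
        · exact P.kk_ne _ _ (hc.ne hj)
        · simp
      · simp
    have e3 : (∑ j, if ε j then (Pi.single (c j) (τ j : ZMod (P.r (c j))) : P.H) else 0) (c i) =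
        if ε i then (τ i : ZMod (P.r (c i))) else 0 := by
      rw [Finset.sum_apply, Finset.sum_eq_single i]
      · split_ifs <;> simp
      · intro j _ hj
        split_ifs
        · exact Pi.single_eq_of_ne (hc.ne hj).symm _
        · rfl
      · simp
    rw [e1, h1 i o ho _ _ e2, e3]
    split_ifs <;> simp [add_comm]
  constructor
  · intro h o ho
    obtain ⟨i, hi⟩ := cyc_sound' hT h ho (by simpa using ho)
    refine ⟨i, ?_⟩
    have := h2 o ho (fun _ => true) i
    simp only [if_true] at this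
    rw [← this]
    simpa using hi
  · intro h
    refine cyc_compl' hT fun x δ D a1 _ a3 a4 => ?_
    have key : ∀ ε i, D ε (c i) = if ε i then α (x - P.L (δ fun _ => true) - P.M w) (c i) +
        (τ i : ZMod (P.r (c i))) else α (x - P.L (δ fun _ => true)) (c i) := fun ε i => by
      rw [a4, a3 ε (fun _ => true) (by simp), ← h2 _ (a1 _)]
      simp
    obtain ⟨i₀, hi⟩ := h _ (a1 fun _ => true)
    exact ⟨fun ε ε' i e => by rw [key, key, e], i₀, fun ε ε' => by
      rw [key, key, hi, ite_self, ite_self]⟩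

/-- Use `L_fib`. -/
theorem nand_sound (hT : P.Bij T) {S : Type} [Fintype S] [Nonempty S] {c : S → V} {host : S → I}
    {ζ : P.R} (h : Tiles (Graph (P.O T) α) (P.nand c host ζ)) {o : P.X} (ho : o ∈ P.O T)
    {ζ' : P.R} (hζ : ζ' = ∑ i, Pi.single (host i) (ζ (host i))) (ho' : o - (0, ζ') ∈ P.O T) :
    ∃ i, α (o - (0, ζ')) (c i) = α o (c i) := by
  have e : P.L (∑ i, P.fib (Pi.single (host i) (ζ (host i)))) = (0, ζ') := by
    rw [← map_sum, ← hζ, L_fib]
  obtain ⟨i, hi⟩ := cyc_sound' hT h ho (by rwa [e])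
  refine ⟨i, ?_⟩
  rw [e] at hi
  simpa using hi

/-- `cyc_compl'` with `o ε = x - L (δ ε)`; `key false (0, 0, z) = (z.1, 0)`. -/
theorem nand_compl (hT : P.Bij T) {S : Type} [Fintype S] {c : S → V} {host : S → I} (ζ : P.R)
    (h : ∀ o : (S → Bool) → P.X, (∀ ε, o ε ∈ P.O T) → (∀ ε ε', P.Nb (o ε) (o ε')) →
      (∀ ε ε' n, (∀ i, host i = n → ε i = ε' i) → P.pr (o ε) n = P.pr (o ε') n) →
      (∀ ε ε' i, ε i = ε' i → α (o ε) (c i) = α (o ε') (c i)) ∧
        ∃ i₀, ∀ ε ε', α (o ε) (c i₀) = α (o ε') (c i₀)) :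
    Tiles (Graph (P.O T) α) (P.nand c host ζ) := by
  refine cyc_compl' hT fun x δ D a1 a2 _ a4 => ?_
  have e1 : ∀ ε, D ε = α (x - P.L (δ ε)) := fun ε => by rw [a4]; simp
  have e2 : ∀ (ε : S → Bool) n, key false (δ ε n) =
      (((∑ i, if ε i then (Pi.single (host i) (ζ (host i)) : P.R) else 0) n).1, 0) := fun ε n => by
    have e : (∑ i, if ε i then P.fib (Pi.single (host i) (ζ (host i))) else 0) =
        P.fib (∑ i, if ε i then (Pi.single (host i) (ζ (host i)) : P.R) else 0) := by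
      rw [map_sum]
      exact Finset.sum_congr rfl fun j _ => by split_ifs <;> simp
    have := a2 ε n
    rw [e] at this
    exact this
  have e3 : ∀ ε n, P.pr (x - P.L (δ ε)) n = P.pr x n - δ ε n := fun ε n => by
    rw [map_sub, pr_L, Pi.sub_apply]
  simp only [e1]
  refine h (fun ε => x - P.L (δ ε)) a1 (fun ε ε' => ⟨P.cong_L _ _ _, fun n => ?_, fun hn => ?_⟩)
    fun ε ε' n hn => ?_
  · rw [e3, e3, key_sub, key_sub, e2, e2]
    rfl
  · simp only [e3, Prod.fst_sub, Prod.snd_sub, sub_right_inj] at hn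
    simp only [Prod.fst_sub, L, funext fun n => (hn n).1, funext fun n => (hn n).2]
  · refine (hT n false _).unique ⟨a1 ε n, rfl⟩ ⟨a1 ε' n, ?_⟩
    rw [e3, e3, key_sub, key_sub, e2, e2, Finset.sum_apply, Finset.sum_apply,
      Finset.sum_congr rfl fun i _ => ?_]
    by_cases hi : host i = n
    · rw [hn i hi]
    · split_ifs <;> simp [Pi.single_eq_of_ne (Ne.symm hi)]

end Par

end Crest.Agent.R46
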